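import Crest.Agent.R52G.Split
import Crest.Prelude.Def_RandomGraph

set_option autoImplicit false

open Finset Crest.FinProb Crest.CombinatoricsR.RandomGraph

namespace Crest.Agent.R52G

variable {n : ℕ}

def slot (u v : Fin n) (h : u ≠ v) : EdgeSlot n := ⟨s(u, v), by simpa using h⟩

lemma adj_iff (ω : EdgeSlot n → Bool) (u v : Fin n) :
    (graphOf ω).Adj u v ↔ ∃ h : u ≠ v, ω (slot u v h) = true := by
  simp only [graphOf, SimpleGraph.fromEdgeSet_adj, Set.mem_setOf_eq]
  constructor
  · rintro ⟨⟨h, hω⟩, hne⟩; exact ⟨hne, hω⟩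
  · rintro ⟨h, hω⟩; exact ⟨⟨by simpa using h, hω⟩, h⟩

def Emb (N : Fin n → Finset (Fin n)) (ω : EdgeSlot n → Bool) : Prop :=
  ∃ φ : Fin n → Fin n, Function.Injective φ ∧ ∀ b, ∀ a ∈ N b, (graphOf ω).Adj (φ b) (φ a)

def Good (p : ℝ) (N : Fin n → Finset (Fin n)) : Prop := 1 / 2 ≤ Ex p (fun ω => ind (Emb N ω))

def Cov (p : ℝ) (k : ℕ) (N : Fin n → Finset (Fin n)) : Prop :=
  ∃ s : Finset (Fin n → Finset (Fin n)), s.card ≤ k ∧ (∀ M ∈ s, Good p M) ∧
    ∀ b, ∀ a ∈ N b, ∃ M ∈ s, a ∈ M b

lemma Good.cov {p : ℝ} {N : Fin n → Finset (Fin n)} (h : Good p N) : Cov p 1 N :=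
  ⟨{N}, by simp, by simpa using h, fun b a ha => ⟨N, by simp, ha⟩⟩

lemma Cov.mono {p : ℝ} {k k' : ℕ} {N : Fin n → Finset (Fin n)} (h : Cov p k N) (hk : k ≤ k') :
    Cov p k' N := by
  obtain ⟨s, h1, h2, h3⟩ := h
  exact ⟨s, h1.trans hk, h2, h3⟩

lemma Cov.of_family {p : ℝ} {k : ℕ} {ι : Type*} [Fintype ι] {N : Fin n → Finset (Fin n)}
    (M : ι → Fin n → Finset (Fin n)) (hM : ∀ i, Cov p k (M i))
    (hcov : ∀ b, ∀ a ∈ N b, ∃ i, a ∈ M i b) : Cov p (Fintype.card ι * k) N := by
  classical
  choose s hs1 hs2 hs3 using hM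
  refine ⟨Finset.univ.biUnion s, ?_, ?_, ?_⟩
  · exact (Finset.card_biUnion_le_card_mul _ _ k fun i _ => hs1 i).trans (by simp)
  · intro M' hM'
    obtain ⟨i, -, hi⟩ := Finset.mem_biUnion.1 hM'
    exact hs2 i M' hi
  · intro b a ha
    obtain ⟨i, hi⟩ := hcov b a ha
    obtain ⟨M', h1, h2⟩ := hs3 i b a hi
    exact ⟨M', Finset.mem_biUnion.2 ⟨i, Finset.mem_univ _, h1⟩, h2⟩

lemma emb_of_injOn {N : Fin n → Finset (Fin n)} {V : Finset (Fin n)} {ω : EdgeSlot n → Bool}
    (hV : ∀ b, ∀ a ∈ N b, b ∈ V ∧ a ∈ V) (φ : Fin n → Fin n) (hφ : Set.InjOn φ V)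
    (h : ∀ b ∈ V, ∀ a ∈ N b, (graphOf ω).Adj (φ b) (φ a)) : Emb N ω := by
  obtain ⟨π, hπ⟩ := Equiv.Perm.exists_extending_pair (f := (Subtype.val : V → Fin n))
    (g := fun v : V => φ v) Subtype.val_injective
    (fun a b hab => Subtype.ext (hφ a.2 b.2 hab))
  refine ⟨π, π.injective, fun b a ha => ?_⟩
  have hb := hπ ⟨b, (hV b a ha).1⟩
  have ha' := hπ ⟨a, (hV b a ha).2⟩
  simp only at hb ha'
  rw [hb, ha']
  exact h b (hV b a ha).1 a ha

lemma exists_disjoint_family {ι α : Type*} [DecidableEq ι] [DecidableEq α] (I : Finset ι)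
    (r : ι → ℕ) (Q : Finset α) (h : ∑ i ∈ I, r i ≤ Q.card) :
    ∃ R : ι → Finset α, (∀ i ∈ I, R i ⊆ Q ∧ (R i).card = r i) ∧
      ∀ i ∈ I, ∀ j ∈ I, i ≠ j → Disjoint (R i) (R j) := by
  induction I using Finset.induction_on generalizing Q with
  | empty => exact ⟨fun _ => ∅, by simp, by simp⟩
  | insert i I hi ih =>
    rw [Finset.sum_insert hi] at h
    obtain ⟨X, hXQ, hX⟩ := Finset.exists_subset_card_eq (s := Q) (n := r i) (by omega)
    obtain ⟨R, hR1, hR2⟩ := ih (Q \ X) (by rw [Finset.card_sdiff_of_subset hXQ]; omega)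
    have hne : ∀ j ∈ I, j ≠ i := fun j hj e => hi (e ▸ hj)
    have hdis : ∀ j ∈ I, Disjoint X (R j) := fun j hj =>
      Finset.disjoint_of_subset_right (hR1 j hj).1 Finset.disjoint_sdiff
    refine ⟨Function.update R i X, ?_, ?_⟩
    · intro j hj
      rcases Finset.mem_insert.1 hj with rfl | hj
      · simp [hXQ, hX]
      · rw [Function.update_of_ne (hne j hj)]
        exact ⟨(hR1 j hj).1.trans Finset.sdiff_subset, (hR1 j hj).2⟩
    · intro j hj k hk hjk
      rcases Finset.mem_insert.1 hj with rfl | hj' <;> rcases Finset.mem_insert.1 hk with rfl | hk'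
      · exact absurd rfl hjk
      · rw [Function.update_self, Function.update_of_ne (hne k hk')]; exact hdis k hk'
      · rw [Function.update_self, Function.update_of_ne (hne j hj')]; exact (hdis j hj').symm
      · rw [Function.update_of_ne (hne j hj'), Function.update_of_ne (hne k hk')]
        exact hR2 j hj' k hk' hjk

/-- partial embedding of the first `t` classes into the first `t` reservoirs -/
def PE (V : Finset (Fin n)) (cls : Fin n → ℕ) (R : ℕ → Finset (Fin n))
    (M : Fin n → Finset (Fin n)) (t : ℕ) (ω : EdgeSlot n → Bool) : Prop :=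
  ∃ φ : Fin n → Fin n, Set.InjOn φ (V.filter (fun v => cls v < t)) ∧
    (∀ v ∈ V.filter (fun v => cls v < t), φ v ∈ (Finset.range t).biUnion R) ∧
    ∀ b ∈ V.filter (fun v => cls v < t), ∀ a ∈ M b, (graphOf ω).Adj (φ b) (φ a)

lemma layer_embed {p : ℝ} (h0 : 0 ≤ p) (h1 : p ≤ 1) (V : Finset (Fin n)) (cls : Fin n → ℕ)
    (R : ℕ → Finset (Fin n)) (M : Fin n → Finset (Fin n)) (T : ℕ) (ε : ℕ → ℝ)
    (hR : ∀ i < T, ∀ j < T, i ≠ j → Disjoint (R i) (R j))
    (hM : ∀ b ∈ V, ∀ a ∈ M b, a ∈ V ∧ cls a < cls b)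
    (hF : ∀ t < T, Fail p (R t) (fun b : V.filter (fun v => cls v = t) =>
      (M b).subtype (fun a => a ∈ V.filter (fun v => cls v < t))) ≤ ε t) :
    ∀ t ≤ T, Ex p (fun ω => ind (¬ PE V cls R M t ω)) ≤ ∑ s ∈ Finset.range t, ε s := by
  classical
  intro t
  induction t with
  | zero =>
    intro _
    refine Ex_le_const h0 h1 fun ω => ?_
    rw [ind_false]
    · simp
    · rw [not_not]; exact ⟨id, by simp, by simp, by simp⟩
  | succ t ih =>
    intro ht
    have ht' : t < T := ht
    have ih' := ih ht'.le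
    have hε : 0 ≤ ε t := le_trans (Ex_nonneg h0 h1 fun _ => ind_nonneg _) (hF t ht')
    set Q := (Finset.range t).biUnion R with hQ
    have hRQ : ∀ u ∈ R t, u ∉ Q := by
      intro u hu huQ
      obtain ⟨i, hi, hui⟩ := Finset.mem_biUnion.1 huQ
      have hi' := Finset.mem_range.1 hi
      exact Finset.disjoint_left.1 (hR t ht' i (by omega) (by omega)) hu hui
    let J : EdgeSlot n → Prop := fun z => ¬ ∀ v ∈ z.1, v ∈ Q
    rw [Ex_merge p J, Finset.sum_range_succ]
    calc _ ≤ Ex p (fun ω₁ => ind (¬ PE V cls R M t ω₁) + ε t) := by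
          refine Ex_mono h0 h1 fun ω₁ => ?_
          by_cases hP : PE V cls R M t ω₁
          swap
          · rw [ind_true hP]
            exact (Ex_le_const h0 h1 fun _ => ind_le_one _).trans (by linarith)
          rw [ind_false (not_not.2 hP), zero_add]
          obtain ⟨φ, hφ1, hφ2, hφ3⟩ := hP
          have hne : ∀ (u : R t) (a : V.filter (fun v => cls v < t)), (u : Fin n) ≠ φ a :=
            fun u a h => hRQ u u.2 (h ▸ hφ2 a a.2)
          let e : R t × V.filter (fun v => cls v < t) → EdgeSlot n :=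
            fun q => slot q.1 (φ q.2) (hne q.1 q.2)
          have he : Function.Injective e := by
            rintro ⟨u, a⟩ ⟨u', a'⟩ h
            have h' : s((u : Fin n), φ a) = s((u' : Fin n), φ a') := congrArg Subtype.val h
            rcases Sym2.eq_iff.1 h' with ⟨h1, h2⟩ | ⟨h1, _⟩
            · exact Prod.ext (Subtype.ext h1) (Subtype.ext (hφ1 a.2 a'.2 h2))
            · exact absurd h1 (hne u a')
          refine le_trans ?_ (hF t ht')
          unfold Fail
          rw [← Ex_comp_inj p e he]
          refine Ex_mono h0 h1 fun ω₂ => ind_mono fun hn hm => hn ?_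
          obtain ⟨m, hm1, hm2⟩ := hm
          let φ' : Fin n → Fin n := fun v =>
            if h : v ∈ V.filter (fun v => cls v = t) then (m ⟨v, h⟩ : Fin n) else φ v
          have hlt : ∀ v ∈ V.filter (fun v => cls v < t), φ' v = φ v := by
            intro v hv
            have : v ∉ V.filter (fun v => cls v = t) := by
              simp only [Finset.mem_filter] at hv ⊢; omega
            simp only [φ', dif_neg this]
          have heq : ∀ v (h : v ∈ V.filter (fun v => cls v = t)), φ' v = m ⟨v, h⟩ := by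
            intro v h; simp only [φ', dif_pos h]
          have hcase : ∀ v ∈ V.filter (fun v => cls v < t + 1),
              v ∈ V.filter (fun v => cls v < t) ∨ v ∈ V.filter (fun v => cls v = t) := by
            intro v hv
            simp only [Finset.mem_filter] at hv ⊢
            rcases Nat.lt_succ_iff_lt_or_eq.1 hv.2 with h | h
            · exact Or.inl ⟨hv.1, h⟩
            · exact Or.inr ⟨hv.1, h⟩
          refine ⟨φ', ?_, ?_, ?_⟩
          · intro v hv w hw hvw
            rcases hcase v hv with h | h <;> rcases hcase w hw with h' | h'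
            · rw [hlt v h, hlt w h'] at hvw; exact hφ1 h h' hvw
            · rw [hlt v h, heq w h'] at hvw; exact absurd hvw.symm (hne _ ⟨v, h⟩)
            · rw [heq v h, hlt w h'] at hvw; exact absurd hvw (hne _ ⟨w, h'⟩)
            · rw [heq v h, heq w h'] at hvw
              exact congrArg Subtype.val (hm1 (Subtype.ext hvw))
          · intro v hv
            rw [Finset.range_add_one, Finset.biUnion_insert, Finset.mem_union]
            rcases hcase v hv with h | h
            · rw [hlt v h]; exact Or.inr (hφ2 v h)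
            · rw [heq v h]; exact Or.inl (m ⟨v, h⟩).2
          · intro b hb a ha
            have hbV := (Finset.mem_filter.1 hb).1
            have hat : a ∈ V.filter (fun v => cls v < t) := by
              have := hM b hbV a ha
              have := (Finset.mem_filter.1 hb).2
              exact Finset.mem_filter.2 ⟨by tauto, by omega⟩
            rw [hlt a hat]
            rcases hcase b hb with h | h
            · rw [hlt b h]
              obtain ⟨hne', hω⟩ := (adj_iff _ _ _).1 (hφ3 b h a ha)
              refine (adj_iff _ _ _).2 ⟨hne', ?_⟩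
              have : ¬ J (slot (φ b) (φ a) hne') := by
                simp only [J, not_not, slot]
                intro v hv
                rcases Sym2.mem_iff.1 hv with rfl | rfl
                · exact hφ2 b h
                · exact hφ2 a hat
              simp only [if_neg this]
              exact hω
            · rw [heq b h]
              refine (adj_iff _ _ _).2 ⟨hne _ ⟨a, hat⟩, ?_⟩
              have : J (slot (m ⟨b, h⟩ : Fin n) (φ a) (hne _ ⟨a, hat⟩)) := by
                intro hc
                exact hRQ _ (m ⟨b, h⟩).2 (hc _ (Sym2.mem_mk_left _ _))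
              simp only [if_pos this]
              exact hm2 ⟨b, h⟩ ⟨a, hat⟩ (by simpa using ha)
      _ ≤ _ := by rw [Ex_add, Ex_const]; linarith

lemma layered {p : ℝ} (h0 : 0 < p) (h1 : p < 1) (N : Fin n → Finset (Fin n)) (V : Finset (Fin n))
    (cls : Fin n → ℕ) (T d : ℕ) (m : ℕ → ℝ) (r : ℕ → ℕ)
    (hV : ∀ b, ∀ a ∈ N b, b ∈ V ∧ a ∈ V ∧ cls a < cls b) (hT : ∀ b ∈ V, cls b < T)
    (hd : ∀ b, (N b).card ≤ d)
    (hm : ∀ t < T, ((V.filter (fun v => cls v = t)).card : ℝ) ≤ m t)
    (hco : ∀ t < T, ∀ S : Finset (Fin n), S.Nonempty →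
      ∑ b ∈ V.filter (fun v => cls v = t), ind (S ⊆ N b) ≤ p ^ S.card * m t)
    (hr : ∑ t ∈ Finset.range T, r t ≤ n) (hr1 : ∀ t < T, 2176 * m t ≤ r t)
    {ρ : ℝ} (hρ : 0 < ρ) (hρr : ∀ t < T, ρ ≤ r t) (hn : 0 < n)
    (hexp : Real.exp (-(ρ * ((p ^ 2) ^ d / (8 * 2 ^ d)) / 16)) ≤ 1 / (2 * n)) : Cov p 2 N := by
  classical
  set τ := (p ^ 2) ^ d / (8 * 2 ^ d) with hτdef
  have hτ : 0 < τ := by positivity
  have hn' : (0 : ℝ) < n := by exact_mod_cast hn
  obtain ⟨R, hR1, hR2⟩ := exists_disjoint_family (Finset.range T) r (Finset.univ : Finset (Fin n))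
    (by simpa using hr)
  have hcls : ∀ t < T, ∃ σ : Fin n → Finset (Fin n), (∀ b, σ b ⊆ N b) ∧
      Fail p (R t) (fun b : V.filter (fun v => cls v = t) =>
        (σ b).subtype (fun a => a ∈ V.filter (fun v => cls v < t))) ≤
          (V.filter (fun v => cls v = t)).card * (1 / (2 * n)) ∧
      Fail p (R t) (fun b : V.filter (fun v => cls v = t) =>
        (N b \ σ b).subtype (fun a => a ∈ V.filter (fun v => cls v < t))) ≤
          (V.filter (fun v => cls v = t)).card * (1 / (2 * n)) := by
    intro t ht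
    have hcard : Fintype.card (R t) = r t := by
      rw [Fintype.card_coe]; exact (hR1 t (Finset.mem_range.2 ht)).2
    have hrn : (r t : ℝ) ≤ n := by
      have := Finset.single_le_sum (f := r) (fun _ _ => Nat.zero_le _) (Finset.mem_range.2 ht)
      exact_mod_cast this.trans hr
    have hrpos : (0 : ℝ) < r t := hρ.trans_le (hρr t ht)
    have hexp1 : Real.exp (-(r t * τ / 16)) ≤ 1 / (2 * n) := by
      refine le_trans (Real.exp_le_exp.2 ?_) hexp
      have := mul_le_mul_of_nonneg_right (hρr t ht) hτ.le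
      linarith
    have hexp2 : Real.exp (-(r t * τ / 8)) ≤ 1 / (2 * n) := by
      refine le_trans (Real.exp_le_exp.2 ?_) hexp1
      have := mul_pos hrpos hτ
      linarith
    obtain ⟨σ, hσ1, hσ2, hσ3⟩ := split (R t) h0 h1
      (fun b : V.filter (fun v => cls v = t) =>
        (N b).subtype (fun a => a ∈ V.filter (fun v => cls v < t))) (d := d)
      (fun b => by
        rw [Finset.card_subtype]
        exact (Finset.card_filter_le _ _).trans (hd b)) (m := m t)
      (by rw [Fintype.card_coe]; exact hm t ht)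
      (fun S hS => by
        have := hco t ht (S.map (Function.Embedding.subtype _)) (by simpa using hS)
        rw [Finset.card_map, ← Finset.sum_coe_sort] at this
        refine le_trans (le_of_eq (Finset.sum_congr rfl fun b _ => ind_congr ?_)) this
        simp only [Finset.subset_iff, Finset.mem_subtype, Finset.mem_map,
          Function.Embedding.coe_subtype]
        constructor
        · rintro h x ⟨y, hy, rfl⟩; exact h hy
        · intro h y hy; exact h ⟨y, hy, rfl⟩)
      (by rw [hcard]; exact_mod_cast hrpos) (by rw [hcard]; exact hr1 t ht)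
      (by
        rw [hcard]
        refine hexp1.trans ?_
        rw [div_le_div_iff₀ (by positivity) hrpos]; linarith)
    rw [hcard, Fintype.card_coe] at hσ2 hσ3
    have hb := mul_le_mul_of_nonneg_left hexp2
      (Nat.cast_nonneg (α := ℝ) (V.filter (fun v => cls v = t)).card)
    refine ⟨fun b => if h : b ∈ V.filter (fun v => cls v = t) then
      (σ ⟨b, h⟩).map (Function.Embedding.subtype _) else ∅, ?_, ?_, ?_⟩
    · intro b
      beta_reduce
      split_ifs with h
      · intro x hx
        obtain ⟨y, hy, rfl⟩ := Finset.mem_map.1 hx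
        simpa using hσ1 ⟨b, h⟩ hy
      · simp
    · refine le_trans (le_of_eq ?_) (hσ2.trans hb)
      congr 1
      funext b
      simp only [dif_pos b.2]
      ext y
      simp
    · refine le_trans (le_of_eq ?_) (hσ3.trans hb)
      congr 1
      funext b
      simp only [dif_pos b.2]
      ext y
      simp
  choose! σ hσ1 hσ2 hσ3 using hcls
  have hgood : ∀ M : Fin n → Finset (Fin n), (∀ b, M b ⊆ N b) →
      (∀ t < T, Fail p (R t) (fun b : V.filter (fun v => cls v = t) =>
        (M b).subtype (fun a => a ∈ V.filter (fun v => cls v < t))) ≤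
          (V.filter (fun v => cls v = t)).card * (1 / (2 * n))) → Good p M := by
    intro M hM1 hM2
    have h := layer_embed h0.le h1.le V cls R M T _
      (fun i hi j hj => hR2 i (Finset.mem_range.2 hi) j (Finset.mem_range.2 hj))
      (fun b _ a ha => (hV b a (hM1 b ha)).2) hM2 T le_rfl
    rw [← Finset.sum_mul, Ex_ind_not] at h
    have hsum : ∑ t ∈ Finset.range T, ((V.filter (fun v => cls v = t)).card : ℝ) ≤ n := by
      have := Finset.card_eq_sum_card_fiberwise (s := V) (t := Finset.range T) (f := cls)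
        (fun b hb => by simpa using hT b hb)
      have h2 : V.card ≤ n := by simpa using Finset.card_le_univ V
      rw [this] at h2
      exact_mod_cast h2
    have h3 : (∑ t ∈ Finset.range T, ((V.filter (fun v => cls v = t)).card : ℝ)) * (1 / (2 * n)) ≤
        1 / 2 := by
      calc _ ≤ (n : ℝ) * (1 / (2 * n)) := mul_le_mul_of_nonneg_right hsum (by positivity)
        _ = 1 / 2 := by field_simp
    have h4 : Ex p (fun ω => ind (PE V cls R M T ω)) ≤ Ex p (fun ω => ind (Emb M ω)) := by
      refine Ex_mono h0.le h1.le fun ω => ind_mono ?_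
      rintro ⟨φ, hφ1, -, hφ3⟩
      have hVT : V.filter (fun v => cls v < T) = V := Finset.filter_true_of_mem hT
      rw [hVT] at hφ1 hφ3
      exact emb_of_injOn (fun b a ha => ⟨(hV b a (hM1 b ha)).1, (hV b a (hM1 b ha)).2.1⟩) φ hφ1 hφ3
    unfold Good
    linarith
  let M1 : Fin n → Finset (Fin n) := fun b => if cls b < T then σ (cls b) b else ∅
  have hM1 : ∀ b, M1 b ⊆ N b := by
    intro b
    simp only [M1]
    split_ifs with h
    · exact hσ1 _ h b
    · simp
  have hM1t : ∀ t < T, ∀ b : V.filter (fun v => cls v = t), M1 b = σ t b := by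
    intro t ht b
    have := (Finset.mem_filter.1 b.2).2
    simp only [M1, this, if_pos ht]
  refine ⟨{M1, fun b => N b \ M1 b}, Finset.card_le_two, ?_, ?_⟩
  · intro M hM
    rcases Finset.mem_insert.1 hM with rfl | hM
    · refine hgood _ hM1 fun t ht => ?_
      simp only [hM1t t ht]; exact hσ2 t ht
    · rw [Finset.mem_singleton.1 hM]
      refine hgood _ (fun b => Finset.sdiff_subset) fun t ht => ?_
      simp only [hM1t t ht]; exact hσ3 t ht
  · intro b a ha
    by_cases h : a ∈ M1 b
    · exact ⟨M1, by simp, h⟩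
    · exact ⟨fun b => N b \ M1 b, by simp, Finset.mem_sdiff.2 ⟨ha, h⟩⟩

end Crest.Agent.R52G
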