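import Crest.Agent.R52G.Prob

set_option autoImplicit false

open Finset Crest.FinProb

namespace Crest.Agent.R52G

noncomputable def psi (p : ℝ) (b : Bool) : ℝ := (if b then 1 else 0) - p

section
variable {A : Type*} [Fintype A] [DecidableEq A]

noncomputable def chi (p : ℝ) (T : Finset A) (y : A → Bool) : ℝ := ∏ a ∈ T, psi p (y a)

noncomputable def ft (p : ℝ) (f : (A → Bool) → ℝ) (T : Finset A) : ℝ :=
  Ex p (fun y => f y * chi p T y)

lemma orth (p : ℝ) (T T' : Finset A) :
    Ex p (fun y => chi p T y * chi p T' y) = if T = T' then (p * (1 - p)) ^ T.card else 0 := by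
  have h := Ex_prod p (fun (a : A) (b : Bool) =>
    (if a ∈ T then psi p b else 1) * (if a ∈ T' then psi p b else 1))
  have e : (fun y : A → Bool => chi p T y * chi p T' y) = fun y => ∏ a,
      (if a ∈ T then psi p (y a) else 1) * (if a ∈ T' then psi p (y a) else 1) := by
    funext y
    rw [Finset.prod_mul_distrib]
    simp [chi, Finset.prod_ite_mem]
  rw [e, h]
  split_ifs with hT
  · subst hT
    rw [← Finset.prod_const, ← Finset.prod_subset (Finset.subset_univ T)]
    · refine Finset.prod_congr rfl fun a ha => ?_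
      simp only [ha, if_true, psi]; simp; ring
    · intro a _ ha; simp [ha]
  · have : ∃ a, ¬ (a ∈ T ↔ a ∈ T') := by
      by_contra hc
      push Not at hc
      exact hT (Finset.ext hc)
    obtain ⟨a, ha⟩ := this
    refine Finset.prod_eq_zero (Finset.mem_univ a) ?_
    by_cases h1 : a ∈ T <;> by_cases h2 : a ∈ T' <;> simp [h1, h2, psi] at ha ⊢ <;> ring

lemma bessel {p : ℝ} (h0 : 0 < p) (h1 : p < 1) (f : (A → Bool) → ℝ) :
    ∑ T : Finset A, ft p f T ^ 2 / (p * (1 - p)) ^ T.card ≤ Ex p (fun y => f y * f y) := by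
  set c : Finset A → ℝ := fun T => ft p f T / (p * (1 - p)) ^ T.card with hc
  have hv : 0 < p * (1 - p) := mul_pos h0 (by linarith)
  have hnn : 0 ≤ Ex p (fun y => (f y - ∑ T, c T * chi p T y) ^ 2) :=
    Ex_nonneg h0.le h1.le fun y => sq_nonneg _
  have e : (fun y => (f y - ∑ T, c T * chi p T y) ^ 2) = fun y =>
      f y * f y - 2 * ∑ T, c T * (f y * chi p T y) +
        ∑ T, ∑ T', c T * c T' * (chi p T y * chi p T' y) := by
    funext y
    have e1 : ∑ T, c T * (f y * chi p T y) = f y * ∑ T, c T * chi p T y := by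
      rw [Finset.mul_sum]; exact Finset.sum_congr rfl fun _ _ => by ring
    have e2 : ∑ T, ∑ T', c T * c T' * (chi p T y * chi p T' y) =
        (∑ T, c T * chi p T y) * ∑ T, c T * chi p T y := by
      rw [Finset.sum_mul_sum]
      exact Finset.sum_congr rfl fun _ _ => Finset.sum_congr rfl fun _ _ => by ring
    rw [e1, e2]; ring
  rw [e, Ex_add, Ex_sub, Ex_const_mul, Ex_sum, Ex_sum] at hnn
  have e3 : ∀ T, Ex p (fun y => c T * (f y * chi p T y)) =
      ft p f T ^ 2 / (p * (1 - p)) ^ T.card := by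
    intro T
    rw [Ex_const_mul]
    change c T * ft p f T = _
    simp only [hc]; ring
  have e4 : ∀ T, Ex p (fun y => ∑ T', c T * c T' * (chi p T y * chi p T' y)) =
      ft p f T ^ 2 / (p * (1 - p)) ^ T.card := by
    intro T
    rw [Ex_sum, Finset.sum_eq_single T]
    · rw [Ex_const_mul, orth, if_pos rfl]
      simp only [hc]
      have := pow_pos hv T.card
      field_simp
    · intro T' _ hT'
      rw [Ex_const_mul, orth, if_neg (Ne.symm hT'), mul_zero]
    · simp
  simp only [e3, e4] at hnn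
  linarith

lemma kernel_identity (p : ℝ) (f : (A → Bool) → ℝ) (N : Finset A) :
    Ex p (fun y => Ex p (fun z => f y * f z * ∏ a ∈ N, (1 - psi p (y a) * psi p (z a) / p ^ 2))) =
      ∑ T ∈ N.powerset, (-1 / p ^ 2) ^ T.card * ft p f T ^ 2 := by
  have e : ∀ y z : A → Bool, f y * f z * ∏ a ∈ N, (1 - psi p (y a) * psi p (z a) / p ^ 2) =
      ∑ T ∈ N.powerset, ((-1 / p ^ 2) ^ T.card * (f y * chi p T y)) * (f z * chi p T z) := by
    intro y z
    have := Finset.prod_one_add (s := N) (f := fun a => (-1 / p ^ 2) * (psi p (y a) * psi p (z a)))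
    have e2 : ∏ a ∈ N, (1 - psi p (y a) * psi p (z a) / p ^ 2) =
        ∏ a ∈ N, (1 + (-1 / p ^ 2) * (psi p (y a) * psi p (z a))) :=
      Finset.prod_congr rfl fun a _ => by ring
    rw [e2, this, Finset.mul_sum]
    refine Finset.sum_congr rfl fun T _ => ?_
    rw [Finset.prod_mul_distrib, Finset.prod_mul_distrib, Finset.prod_const]
    simp only [chi]; ring
  simp only [e]
  have e3 : ∀ y : A → Bool, Ex p (fun z => ∑ T ∈ N.powerset,
      ((-1 / p ^ 2) ^ T.card * (f y * chi p T y)) * (f z * chi p T z)) =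
      ∑ T ∈ N.powerset, ((-1 / p ^ 2) ^ T.card * ft p f T) * (f y * chi p T y) := by
    intro y
    rw [Ex_sum]
    refine Finset.sum_congr rfl fun T _ => ?_
    rw [Ex_const_mul]
    change _ * ft p f T = _
    ring
  simp only [e3]
  rw [Ex_sum]
  refine Finset.sum_congr rfl fun T _ => ?_
  rw [Ex_const_mul]
  change _ * ft p f T = _
  ring

lemma kernel_bound {p : ℝ} (h0 : 0 < p) (h1 : p < 1) (N : Finset A) {d : ℕ} (hd : N.card ≤ d)
    (y z : A → Bool) :
    ∏ a ∈ N, (1 - psi p (y a) * psi p (z a) / p ^ 2) ≤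
      ind (∀ a ∈ N, y a = true ∨ z a = true) * (1 / p ^ 2) ^ d := by
  have hp2 : 0 < p ^ 2 := by positivity
  have hge : 1 ≤ 1 / p ^ 2 := by
    rw [le_div_iff₀ hp2]; nlinarith
  by_cases h : ∀ a ∈ N, y a = true ∨ z a = true
  · rw [ind_true h, one_mul]
    refine (le_abs_self _).trans ?_
    rw [Finset.abs_prod]
    calc ∏ a ∈ N, |1 - psi p (y a) * psi p (z a) / p ^ 2| ≤ ∏ _a ∈ N, (1 / p ^ 2) := by
          refine Finset.prod_le_prod (fun _ _ => abs_nonneg _) fun a _ => ?_
          have e : 1 - psi p (y a) * psi p (z a) / p ^ 2 =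
              (p ^ 2 - psi p (y a) * psi p (z a)) / p ^ 2 := by field_simp
          rw [e, abs_div, abs_of_pos hp2]
          refine div_le_div_of_nonneg_right ?_ hp2.le
          rw [abs_le]
          cases y a <;> cases z a <;> simp [psi] <;> constructor <;> nlinarith
      _ = (1 / p ^ 2) ^ N.card := by rw [Finset.prod_const]
      _ ≤ _ := pow_le_pow_right₀ hge hd
  · rw [ind_false h, zero_mul]
    push Not at h
    obtain ⟨a, ha, hy, hz⟩ := h
    refine le_of_eq (Finset.prod_eq_zero ha ?_)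
    simp only [psi, hy, hz]
    field_simp
    simp

/-- `b` has an atom inside `D`. -/
def HasAtom (p τ : ℝ) (N : Finset A) (D : (A → Bool) → Prop) : Prop :=
  ∃ σ ⊆ N, τ ≤ Ex p (fun y => ind (D y ∧ ∀ a ∈ σ, y a = true)) ∧
    τ ≤ Ex p (fun y => ind (D y ∧ ∀ a ∈ N \ σ, y a = true))

lemma cov_lt_of_not_hasAtom {p τ : ℝ} (h0 : 0 < p) (h1 : p < 1) (hτ : 0 < τ) (N : Finset A) {d : ℕ}
    (hd : N.card ≤ d) (D : (A → Bool) → Prop) (h : ¬ HasAtom p τ N D) :
    Ex p (fun y => Ex p (fun z =>
      ind (D y) * ind (D z) * ind (∀ a ∈ N, y a = true ∨ z a = true))) ≤ 2 ^ d * τ := by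
  have hpt : ∀ y z : A → Bool,
      ind (D y) * ind (D z) * ind (∀ a ∈ N, y a = true ∨ z a = true) ≤
      ∑ σ ∈ N.powerset, ind (D y ∧ ∀ a ∈ σ, y a = true) *
        ind (D z ∧ ∀ a ∈ N \ σ, z a = true) := by
    intro y z
    have hnn : ∀ σ ∈ N.powerset, 0 ≤ ind (D y ∧ ∀ a ∈ σ, y a = true) *
        ind (D z ∧ ∀ a ∈ N \ σ, z a = true) := fun σ _ => mul_nonneg (ind_nonneg _) (ind_nonneg _)
    rw [← ind_and, ← ind_and]
    by_cases hc : (D y ∧ D z) ∧ ∀ a ∈ N, y a = true ∨ z a = true
    · rw [ind_true hc]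
      refine le_trans ?_ (Finset.single_le_sum hnn
        (Finset.mem_powerset.2 (Finset.filter_subset (fun a => y a = true) N)))
      rw [ind_true, ind_true]
      · norm_num
      · refine ⟨hc.1.2, fun a ha => ?_⟩
        simp only [Finset.mem_sdiff, Finset.mem_filter, not_and] at ha
        rcases hc.2 a ha.1 with h | h
        · exact absurd h (ha.2 ha.1)
        · exact h
      · exact ⟨hc.1.1, fun a ha => (Finset.mem_filter.1 ha).2⟩
    · rw [ind_false hc]; exact Finset.sum_nonneg hnn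
  calc _ ≤ Ex p (fun y => Ex p (fun z => ∑ σ ∈ N.powerset, ind (D y ∧ ∀ a ∈ σ, y a = true) *
        ind (D z ∧ ∀ a ∈ N \ σ, z a = true))) :=
        Ex_mono h0.le h1.le fun y => Ex_mono h0.le h1.le fun z => hpt y z
    _ = ∑ σ ∈ N.powerset, Ex p (fun y => ind (D y ∧ ∀ a ∈ σ, y a = true)) *
        Ex p (fun z => ind (D z ∧ ∀ a ∈ N \ σ, z a = true)) := by
        simp only [Ex_sum, Ex_const_mul, Ex_mul_const]
    _ ≤ ∑ _σ ∈ N.powerset, τ := by
        refine Finset.sum_le_sum fun σ hσ => ?_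
        have a0 := Ex_nonneg h0.le h1.le
          (f := fun y => ind (D y ∧ ∀ a ∈ σ, y a = true)) fun _ => ind_nonneg _
        have a1 := Ex_le_const h0.le h1.le
          (f := fun y => ind (D y ∧ ∀ a ∈ σ, y a = true)) fun _ => ind_le_one _
        have b0 := Ex_nonneg h0.le h1.le
          (f := fun y => ind (D y ∧ ∀ a ∈ N \ σ, y a = true)) fun _ => ind_nonneg _
        have b1 := Ex_le_const h0.le h1.le
          (f := fun y => ind (D y ∧ ∀ a ∈ N \ σ, y a = true)) fun _ => ind_le_one _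
        by_cases hs : τ ≤ Ex p (fun y => ind (D y ∧ ∀ a ∈ σ, y a = true))
        · have : Ex p (fun y => ind (D y ∧ ∀ a ∈ N \ σ, y a = true)) < τ := by
            by_contra hc
            exact h ⟨σ, Finset.mem_powerset.1 hσ, hs, not_lt.1 hc⟩
          nlinarith
        · push Not at hs
          nlinarith
    _ ≤ _ := by
        rw [Finset.sum_const, Finset.card_powerset, nsmul_eq_mul]
        refine mul_le_mul_of_nonneg_right ?_ hτ.le
        push_cast
        exact pow_le_pow_right₀ (by norm_num) hd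

lemma li_count {B : Type*} [Fintype B] [DecidableEq B] {p : ℝ} (h0 : 0 < p) (h1 : p < 1)
    (N : B → Finset A) {d : ℕ} (hd : ∀ b, (N b).card ≤ d) {m : ℝ} (hm : (Fintype.card B : ℝ) ≤ m)
    (hco : ∀ S : Finset A, S.Nonempty → ∑ b, ind (S ⊆ N b) ≤ p ^ S.card * m)
    (D : (A → Bool) → Prop) :
    ∑ b, ind (¬ HasAtom p ((p ^ 2) ^ d / (8 * 2 ^ d)) (N b) D) ≤
      8 * m * (1 - Ex p (fun y => ind (D y))) := by
  set μ := Ex p (fun y => ind (D y)) with hμ
  have hm0 : 0 ≤ m := le_trans (Nat.cast_nonneg _) hm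
  have hμ1 : μ ≤ 1 := Ex_le_const h0.le h1.le fun _ => ind_le_one _
  have hμ0 : 0 ≤ μ := Ex_nonneg h0.le h1.le fun _ => ind_nonneg _
  by_cases hhalf : μ < 1 / 2
  · calc _ ≤ ∑ _b : B, (1 : ℝ) := Finset.sum_le_sum fun b _ => ind_le_one _
      _ = Fintype.card B := by simp
      _ ≤ _ := by nlinarith
  push Not at hhalf
  set f : (A → Bool) → ℝ := fun y => ind (D y) with hf
  have hp2 : 0 < p ^ 2 := by positivity
  have hft0 : ft p f ∅ = μ := by simp [ft, chi, hμ, hf]
  have hb : ∀ b, ind (¬ HasAtom p ((p ^ 2) ^ d / (8 * 2 ^ d)) (N b) D) ≤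
      8 * ∑ T ∈ (Finset.univ : Finset (Finset A)).erase ∅,
        ind (T ⊆ N b) * ((1 / p ^ 2) ^ T.card * ft p f T ^ 2) := by
    intro b
    have hnn : ∀ T : Finset A, 0 ≤ (1 / p ^ 2) ^ T.card * ft p f T ^ 2 := fun T => by positivity
    by_cases hat : HasAtom p ((p ^ 2) ^ d / (8 * 2 ^ d)) (N b) D
    · rw [ind_false (not_not.2 hat)]
      exact mul_nonneg (by norm_num) (Finset.sum_nonneg fun T _ => mul_nonneg (ind_nonneg _) (hnn T))
    · rw [ind_true hat]
      have c1 := cov_lt_of_not_hasAtom h0 h1 (by positivity) (N b) (hd b) D hat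
      have c2 := kernel_identity p f (N b)
      have c3 : Ex p (fun y => Ex p (fun z =>
          f y * f z * ∏ a ∈ N b, (1 - psi p (y a) * psi p (z a) / p ^ 2))) ≤
          Ex p (fun y => Ex p (fun z =>
            ind (D y) * ind (D z) * ind (∀ a ∈ N b, y a = true ∨ z a = true))) *
              (1 / p ^ 2) ^ d := by
        rw [← Ex_mul_const]
        refine Ex_mono h0.le h1.le fun y => ?_
        rw [← Ex_mul_const]
        refine Ex_mono h0.le h1.le fun z => ?_
        have := kernel_bound h0 h1 (N b) (hd b) y z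
        have h2 : 0 ≤ f y * f z := mul_nonneg (ind_nonneg _) (ind_nonneg _)
        have := mul_le_mul_of_nonneg_left this h2
        simpa only [hf, mul_assoc] using this
      have c4 : 2 ^ d * ((p ^ 2) ^ d / (8 * 2 ^ d)) * (1 / p ^ 2) ^ d = 1 / 8 := by
        have := pow_pos hp2 d
        rw [one_div_pow]
        field_simp
      have c5 : ∑ T ∈ (N b).powerset, (-1 / p ^ 2) ^ T.card * ft p f T ^ 2 ≤ 1 / 8 := by
        rw [← c2, ← c4]
        exact c3.trans (mul_le_mul_of_nonneg_right c1 (by positivity))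
      rw [← Finset.add_sum_erase _ _ (Finset.empty_mem_powerset (N b)), hft0] at c5
      simp only [Finset.card_empty, pow_zero, one_mul] at c5
      have c6 : - ∑ T ∈ (N b).powerset.erase ∅, (1 / p ^ 2) ^ T.card * ft p f T ^ 2 ≤
          ∑ T ∈ (N b).powerset.erase ∅, (-1 / p ^ 2) ^ T.card * ft p f T ^ 2 := by
        rw [← Finset.sum_neg_distrib]
        refine Finset.sum_le_sum fun T _ => ?_
        rw [← neg_mul]
        refine mul_le_mul_of_nonneg_right ?_ (sq_nonneg _)
        have := neg_abs_le ((-1 / p ^ 2) ^ T.card)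
        rw [abs_pow, abs_div, abs_neg, abs_one, abs_of_pos hp2] at this
        exact this
      have c7 : ∑ T ∈ (N b).powerset.erase ∅, (1 / p ^ 2) ^ T.card * ft p f T ^ 2 ≤
          ∑ T ∈ (Finset.univ : Finset (Finset A)).erase ∅,
            ind (T ⊆ N b) * ((1 / p ^ 2) ^ T.card * ft p f T ^ 2) := by
        calc _ = ∑ T ∈ (N b).powerset.erase ∅,
              ind (T ⊆ N b) * ((1 / p ^ 2) ^ T.card * ft p f T ^ 2) := by
              refine Finset.sum_congr rfl fun T hT => ?_
              rw [ind_true (Finset.mem_powerset.1 (Finset.mem_of_mem_erase hT)), one_mul]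
          _ ≤ _ := Finset.sum_le_sum_of_subset_of_nonneg
              (Finset.erase_subset_erase _ (Finset.subset_univ _))
              fun T _ _ => mul_nonneg (ind_nonneg _) (hnn T)
      nlinarith
  have hv : 0 < p * (1 - p) := mul_pos h0 (by linarith)
  have hbes := bessel h0 h1 f
  rw [← Finset.add_sum_erase _ _ (Finset.mem_univ (∅ : Finset A)), hft0] at hbes
  simp only [Finset.card_empty, pow_zero, div_one] at hbes
  have hff : Ex p (fun y => f y * f y) = μ := by
    simp only [hf, ind_mul_self, hμ]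
  rw [hff] at hbes
  calc _ ≤ ∑ b, 8 * ∑ T ∈ (Finset.univ : Finset (Finset A)).erase ∅,
        ind (T ⊆ N b) * ((1 / p ^ 2) ^ T.card * ft p f T ^ 2) := Finset.sum_le_sum fun b _ => hb b
    _ = 8 * ∑ T ∈ (Finset.univ : Finset (Finset A)).erase ∅,
        (∑ b, ind (T ⊆ N b)) * ((1 / p ^ 2) ^ T.card * ft p f T ^ 2) := by
        rw [← Finset.mul_sum, Finset.sum_comm]
        simp only [Finset.sum_mul]
    _ ≤ 8 * ∑ T ∈ (Finset.univ : Finset (Finset A)).erase ∅,
        m * (ft p f T ^ 2 / (p * (1 - p)) ^ T.card) := by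
        refine mul_le_mul_of_nonneg_left (Finset.sum_le_sum fun T hT => ?_) (by norm_num)
        have hne : T.Nonempty := Finset.nonempty_iff_ne_empty.2 (Finset.ne_of_mem_erase hT)
        calc _ ≤ (p ^ T.card * m) * ((1 / p ^ 2) ^ T.card * ft p f T ^ 2) :=
              mul_le_mul_of_nonneg_right (hco T hne) (by positivity)
          _ = m * (ft p f T ^ 2 / p ^ T.card) := by
              rw [one_div_pow, ← pow_mul, mul_comm 2, pow_mul]
              have := pow_pos h0 T.card
              field_simp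
          _ ≤ _ := by
              refine mul_le_mul_of_nonneg_left ?_ hm0
              refine div_le_div_of_nonneg_left (sq_nonneg _) (pow_pos hv _) ?_
              exact pow_le_pow_left₀ hv.le (by nlinarith) _
    _ ≤ _ := by
        rw [← Finset.mul_sum]
        have : ∑ T ∈ (Finset.univ : Finset (Finset A)).erase ∅,
            ft p f T ^ 2 / (p * (1 - p)) ^ T.card ≤ 1 - μ := by nlinarith
        nlinarith

end

end Crest.Agent.R52G
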