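import Crest.Agent.R52G.Regime
import Crest.Prelude.Def_CopyThreshold

set_option autoImplicit false

open Finset Crest.FinProb Crest.CombinatoricsR.RandomGraph

namespace Crest.Agent.R52G

variable {n : ℕ}

lemma Ex_one {ι : Type*} [Fintype ι] [DecidableEq ι] (f : (ι → Bool) → ℝ) :
    Ex 1 f = f (fun _ => true) := by
  unfold Ex
  rw [Finset.sum_eq_single (fun _ => true)]
  · simp [bernoulliWeight]
  · intro ω _ hω
    have : ∃ i, ω i ≠ true := by
      by_contra hc
      push Not at hc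
      exact hω (funext hc)
    obtain ⟨i, hi⟩ := this
    unfold bernoulliWeight
    rw [Finset.prod_eq_zero (Finset.mem_univ i) (by simp [hi]), zero_mul]
  · simp

lemma cover_one (H : SimpleGraph (Fin n)) : ∃ N : Fin n → Finset (Fin n),
    (∀ u v, H.Adj u v → u ∈ N v ∨ v ∈ N u) ∧ Cov 1 1 N := by
  classical
  refine ⟨fun v => Finset.univ.filter fun a => H.Adj v a,
    fun u v h => Or.inr (by simpa using h), Good.cov ?_⟩
  unfold Good
  rw [Ex_one, ind_true]
  · norm_num
  · exact ⟨id, Function.injective_id, fun b a ha =>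
      (adj_iff _ _ _).2 ⟨(Finset.mem_filter.1 ha).2.ne, rfl⟩⟩

def kk : ℕ := 400 * (2 * (20000 * 20000 * 2))

lemma cover_big {H : SimpleGraph (Fin n)} {α : ℝ} (hα0 : 0 < α) (hS : Spread H α)
    (hn : (360000 : ℝ) ^ 100 ≤ n) (h1 : 180000 * α < 1) : ∃ N : Fin n → Finset (Fin n),
    (∀ u v, H.Adj u v → u ∈ N v ∨ v ∈ N u) ∧ Cov (180000 * α) kk N := by
  classical
  have hnpos : (0 : ℝ) < n := lt_of_lt_of_le (by positivity) hn
  have hn1 : 1 ≤ n := by exact_mod_cast hnpos
  obtain ⟨x, hx0, hxn⟩ : ∃ x : ℝ, 0 ≤ x ∧ x ^ 100 = n :=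
    ⟨(n : ℝ) ^ (((100 : ℕ) : ℝ)⁻¹), Real.rpow_nonneg hnpos.le _,
      Real.rpow_inv_natCast_pow hnpos.le (by norm_num)⟩
  have hx : 360000 ≤ x := le_of_pow_le_pow_left₀ (n := 100) (by norm_num) hx0 (by rw [hxn]; exact hn)
  have hxpos : 0 < x := by linarith
  have hlogn : Real.log n = 100 * Real.log x := by rw [← hxn, Real.log_pow]; norm_num
  have hlogx : Real.log x ≤ x := (Real.log_le_sub_one_of_pos hxpos).trans (by linarith)
  have hlogx0 : 0 ≤ Real.log x := Real.log_nonneg (by linarith)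
  have hlam : 1 ≤ -Real.log α := by
    have : Real.log α ≤ Real.log (Real.exp (-1)) := by
      refine Real.log_le_log hα0 ?_
      have := Real.add_one_le_exp (1 : ℝ)
      have h3 := Real.exp_one_lt_d9
      rw [Real.exp_neg, ← one_div, le_div_iff₀ (Real.exp_pos 1)]
      nlinarith
    rw [Real.log_exp] at this; linarith
  set D := Real.log n / (-Real.log α) with hD
  have hD0 : 0 ≤ D := div_nonneg (by rw [hlogn]; positivity) (by linarith)
  have hDx : D ≤ 100 * x := by
    rw [hD, div_le_iff₀ (by linarith), hlogn]; nlinarith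
  set b := ⌊4 * D⌋₊ with hb
  have hb1 : (b : ℝ) ≤ 4 * D := Nat.floor_le (by linarith)
  have hb2 : 4 * D < b + 1 := Nat.lt_floor_add_one _
  obtain ⟨cls, N, h2, h3, h4, h5⟩ := peel (H := H) (b := b) (fun U => by
      have := degree_sum_le hα0 (by linarith) hS hn1 U
      rw [← hD] at this
      have h6 := mul_le_mul_of_nonneg_right hb2.le (Nat.cast_nonneg (α := ℝ) U.card)
      have : ((2 * ∑ v ∈ U, (U.filter fun a => H.Adj v a).card : ℕ) : ℝ) ≤
          (((b + 1) * U.card : ℕ) : ℝ) := by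
        rw [Nat.cast_mul, Nat.cast_mul]; push_cast at this h6 ⊢; linarith
      exact_mod_cast this) hn1 ⌈2 * (b + 1) * (Real.log n + 1)⌉₊ (Nat.le_ceil _)
  refine ⟨N, h3, ?_⟩
  have hgrp : ∀ v, ∃ X : Fin 400 → Finset (Fin n),
      (∀ i, X i ⊆ N v ∧ (X i).card ≤ b / 400 + 1) ∧ ∀ a ∈ N v, ∃ i, a ∈ X i := fun v =>
    exists_cover_card_le 400 (b / 400 + 1) (N v) (by have := h4 v; omega)
  choose X hX1 hX2 using hgrp
  have := Cov.of_family (p := 180000 * α) (k := 2 * (20000 * 20000 * 2)) (ι := Fin 400) (N := N)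
    (fun i v => X v i) (fun i => ?_) (fun b a ha => hX2 b a ha)
  · simpa only [Fintype.card_fin, kk] using this
  have hN : ∀ v, ∀ a ∈ X v i, H.Adj v a ∧ cls a < cls v := fun v a ha => h5 v a ((hX1 v i).1 ha)
  by_cases hcase : D < 100
  · have hb3 : b < 400 := by
      have : (b : ℝ) < 400 := by linarith
      exact_mod_cast this
    have hαx : α * x ≤ 1 := by
      rw [hD, div_lt_iff₀ (by linarith), hlogn] at hcase
      have : Real.log (α * x) ≤ 0 := by rw [Real.log_mul hα0.ne' hxpos.ne']; linarith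
      exact (Real.log_nonpos_iff (by positivity)).1 this
    refine (regimeB hα0.le (by linarith) hS ?_ (by positivity) (by nlinarith) (by linarith) _
      (fun v => ?_) cls _ h2 hN).mono (by norm_num)
    · have : (200 : ℝ) ≤ n := le_trans (by norm_num) hn
      exact_mod_cast this
    · have := (hX1 v i).2; omega
  · push Not at hcase
    have hd1 : ((b / 400 + 1 : ℕ) : ℝ) ≤ D / 50 := by
      have : ((b / 400 : ℕ) : ℝ) ≤ b / 400 := by
        have := @Nat.cast_div_le ℝ _ _ _ b 400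
        simpa using this
      push_cast; linarith
    have hx1 : 1 ≤ x := by linarith
    refine regimeA hα0 hS (by linarith) hxn (by rw [hlogn]; linarith) h1 le_rfl (b / 400 + 1) ?_ ?_ _
      (fun v => (hX1 v i).2) cls _ ?_ h2 hN
    · have e1 : ((b / 400 + 1 : ℕ) : ℝ) * (-Real.log α) ≤ 2 * Real.log x := by
        calc _ ≤ D / 50 * (-Real.log α) := mul_le_mul_of_nonneg_right hd1 (by linarith)
          _ = 2 * Real.log x := by
              have : Real.log α ≠ 0 := by linarith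
              rw [hD, hlogn]; field_simp; ring
      have e2 : 0 ≤ Real.log (α ^ (b / 400 + 1) * x ^ 2) := by
        rw [Real.log_mul (by positivity) (by positivity), Real.log_pow, Real.log_pow]
        push_cast at e1 ⊢; linarith
      exact (Real.log_nonneg_iff (by positivity)).1 e2
    · have : x * x ≤ x ^ 10 := by
        rw [← sq]; exact pow_le_pow_right₀ hx1 (by norm_num)
      nlinarith
    · have e1 := Nat.ceil_lt_add_one (by rw [hlogn]; positivity :
        0 ≤ 2 * ((b : ℝ) + 1) * (Real.log n + 1))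
      have e2 : 2 * ((b : ℝ) + 1) * (Real.log n + 1) ≤ 2 * (401 * x) * (101 * x) := by
        refine mul_le_mul (by linarith) (by rw [hlogn]; linarith) (by rw [hlogn]; positivity)
          (by positivity)
      have e3 : x ^ 3 ≤ x ^ 20 := pow_le_pow_right₀ hx1 (by norm_num)
      have e4 : x ^ 3 = x * (x * x) := by ring
      have e5 : 360000 * (x * x) ≤ x * (x * x) := mul_le_mul_of_nonneg_right hx (by positivity)
      nlinarith

lemma alpha_lower {H : SimpleGraph (Fin n)} {α : ℝ} (hα0 : 0 ≤ α) (hα1 : α ≤ 1) (hS : Spread H α)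
    (hH : H ≠ ⊥) : 1 ≤ α * n ^ 2 := by
  obtain ⟨u, v, huv⟩ : ∃ u v, H.Adj u v := by
    by_contra hc
    push Not at hc
    exact hH (by ext a b; simp [hc a b])
  have := pattern hα0 hα1 hS (V := Bool) (Ξ := Unit) {(true, false)} (by simp) (by simp)
    (fun _ b => if b then u else v) (fun _ _ _ => rfl)
    (fun _ a b h => by cases a <;> cases b <;> simp_all [huv.ne, huv.ne'])
    (fun _ q hq => by rw [Finset.mem_singleton.1 hq]; simpa using huv)
  simpa using this

theorem main {K : ℝ} (hK1 : 1 ≤ K) (hK : FracInt K) :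
    ∃ k : ℕ, 2 ≤ k ∧ ∃ L : ℝ, 1 ≤ L ∧ ∀ n : ℕ, 2 ≤ n →
      ∀ (W : Type) [Fintype W] [DecidableEq W] (H : SimpleGraph W),
        Fintype.card W ≤ n → H ≠ ⊥ →
        ∃ c : H.edgeSet → Fin k, ∀ i : Fin k, ∃ p : ℝ, 0 ≤ p ∧ p ≤ 1 ∧
          (∃ C : Finset (Finset (EdgeSlot n)),
            (∀ A : Finset (EdgeSlot n), H.IsContained (edgeGraph A) → ∃ S ∈ C, S ⊆ A) ∧
            ∑ S ∈ C, p ^ S.card ≤ 1 / 2) ∧
          1 / 2 ≤ gnpProb n (min 1 (L * p)) {G | (pieceGraph H c i).IsContained G} := by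
  classical
  obtain ⟨n₀, hn₀⟩ : ∃ n₀ : ℝ, n₀ = 360000 ^ 100 := ⟨_, rfl⟩
  have hn₀1 : 180000 ≤ n₀ := by rw [hn₀]; norm_num
  refine ⟨kk, by norm_num [kk], 2 * K * n₀ ^ 2, by nlinarith, ?_⟩
  intro n hn W _ _ H hW hH
  obtain ⟨ι⟩ : Nonempty (W ↪ Fin n) := Function.Embedding.nonempty_of_card_le (by simpa using hW)
  have hH0 : H.map ι ≠ ⊥ := by
    intro h
    apply hH
    ext a b
    simp only [SimpleGraph.bot_adj, iff_false]
    intro hab
    have : (H.map ι).Adj (ι a) (ι b) := by simpa using hab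
    rw [h] at this; exact this
  obtain ⟨α, hα0, hα1, hS, C, hC1, hC2⟩ := exists_spread hK (H.map ι) hH0
  have hL : 0 < 2 * K * n₀ ^ 2 := by positivity
  obtain ⟨p, hp0, hp1, N, hN1, hN2⟩ : ∃ p : ℝ, 0 ≤ p ∧ p ≤ α / 2 / K ∧
      ∃ N : Fin n → Finset (Fin n), (∀ u v, (H.map ι).Adj u v → u ∈ N v ∨ v ∈ N u) ∧
        Cov (min 1 (2 * K * n₀ ^ 2 * p)) kk N := by
    by_cases hbig : n₀ ≤ n ∧ 180000 * α < 1
    · obtain ⟨N, h1, h2⟩ := cover_big hα0 hS (hn₀ ▸ hbig.1) hbig.2
      refine ⟨180000 * α / (2 * K * n₀ ^ 2), by positivity, ?_, N, h1, ?_⟩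
      · rw [div_div, div_le_div_iff₀ hL (by positivity)]
        have : 180000 ≤ n₀ ^ 2 := by nlinarith
        have h3 := mul_le_mul_of_nonneg_left this (by positivity : 0 ≤ α * (2 * K))
        linarith
      · rw [mul_div_cancel₀ _ hL.ne', min_eq_right hbig.2.le]; exact h2
    · obtain ⟨N, h1, h2⟩ := cover_one (H.map ι)
      refine ⟨α / 2 / K, by positivity, le_rfl, N, h1, ?_⟩
      have e : 2 * K * n₀ ^ 2 * (α / 2 / K) = α * n₀ ^ 2 := by field_simp
      rw [e, min_eq_left]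
      · exact h2.mono (by norm_num [kk])
      · rcases not_and_or.1 hbig with h | h
        · push Not at h
          refine (alpha_lower hα0.le hα1 hS hH0).trans ?_
          gcongr
        · push Not at h
          have : 180000 ≤ n₀ ^ 2 := by nlinarith
          nlinarith
  obtain ⟨s, hs1, hs2, hs3⟩ := hN2
  set q := min 1 (2 * K * n₀ ^ 2 * p) with hq
  have hq0 : 0 ≤ q := le_min (by norm_num) (by positivity)
  have hq1 : q ≤ 1 := min_le_left _ _
  let M : Fin kk → Fin n → Finset (Fin n) := fun i =>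
    if h : (i : ℕ) < s.card then (s.equivFin.symm ⟨i, h⟩ : _) else fun _ => ∅
  have hM1 : ∀ i, Good q (M i) := by
    intro i
    simp only [M]
    split_ifs with h
    · exact hs2 _ (s.equivFin.symm ⟨i, h⟩).2
    · unfold Good
      have : ∀ ω : EdgeSlot n → Bool, ind (Emb (fun _ => (∅ : Finset (Fin n))) ω) = 1 := fun ω =>
        ind_true ⟨id, Function.injective_id, by simp⟩
      simp only [this, Ex_const]; norm_num
  have hM2 : ∀ M' ∈ s, ∃ i, M i = M' := by
    intro M' hM'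
    refine ⟨⟨s.equivFin ⟨M', hM'⟩, lt_of_lt_of_le (Fin.is_lt _) hs1⟩, ?_⟩
    simp only [M, Fin.is_lt, dif_pos, Fin.eta, Equiv.symm_apply_apply]
  have hc : ∀ e : H.edgeSet, ∃ i, ∃ u v, e.1 = s(u, v) ∧ ι u ∈ M i (ι v) := by
    rintro ⟨e, he⟩
    induction e using Sym2.ind with
    | _ u v =>
      have hadj : (H.map ι).Adj (ι u) (ι v) := by simpa using he
      rcases hN1 _ _ hadj with h | h
      · obtain ⟨M', h1, h2⟩ := hs3 _ _ h
        obtain ⟨i, rfl⟩ := hM2 M' h1
        exact ⟨i, u, v, rfl, h2⟩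
      · obtain ⟨M', h1, h2⟩ := hs3 _ _ h
        obtain ⟨i, rfl⟩ := hM2 M' h1
        exact ⟨i, v, u, Sym2.eq_swap, h2⟩
  choose c hc using hc
  refine ⟨c, fun i => ⟨p, hp0, ?_, ⟨C, fun A hA => hC1 A ?_, le_trans ?_ hC2⟩, ?_⟩⟩
  · refine hp1.trans ?_
    rw [div_le_one (by linarith)]; linarith
  · obtain ⟨f⟩ := hA
    obtain ⟨σ, hσ⟩ := Equiv.Perm.exists_extending_pair ι f ι.injective f.injective
    refine ⟨σ, fun z hz => ?_⟩
    obtain ⟨z, hzd⟩ := z
    induction z using Sym2.ind with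
    | _ u v =>
      obtain ⟨-, a, b, hab, rfl, rfl⟩ : (H.map ι).Adj u v := hz
      have := f.toHom.map_rel hab
      simp only [edgeGraph, SimpleGraph.fromEdgeSet_adj, Set.mem_setOf_eq] at this
      obtain ⟨⟨h1, h2⟩, -⟩ := this
      convert h2 using 1
      apply Subtype.ext
      simp only [act, Sym2.map_mk, hσ]
      rfl
  · exact Finset.sum_le_sum fun S _ => pow_le_pow_left₀ hp0 hp1 _
  · unfold gnpProb
    rw [bernoulliProb_eq]
    refine (hM1 i).trans (Ex_mono hq0 hq1 fun ω => ind_mono ?_)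
    rintro ⟨φ, hφ1, hφ2⟩
    refine ⟨⟨⟨fun w => φ (ι w), fun {u v} huv => ?_⟩, hφ1.comp ι.injective⟩⟩
    simp only [pieceGraph, SimpleGraph.fromEdgeSet_adj, Set.mem_setOf_eq] at huv
    obtain ⟨⟨h1, h2⟩, -⟩ := huv
    obtain ⟨u', v', e, h3⟩ := hc ⟨_, h1⟩
    rw [h2] at h3
    have := hφ2 _ _ h3
    rcases Sym2.eq_iff.1 e with ⟨rfl, rfl⟩ | ⟨rfl, rfl⟩
    · exact this.symm
    · exact this

end Crest.Agent.R52G
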