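import Crest.Agent.R52G.Prob

set_option autoImplicit false

open Finset Crest.FinProb

namespace Crest.Agent.R52G

lemma exp_neg_le_half {t : ℝ} (h0 : 0 ≤ t) (h1 : t ≤ 1) : Real.exp (-t) ≤ 1 - t / 2 := by
  have h := Real.add_one_le_exp t
  have hpos : 0 < Real.exp t := Real.exp_pos t
  rw [Real.exp_neg, inv_le_iff_one_le_mul₀ hpos]
  have : 0 ≤ 1 - t / 2 := by linarith
  nlinarith

/-- A fractional matching saturating `B` gives a matching. -/
lemma hall_of_frac {R B : Type*} [Fintype R] [DecidableEq R] [Fintype B] [DecidableEq B]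
    (rel : B → R → Prop) (w : B → R → ℝ) (hw0 : ∀ b u, 0 ≤ w b u)
    (hsupp : ∀ b u, w b u ≠ 0 → rel b u) (hload : ∀ u, ∑ b, w b u ≤ 1)
    (hsat : ∀ b, 1 ≤ ∑ u, w b u) : ∃ m : B → R, Function.Injective m ∧ ∀ b, rel b (m b) := by
  classical
  rw [← Fintype.all_card_le_filter_rel_iff_exists_injective]
  intro s
  have h1 : (s.card : ℝ) ≤ ∑ b ∈ s, ∑ u, w b u := by
    rw [Finset.card_eq_sum_ones]; push_cast
    exact Finset.sum_le_sum fun b _ => hsat b
  rw [Finset.sum_comm] at h1
  have h2 : ∑ u, ∑ b ∈ s, w b u ≤ ((Finset.univ.filter fun u => ∃ b ∈ s, rel b u).card : ℝ) := by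
    rw [Finset.card_eq_sum_ones, Finset.sum_filter]; push_cast
    refine Finset.sum_le_sum fun u _ => ?_
    split_ifs with h
    · exact le_trans (Finset.sum_le_sum_of_subset_of_nonneg (Finset.subset_univ s)
        fun b _ _ => hw0 b u) (hload u)
    · refine le_of_eq (Finset.sum_eq_zero fun b hb => ?_)
      by_contra hne
      exact h ⟨b, hb, hsupp b u hne⟩
  exact_mod_cast h1.trans h2

lemma matching {R A B : Type*} [Fintype R] [DecidableEq R] [Fintype A] [DecidableEq A]
    [Fintype B] [DecidableEq B] {p : ℝ} (h0 : 0 ≤ p) (h1 : p ≤ 1) (N : B → Finset A)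
    (x : B → (A → Bool) → ℝ) {η : ℝ} (hη : 0 < η) (hx0 : ∀ b y, 0 ≤ x b y)
    (hxη : ∀ b y, x b y ≤ η) (hsupp : ∀ b y, x b y ≠ 0 → ∀ a ∈ N b, y a = true)
    (hload : ∀ y, ∑ b, x b y ≤ 1) (hmean : ∀ b, 3 ≤ (Fintype.card R : ℝ) * Ex p (x b)) :
    Ex p (fun ω : R × A → Bool =>
      ind (¬ ∃ m : B → R, Function.Injective m ∧ ∀ b, ∀ a ∈ N b, ω (m b, a) = true)) ≤
      Fintype.card B * Real.exp (-1 / (2 * η)) := by
  have hb : ∀ b, Ex p (fun ω : R × A → Bool =>
      Real.exp (1 / η) * ∏ u, Real.exp (-(x b (fun a => ω (u, a)) / η))) ≤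
      Real.exp (-1 / (2 * η)) := by
    intro b
    rw [Ex_const_mul, Ex_prod_rows p (fun _ y => Real.exp (-(x b y / η)))]
    have hE : Ex p (fun y => Real.exp (-(x b y / η))) ≤ Real.exp (-(Ex p (x b) / (2 * η))) := by
      calc Ex p (fun y => Real.exp (-(x b y / η))) ≤ Ex p (fun y => 1 - x b y * (1 / (2 * η))) := by
            refine Ex_mono h0 h1 fun y => ?_
            have := exp_neg_le_half (t := x b y / η) (div_nonneg (hx0 b y) hη.le)
              ((div_le_one hη).2 (hxη b y))
            refine this.trans (le_of_eq ?_)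
            field_simp
        _ = 1 - Ex p (x b) / (2 * η) := by
            rw [Ex_sub, Ex_const, Ex_mul_const]; ring
        _ ≤ _ := by
            have := Real.add_one_le_exp (-(Ex p (x b) / (2 * η))); linarith
    have hE0 : 0 ≤ Ex p (fun y => Real.exp (-(x b y / η))) :=
      Ex_nonneg h0 h1 fun y => (Real.exp_pos _).le
    calc Real.exp (1 / η) * ∏ _u : R, Ex p (fun y => Real.exp (-(x b y / η)))
        ≤ Real.exp (1 / η) * ∏ _u : R, Real.exp (-(Ex p (x b) / (2 * η))) := by
          refine mul_le_mul_of_nonneg_left ?_ (Real.exp_pos _).le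
          exact Finset.prod_le_prod (fun _ _ => hE0) fun _ _ => hE
      _ = Real.exp (1 / η - (Fintype.card R : ℝ) * Ex p (x b) / (2 * η)) := by
          rw [Finset.prod_const, Finset.card_univ, ← Real.exp_nat_mul, ← Real.exp_add]
          congr 1; ring
      _ ≤ _ := by
          refine Real.exp_le_exp.2 ?_
          have h3 : 3 / (2 * η) ≤ (Fintype.card R : ℝ) * Ex p (x b) / (2 * η) :=
            div_le_div_of_nonneg_right (hmean b) (by positivity)
          have h4 : 1 / η - 3 / (2 * η) = -1 / (2 * η) := by field_simp; ring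
          linarith
  calc _ ≤ Ex p (fun ω : R × A → Bool => ∑ b,
        Real.exp (1 / η) * ∏ u, Real.exp (-(x b (fun a => ω (u, a)) / η))) := by
        refine Ex_mono h0 h1 fun ω => ?_
        have hterm : ∀ b, 0 ≤ Real.exp (1 / η) *
            ∏ u, Real.exp (-(x b (fun a => ω (u, a)) / η)) := fun b =>
          mul_nonneg (Real.exp_pos _).le (Finset.prod_nonneg fun _ _ => (Real.exp_pos _).le)
        by_cases hall : ∀ b, 1 ≤ ∑ u, x b (fun a => ω (u, a))
        · rw [ind_false]
          · exact Finset.sum_nonneg fun b _ => hterm b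
          · rw [not_not]
            exact hall_of_frac (fun b u => ∀ a ∈ N b, ω (u, a) = true)
              (fun b u => x b (fun a => ω (u, a))) (fun b u => hx0 _ _)
              (fun b u h => hsupp b _ h) (fun u => hload _) hall
        · push Not at hall
          obtain ⟨b, hb⟩ := hall
          refine (ind_le_one _).trans (le_trans ?_
            (Finset.single_le_sum (fun b _ => hterm b) (Finset.mem_univ b)))
          rw [← Real.exp_sum, ← Real.exp_add]
          refine Real.one_le_exp ?_
          rw [Finset.sum_neg_distrib, ← Finset.sum_div]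
          have := div_le_div_of_nonneg_right hb.le hη.le
          linarith
    _ = ∑ b, Ex p (fun ω : R × A → Bool =>
        Real.exp (1 / η) * ∏ u, Real.exp (-(x b (fun a => ω (u, a)) / η))) := Ex_sum _ _ _
    _ ≤ ∑ _b : B, Real.exp (-1 / (2 * η)) := Finset.sum_le_sum fun b _ => hb b
    _ = _ := by simp

end Crest.Agent.R52G
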