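import Crest.Agent.R52G.Star

set_option autoImplicit false

open Finset Crest.FinProb Crest.CombinatoricsR.RandomGraph

namespace Crest.Agent.R52G

variable {n : ℕ}

/-- in-neighbours -/
def lf (N : Fin n → Finset (Fin n)) (a : Fin n) : Finset (Fin n) :=
  Finset.univ.filter fun b => a ∈ N b

lemma mem_lf {N : Fin n → Finset (Fin n)} {a b : Fin n} : b ∈ lf N a ↔ a ∈ N b := by simp [lf]

lemma sum_lf (N : Fin n → Finset (Fin n)) : ∑ a, (lf N a).card = ∑ b, (N b).card := by
  simp only [lf, Finset.card_filter]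
  rw [Finset.sum_comm]
  refine Finset.sum_congr rfl fun b _ => ?_
  rw [← Finset.card_filter]; simp

lemma emb_of_succ {N : Fin n → Finset (Fin n)} (hN1 : ∀ b, (N b).card ≤ 1)
    (hdisj : ∀ b, ∀ a ∈ N b, N a = ∅) {T U : Finset (Fin n)} (hTU : Disjoint T U)
    {ω : EdgeSlot n → Bool}
    (h : Succ (fun a => (lf N a).card) T (Finset.univ.filter fun a => (lf N a).Nonempty) U ω) :
    Emb N ω := by
  classical
  obtain ⟨ψ, L, h1, h2, h3⟩ := h
  have hg : ∀ a ∈ (Finset.univ.filter fun a => (lf N a).Nonempty), ∃ g : Fin n → Fin n,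
      Set.InjOn g (lf N a) ∧ ∀ b ∈ lf N a, g b ∈ L a := by
    intro a ha
    let e := Finset.equivOfCardEq (h2 a ha).2.2.1.symm
    refine ⟨fun b => if hb : b ∈ lf N a then (e ⟨b, hb⟩ : Fin n) else b, ?_, ?_⟩
    · intro b hb b' hb' hbb
      have hb1 : b ∈ lf N a := hb
      have hb2 : b' ∈ lf N a := hb'
      simp only [dif_pos hb1, dif_pos hb2] at hbb
      exact congrArg Subtype.val (e.injective (Subtype.ext hbb))
    · intro b hb
      simp only [dif_pos hb]; exact (e ⟨b, hb⟩).2
  choose! g hg1 hg2 using hg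
  have hC : ∀ b, ∀ a ∈ N b, a ∈ (Finset.univ.filter fun a => (lf N a).Nonempty) :=
    fun b a ha => Finset.mem_filter.2 ⟨Finset.mem_univ _, b, mem_lf.2 ha⟩
  let φ : Fin n → Fin n := fun b => if h : (N b).Nonempty then g h.choose b else ψ b
  have hleaf : ∀ b, ∀ a ∈ N b, φ b = g a b := by
    intro b a ha
    have hne : (N b).Nonempty := ⟨a, ha⟩
    simp only [φ, dif_pos hne]
    rw [Finset.card_le_one.1 (hN1 b) _ hne.choose_spec a ha]
  have hctr : ∀ a, (lf N a).Nonempty → φ a = ψ a := by
    rintro a ⟨b, hb⟩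
    have : ¬ (N a).Nonempty := by rw [hdisj b a (mem_lf.1 hb)]; simp
    simp only [φ, dif_neg this]
  refine emb_of_injOn (V := Finset.univ.filter fun v => (N v).Nonempty ∨ (lf N v).Nonempty)
    (fun b a ha => ⟨by simp only [Finset.mem_filter]; exact ⟨Finset.mem_univ _, Or.inl ⟨a, ha⟩⟩,
      by simp only [Finset.mem_filter]; exact ⟨Finset.mem_univ _, Or.inr ⟨b, mem_lf.2 ha⟩⟩⟩) φ ?_ ?_
  · intro v hv w hw hvw
    have hv' := (Finset.mem_filter.1 hv).2
    have hw' := (Finset.mem_filter.1 hw).2
    have hmemC : ∀ a, (lf N a).Nonempty → a ∈ (Finset.univ.filter fun a => (lf N a).Nonempty) :=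
      fun a ha => Finset.mem_filter.2 ⟨Finset.mem_univ _, ha⟩
    rcases hv' with ⟨a, ha⟩ | hv' <;> rcases hw' with ⟨a', ha'⟩ | hw'
    · rw [hleaf v a ha, hleaf w a' ha'] at hvw
      by_cases e : a = a'
      · subst e
        exact hg1 a (hC v a ha) (mem_lf.2 ha) (mem_lf.2 ha') hvw
      · exact absurd (hvw ▸ hg2 a (hC v a ha) v (mem_lf.2 ha)) fun hc =>
          Finset.disjoint_left.1 (h3 a (hC v a ha) a' (hC w a' ha') e) hc
            (hg2 a' (hC w a' ha') w (mem_lf.2 ha'))
    · rw [hleaf v a ha, hctr w hw'] at hvw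
      exact absurd ((h2 a (hC v a ha)).2.1 (hg2 a (hC v a ha) v (mem_lf.2 ha)))
        (hvw ▸ Finset.disjoint_left.1 hTU (h2 w (hmemC w hw')).1)
    · rw [hleaf w a' ha', hctr v hv'] at hvw
      exact absurd ((h2 a' (hC w a' ha')).2.1 (hg2 a' (hC w a' ha') w (mem_lf.2 ha')))
        (hvw ▸ Finset.disjoint_left.1 hTU (h2 v (hmemC v hv')).1)
    · rw [hctr v hv', hctr w hw'] at hvw
      exact h1 (hmemC v hv') (hmemC w hw') hvw
  · intro b _ a ha
    rw [hleaf b a ha, hctr a ⟨b, mem_lf.2 ha⟩]
    exact ((h2 a (hC b a ha)).2.2.2 _ (hg2 a (hC b a ha) b (mem_lf.2 ha))).symm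

lemma pow_self_le (d : ℕ) : (d : ℝ) ^ d ≤ 3 ^ d * d.factorial := by
  have h := Real.pow_div_factorial_le_exp (d : ℝ) (Nat.cast_nonneg d) d
  have hf : (0 : ℝ) < d.factorial := by exact_mod_cast d.factorial_pos
  rw [div_le_iff₀ hf] at h
  refine h.trans (mul_le_mul_of_nonneg_right ?_ hf.le)
  rw [← Real.exp_one_pow]
  exact pow_le_pow_left₀ (Real.exp_pos 1).le (Real.exp_one_lt_d9.le.trans (by norm_num)) d

lemma exp_four_le : Real.exp 4 ≤ 55 := by
  have h : Real.exp 4 = Real.exp 1 ^ 4 := by rw [Real.exp_one_pow]; norm_num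
  rw [h]
  exact (pow_le_pow_left₀ (Real.exp_pos 1).le Real.exp_one_lt_d9.le 4).trans (by norm_num)

lemma star_good (hn : 100 ≤ n) {α p : ℝ} (hα : 0 ≤ α) (h0 : 0 < p) (h1 : p ≤ 1 / 2)
    (hΛ : 70400 * α ≤ p) (N : Fin n → Finset (Fin n)) (hN1 : ∀ b, (N b).card ≤ 1)
    (hdisj : ∀ b, ∀ a ∈ N b, N a = ∅) (hS : 100 * ∑ b, (N b).card ≤ n)
    (hM : ∀ d, 1 ≤ d → ((Finset.univ.filter fun a => (lf N a).card = d).card : ℝ) * d.factorial ≤
      α ^ d * n ^ (d + 1)) : Good p N := by
  classical
  set N₀ := n / 4 with hN₀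
  have hn' : (100 : ℝ) ≤ n := by exact_mod_cast hn
  have hN₀' : (n : ℝ) / 5 ≤ N₀ := by
    have : n ≤ 5 * N₀ := by omega
    have : (n : ℝ) ≤ 5 * N₀ := by exact_mod_cast this
    linarith
  set C := Finset.univ.filter fun a => (lf N a).Nonempty with hC
  set dg : Fin n → ℕ := fun a => (lf N a).card with hdg
  have hsum : 100 * ∑ a ∈ C, dg a ≤ n := by
    refine le_trans (Nat.mul_le_mul_left _ ?_) hS
    rw [← sum_lf]
    exact Finset.sum_le_sum_of_subset (Finset.subset_univ _)
  have hd1 : ∀ a ∈ C, 1 ≤ dg a := fun a ha => Finset.card_pos.2 (Finset.mem_filter.1 ha).2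
  have hdle : ∀ a ∈ C, 100 * dg a ≤ n := fun a ha =>
    le_trans (Nat.mul_le_mul_left _ (Finset.single_le_sum (f := dg) (fun _ _ => Nat.zero_le _) ha))
      hsum
  have hCcard : 100 * C.card ≤ n := by
    refine le_trans (Nat.mul_le_mul_left _ ?_) hsum
    rw [Finset.card_eq_sum_ones]
    exact Finset.sum_le_sum hd1
  obtain ⟨P, -, hP⟩ := Finset.exists_subset_card_eq (s := (Finset.univ : Finset (Fin n)))
    (n := N₀ + ∑ a ∈ C, dg a) (by simp only [Finset.card_univ, Fintype.card_fin]; omega)
  let r : ℕ → ℕ := fun c => n / 2 ^ (c + 2)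
  have hr : ∑ c ∈ Finset.range (n + 1), r c ≤ (Finset.univ \ P).card := by
    have e1 : ∀ k, ((∑ c ∈ Finset.range k, r c : ℕ) : ℝ) ≤ n / 2 - n / 2 ^ (k + 1) := by
      intro k
      induction k with
      | zero => simp
      | succ k ih =>
        rw [Finset.sum_range_succ]
        push_cast at ih ⊢
        have : ((r k : ℕ) : ℝ) ≤ n / 2 ^ (k + 2) := by
          have := @Nat.cast_div_le ℝ _ _ _ n (2 ^ (k + 2))
          simpa using this
        have e : (n : ℝ) / 2 ^ (k + 1) = 2 * (n / 2 ^ (k + 1 + 1)) := by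
          rw [pow_succ (2 : ℝ) (k + 1)]; field_simp
        linarith
    have e2 : ((∑ c ∈ Finset.range (n + 1), r c : ℕ) : ℝ) ≤ n / 2 :=
      (e1 (n + 1)).trans (sub_le_self _ (by positivity))
    have e3 : 2 * ∑ c ∈ Finset.range (n + 1), r c ≤ n := by
      have : ((2 * ∑ c ∈ Finset.range (n + 1), r c : ℕ) : ℝ) ≤ n := by
        push_cast at e2 ⊢; linarith
      exact_mod_cast this
    rw [Finset.card_sdiff_of_subset (Finset.subset_univ _), hP]
    simp only [Finset.card_univ, Fintype.card_fin]; omega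
  obtain ⟨R, hR1, hR2⟩ := exists_disjoint_family (Finset.range (n + 1)) r _ hr
  let cc : Fin n → ℕ := fun u => if h : ∃ c ∈ Finset.range (n + 1), u ∈ R c then h.choose else 0
  set T := (Finset.range (n + 1)).biUnion R with hT
  have hcc : ∀ c ∈ Finset.range (n + 1), r c ≤ (T.filter fun u => cc u = c).card := by
    intro c hc
    rw [← (hR1 c hc).2]
    refine Finset.card_le_card fun u hu => Finset.mem_filter.2
      ⟨Finset.mem_biUnion.2 ⟨c, hc, hu⟩, ?_⟩
    have hex : ∃ c ∈ Finset.range (n + 1), u ∈ R c := ⟨c, hc, hu⟩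
    simp only [cc, dif_pos hex]
    by_contra hne
    exact Finset.disjoint_left.1 (hR2 _ hex.choose_spec.1 c hc hne) hex.choose_spec.2 hu
  have hTP : Disjoint T P := by
    refine Finset.disjoint_left.2 fun u hu huP => ?_
    obtain ⟨c, hc, huc⟩ := Finset.mem_biUnion.1 hu
    exact (Finset.mem_sdiff.1 ((hR1 c hc).1 huc)).2 huP
  let cl : Fin n → ℕ := fun a => if (dg a : ℝ) ≤ p * N₀ / 2 then 0 else dg a
  let ρ : ℕ → ℝ := fun c => if c = 0 then 1 / 2 else min 1 ((p * N₀ / 110) ^ c / c.factorial)
  have hρ0 : ∀ c, 0 ≤ ρ c := by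
    intro c; simp only [ρ]; split_ifs
    · norm_num
    · exact le_min (by norm_num) (by positivity)
  have hρ1 : ∀ c, ρ c ≤ 1 := by
    intro c; simp only [ρ]; split_ifs
    · norm_num
    · exact min_le_left _ _
  have hp1 : p ≤ 1 := by linarith
  have hρ : ∀ a ∈ C, ∀ u S, u ∉ S → N₀ ≤ S.card →
      ρ (cl a) ≤ Ex p (fun ω : EdgeSlot n → Bool => ind (dg a ≤ (nbr ω u S).card)) := by
    intro a ha u S hu hS'
    rw [Ex_nbr p u S hu (fun k => ind (dg a ≤ k))]
    by_cases hc : (dg a : ℝ) ≤ p * N₀ / 2
    · have e : ρ (cl a) = 1 / 2 := by simp only [cl, if_pos hc, ρ, if_true]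
      rw [e]
      have h := binom_lower_tail (A := S) h0.le hp1 (dg a)
      rw [Ex_ind_not, Fintype.card_coe] at h
      have h2 : (1 - p / 2) ^ S.card ≤ Real.exp (-(dg a : ℝ)) := by
        calc _ ≤ (1 - p / 2) ^ N₀ := pow_le_pow_of_le_one (by linarith) (by linarith) hS'
          _ ≤ Real.exp (-(p / 2)) ^ N₀ := pow_le_pow_left₀ (by linarith)
              (by linarith [Real.add_one_le_exp (-(p / 2))]) _
          _ = Real.exp (-(p * N₀ / 2)) := by rw [← Real.exp_nat_mul]; congr 1; ring
          _ ≤ _ := Real.exp_le_exp.2 (by linarith)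
      have h3 : (2 : ℝ) ^ dg a * Real.exp (-(dg a : ℝ)) ≤ 1 := by
        rw [Real.exp_neg, ← div_eq_mul_inv, div_le_one (Real.exp_pos _), ← Real.exp_one_pow]
        exact pow_le_pow_left₀ (by norm_num) (by linarith [Real.add_one_le_exp 1]) _
      have h4 := mul_le_mul_of_nonneg_left h2 (by positivity : (0 : ℝ) ≤ 2 ^ dg a / 2)
      linarith
    · have hd := hd1 a ha
      have e : ρ (cl a) ≤ (p * N₀ / 110) ^ dg a / (dg a).factorial := by
        simp only [cl, if_neg hc, ρ, if_neg (by omega : dg a ≠ 0)]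
        exact min_le_right _ _
      refine e.trans ?_
      obtain ⟨S', -, hS''⟩ := Finset.exists_subset_card_eq (s := (Finset.univ : Finset S))
        (n := N₀) (by simpa using hS')
      refine le_trans ?_ (binom_point h0.le hp1 (dg a) S')
      rw [hS'']
      have hdn := hdle a ha
      have c1 : ((N₀ : ℝ) / 2) ^ dg a / (dg a).factorial ≤ N₀.choose (dg a) := by
        refine le_trans ?_ (Nat.pow_le_choose (α := ℝ) (dg a) N₀)
        refine div_le_div_of_nonneg_right ?_ (by positivity)
        refine pow_le_pow_left₀ (by positivity) ?_ _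
        have : N₀ ≤ 2 * (N₀ + 1 - dg a) := by omega
        have : (N₀ : ℝ) ≤ 2 * ((N₀ + 1 - dg a : ℕ) : ℝ) := by exact_mod_cast this
        linarith
      have c2 : (1 / 55 : ℝ) ^ dg a ≤ (1 - p) ^ N₀ := by
        have q1 : Real.exp (-(2 * p)) ≤ 1 - p := by
          have := exp_neg_le_half (t := 2 * p) (by linarith) (by linarith)
          linarith
        push Not at hc
        calc (1 / 55 : ℝ) ^ dg a ≤ Real.exp (-4) ^ dg a := by
              refine pow_le_pow_left₀ (by norm_num) ?_ _
              rw [Real.exp_neg, one_div]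
              exact inv_anti₀ (Real.exp_pos _) exp_four_le
          _ = Real.exp (-(4 * dg a)) := by rw [← Real.exp_nat_mul]; congr 1; ring
          _ ≤ Real.exp (-(2 * p * N₀)) := Real.exp_le_exp.2 (by linarith)
          _ = Real.exp (-(2 * p)) ^ N₀ := by rw [← Real.exp_nat_mul]; congr 1; ring
          _ ≤ _ := pow_le_pow_left₀ (Real.exp_pos _).le q1 _
      calc (p * N₀ / 110) ^ dg a / (dg a).factorial =
            ((N₀ : ℝ) / 2) ^ dg a / (dg a).factorial * (p ^ dg a * (1 / 55) ^ dg a) := by
            rw [div_mul_eq_mul_div, ← mul_pow, ← mul_pow]; congr 2; ring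
        _ ≤ _ := mul_le_mul c1 (mul_le_mul_of_nonneg_left c2 (by positivity)) (by positivity)
            (by positivity)
  have hI : ∀ a ∈ C, cl a ∈ Finset.range (n + 1) := by
    intro a ha
    have := hdle a ha
    simp only [cl, Finset.mem_range]; split_ifs <;> omega
  have hseq := sequential h0.le hp1 dg cl cc ρ hρ0 hρ1 _ N₀ C hI hρ T C le_rfl P hTP hP.ge
  -- bound on the potential
  have hterm : ∀ c ∈ Finset.range (n + 1), term cl cc ρ T C c ≤
      (2 ^ (C.filter fun a => cl a = c).card - 1) * Real.exp (-(ρ c * r c / 2)) := by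
    intro c hc
    refine mul_le_mul_of_nonneg_left ?_ (sub_nonneg.2 (one_le_pow₀ (by norm_num)))
    calc _ ≤ (1 - ρ c / 2) ^ r c :=
          pow_le_pow_of_le_one (by linarith [hρ1 c]) (by linarith [hρ0 c]) (hcc c hc)
      _ ≤ Real.exp (-(ρ c / 2)) ^ r c := pow_le_pow_left₀ (by linarith [hρ1 c])
          (by linarith [Real.add_one_le_exp (-(ρ c / 2))]) _
      _ = _ := by rw [← Real.exp_nat_mul]; congr 1; ring
  have h2exp : ∀ k : ℕ, (2 : ℝ) ^ k ≤ Real.exp k := fun k => by
    rw [← Real.exp_one_pow]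
    exact pow_le_pow_left₀ (by norm_num) (by linarith [Real.add_one_le_exp 1]) _
  have hterm2 : ∀ c ∈ Finset.range (n + 1), term cl cc ρ T C c ≤ 1 / 2 ^ (c + 2) := by
    intro c hc
    refine (hterm c hc).trans ?_
    set M := (C.filter fun a => cl a = c).card with hMdef
    have hkey : 1 ≤ M → (M : ℝ) + (c + 2) ≤ ρ c * r c / 2 := by
      intro hM1
      by_cases hc0 : c = 0
      · subst hc0
        have e1 : ρ 0 = 1 / 2 := by simp [ρ]
        have e2 : r 0 = N₀ := by simp [r, hN₀]
        have e3 : 100 * M ≤ n := le_trans (Nat.mul_le_mul_left _ (Finset.card_filter_le _ _)) hCcard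
        have e4 : (100 : ℝ) * M ≤ n := by exact_mod_cast e3
        rw [e1, e2]; push_cast; linarith
      · obtain ⟨a, ha⟩ := Finset.card_pos.1 hM1
        obtain ⟨haC, hac⟩ := Finset.mem_filter.1 ha
        have hbig : ¬ (dg a : ℝ) ≤ p * N₀ / 2 := by
          intro h; simp only [cl, if_pos h] at hac; exact hc0 hac.symm
        have hdc : dg a = c := by simpa only [cl, if_neg hbig] using hac
        rw [hdc] at hbig
        push Not at hbig
        have hc1 : 1 ≤ c := Nat.one_le_iff_ne_zero.2 hc0
        have hMle : (M : ℝ) * c.factorial ≤ α ^ c * n ^ (c + 1) := by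
          refine le_trans (mul_le_mul_of_nonneg_right ?_ (by positivity)) (hM c hc1)
          have : C.filter (fun a => cl a = c) ⊆ Finset.univ.filter fun a => (lf N a).card = c := by
            intro x hx
            obtain ⟨-, hx2⟩ := Finset.mem_filter.1 hx
            refine Finset.mem_filter.2 ⟨Finset.mem_univ _, ?_⟩
            simp only [cl] at hx2
            split_ifs at hx2
            · exact absurd hx2.symm hc0
            · exact hx2
          exact_mod_cast Finset.card_le_card this
        have hM1' : (1 : ℝ) ≤ M := by exact_mod_cast hM1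
        have hf : (0 : ℝ) < c.factorial := by exact_mod_cast c.factorial_pos
        have hαn : α * n ≤ p * N₀ / 14080 := by nlinarith
        have hMle2 : (M : ℝ) * c.factorial ≤ (p * N₀ / 14080) ^ c * n := by
          refine hMle.trans ?_
          rw [pow_succ, ← mul_assoc, ← mul_pow]
          exact mul_le_mul_of_nonneg_right (pow_le_pow_left₀ (by positivity) hαn _) (by positivity)
        -- `n` is large compared with `2 ^ c`
        have hn8 : (8 : ℝ) ^ c ≤ n := by
          have q1 : (p * N₀ / 14080) ^ c ≤ ((c : ℝ) / 24) ^ c :=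
            pow_le_pow_left₀ (by positivity) (by linarith [show (0 : ℝ) ≤ c by positivity]) _
          have q2 : ((c : ℝ) / 24) ^ c * 8 ^ c ≤ c.factorial := by
            have := pow_self_le c
            rw [← mul_pow]
            have e : (c : ℝ) / 24 * 8 = c / 3 := by ring
            rw [e, div_pow, div_le_iff₀ (by positivity)]
            linarith
          have q3 : (c.factorial : ℝ) ≤ ((c : ℝ) / 24) ^ c * n := by
            have := mul_le_mul_of_nonneg_right q1 (by positivity : (0 : ℝ) ≤ n)
            nlinarith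
          have q4 : (0 : ℝ) < ((c : ℝ) / 24) ^ c := by
            have : (0 : ℝ) < c := by exact_mod_cast hc1
            positivity
          exact le_of_mul_le_mul_left (q2.trans q3) q4
        have hr2 : (n : ℝ) / 2 ^ (c + 3) ≤ r c := by
          have q1 : 2 ^ (c + 2) ≤ n := by
            have : (2 : ℝ) ^ (c + 2) ≤ 8 ^ c := by
              have e : (8 : ℝ) ^ c = 2 ^ (3 * c) := by rw [pow_mul]; norm_num
              rw [e]; exact pow_le_pow_right₀ (by norm_num) (by omega)
            exact_mod_cast this.trans hn8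
          have q2 : n ≤ 2 ^ (c + 3) * r c := by
            have hpos : 0 < 2 ^ (c + 2) := by positivity
            have := Nat.div_add_mod n (2 ^ (c + 2))
            have h3 := Nat.mod_lt n hpos
            have h4 : 1 ≤ r c := (Nat.one_le_div_iff hpos).2 q1
            have h5 : 2 ^ (c + 2) ≤ 2 ^ (c + 2) * r c := Nat.le_mul_of_pos_right _ h4
            simp only [r] at h5 ⊢
            rw [pow_succ 2 (c + 2)]
            nlinarith
          rw [div_le_iff₀ (by positivity), mul_comm]
          exact_mod_cast q2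
        have h4c : (c : ℝ) + 3 ≤ 4 ^ c := by
          have := one_add_mul_le_pow (a := (3 : ℝ)) (by norm_num) c
          have h1c : (1 : ℝ) ≤ c := by exact_mod_cast hc1
          norm_num at this; linarith
        have h64 : 16 * ((c : ℝ) + 3) ≤ 64 ^ c := by
          have e : (64 : ℝ) ^ c = 16 ^ c * 4 ^ c := by rw [← mul_pow]; norm_num
          have : (16 : ℝ) ≤ 16 ^ c := le_self_pow₀ (by norm_num) hc0
          rw [e]
          exact mul_le_mul this h4c (by positivity) (by positivity)
        have hgoal : 2 * ((c : ℝ) + 3) * M ≤ ρ c * r c := by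
          simp only [ρ, if_neg hc0]
          rcases min_cases 1 ((p * N₀ / 110) ^ c / c.factorial) with ⟨e, -⟩ | ⟨e, -⟩
          · rw [e, one_mul]
            -- here `M * c ≤ n / 100` is not enough, use the spread bound again
            refine le_trans ?_ hr2
            rw [le_div_iff₀ (by positivity)]
            have q1 : (p * N₀ / 14080) ^ c ≤ ((c : ℝ) / 7040) ^ c :=
              pow_le_pow_left₀ (by positivity) (by linarith) _
            have q2 : ((c : ℝ) / 7040) ^ c * (128 ^ c) ≤ c.factorial := by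
              have := pow_self_le c
              rw [← mul_pow]
              have e : (c : ℝ) / 7040 * 128 ≤ c / 3 := by
                have : (0 : ℝ) ≤ c := by positivity
                linarith
              refine (pow_le_pow_left₀ (by positivity) e c).trans ?_
              rw [div_pow, div_le_iff₀ (by positivity)]
              linarith
            have q3 : (M : ℝ) * 128 ^ c ≤ n := by
              have a1 := mul_le_mul_of_nonneg_right (hMle2.trans
                (mul_le_mul_of_nonneg_right q1 (by positivity))) (by positivity : (0 : ℝ) ≤ 128 ^ c)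
              have a2 := mul_le_mul_of_nonneg_right q2 (by positivity : (0 : ℝ) ≤ n)
              have : (c.factorial : ℝ) * (M * 128 ^ c) ≤ c.factorial * n := by nlinarith
              exact le_of_mul_le_mul_left this hf
            have e128 : (128 : ℝ) ^ c = 64 ^ c * 2 ^ c := by rw [← mul_pow]; norm_num
            rw [e128] at q3
            have : (16 * ((c : ℝ) + 3)) * (M * 2 ^ c) ≤ 64 ^ c * (M * 2 ^ c) :=
              mul_le_mul_of_nonneg_right h64 (mul_nonneg (by linarith) (pow_nonneg (by norm_num) _))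
            rw [pow_add]
            nlinarith
          · rw [e]
            have e2 : (p * N₀ / 110) ^ c = (p * N₀ / 14080) ^ c * (64 ^ c * 2 ^ c) := by
              rw [← mul_pow, ← mul_pow]; congr 1; ring
            calc 2 * ((c : ℝ) + 3) * M ≤ 64 ^ c / 8 * M :=
                  mul_le_mul_of_nonneg_right (by linarith) (by linarith)
              _ ≤ 64 ^ c / 8 * ((p * N₀ / 14080) ^ c * n / c.factorial) := by
                  refine mul_le_mul_of_nonneg_left ?_ (by positivity)
                  rw [le_div_iff₀ hf]; exact hMle2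
              _ = (p * N₀ / 110) ^ c / c.factorial * (n / 2 ^ (c + 3)) := by
                  rw [e2, pow_add]; field_simp; ring
              _ ≤ _ := mul_le_mul_of_nonneg_left hr2 (by positivity)
        have : (0 : ℝ) ≤ c := by positivity
        nlinarith
    rcases Nat.eq_zero_or_pos M with hM0 | hM0
    · rw [hM0]; simp
    · have k1 := hkey hM0
      calc _ ≤ Real.exp M * Real.exp (-(ρ c * r c / 2)) :=
            mul_le_mul_of_nonneg_right (by linarith [h2exp M]) (Real.exp_pos _).le
        _ ≤ Real.exp (-((c + 2 : ℕ) : ℝ)) := by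
            rw [← Real.exp_add]; refine Real.exp_le_exp.2 ?_; push_cast; linarith
        _ ≤ _ := by
            rw [Real.exp_neg, one_div]
            exact inv_anti₀ (by positivity) (h2exp _)
  have hgeo : ∀ k, ∑ c ∈ Finset.range k, (1 : ℝ) / 2 ^ (c + 2) ≤ 1 / 2 - 1 / 2 ^ (k + 1) := by
    intro k
    induction k with
    | zero => simp
    | succ k ih =>
      rw [Finset.sum_range_succ]
      have e : (1 : ℝ) / 2 ^ (k + 1) = 2 * (1 / 2 ^ (k + 1 + 1)) := by
        rw [pow_succ (2 : ℝ) (k + 1)]; field_simp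
      linarith
  have hfin : Ex p (fun ω => ind (¬ Succ dg T C P ω)) ≤ 1 / 2 :=
    hseq.trans ((Finset.sum_le_sum hterm2).trans ((hgeo _).trans (sub_le_self _ (by positivity))))
  rw [Ex_ind_not] at hfin
  have : Ex p (fun ω => ind (Succ dg T C P ω)) ≤ Ex p (fun ω => ind (Emb N ω)) :=
    Ex_mono h0.le hp1 fun ω => ind_mono (emb_of_succ hN1 hdisj hTP)
  unfold Good
  linarith

end Crest.Agent.R52G
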