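import Crest.Agent.R52G.Spread
import Crest.Agent.R52G.Star2

set_option autoImplicit false

open Finset Crest.FinProb Crest.CombinatoricsR.RandomGraph

namespace Crest.Agent.R52G

variable {n : ℕ}

lemma degree_sum_le {H : SimpleGraph (Fin n)} [DecidableRel H.Adj] {α : ℝ} (hα0 : 0 < α)
    (hα1 : α < 1) (hS : Spread H α) (hn : 1 ≤ n) (U : Finset (Fin n)) :
    ((∑ v ∈ U, (U.filter fun a => H.Adj v a).card : ℕ) : ℝ) ≤
      2 * (Real.log n / (-Real.log α)) * U.card := by
  classical
  have hlam : 0 < -Real.log α := by linarith [Real.log_neg hα0 hα1]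
  have hn' : (1 : ℝ) ≤ n := by exact_mod_cast hn
  have hlog : 0 ≤ Real.log n := Real.log_nonneg hn'
  let I : Finset (U × U) := Finset.univ.filter fun q => (q.1 : Fin n) < q.2 ∧ H.Adj q.1 q.2
  have hcount : ∑ v ∈ U, (U.filter fun a => H.Adj v a).card ≤ 2 * I.card := by
    have e1 : ∑ v ∈ U, (U.filter fun a => H.Adj v a).card =
        (Finset.univ.filter fun q : U × U => H.Adj q.1 q.2).card := by
      rw [Finset.card_filter, Fintype.sum_prod_type, ← Finset.sum_coe_sort U]
      refine Finset.sum_congr rfl fun v _ => ?_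
      rw [Finset.card_filter, ← Finset.sum_coe_sort U]
    rw [e1]
    have : (Finset.univ.filter fun q : U × U => H.Adj q.1 q.2) ⊆ I ∪ I.image Prod.swap := by
      rintro ⟨u, v⟩ hq
      have hadj : H.Adj u v := (Finset.mem_filter.1 hq).2
      rcases lt_or_gt_of_ne hadj.ne with h | h
      · exact Finset.mem_union_left _ (Finset.mem_filter.2 ⟨Finset.mem_univ _, h, hadj⟩)
      · exact Finset.mem_union_right _ (Finset.mem_image.2
          ⟨(v, u), Finset.mem_filter.2 ⟨Finset.mem_univ _, h, hadj.symm⟩, rfl⟩)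
    refine (Finset.card_le_card this).trans ((Finset.card_union_le _ _).trans ?_)
    have := Finset.card_image_le (s := I) (f := Prod.swap)
    omega
  have hI : (I.card : ℝ) ≤ Real.log n / (-Real.log α) * U.card := by
    rcases I.eq_empty_or_nonempty with h | h
    · rw [h]; simp only [Finset.card_empty, Nat.cast_zero]; positivity
    have := pattern hα0.le hα1.le hS (Ξ := Unit) I h (by
        rintro ⟨u, v⟩ hq ⟨u', v'⟩ hq' e
        have h1 : (u : Fin n) < v := (Finset.mem_filter.1 hq).2.1
        have h2 : (u' : Fin n) < v' := (Finset.mem_filter.1 hq').2.1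
        rcases Sym2.eq_iff.1 e with ⟨e1, e2⟩ | ⟨e1, e2⟩
        · exact Prod.ext e1 e2
        · simp only at e1 e2
          subst e1 e2
          exact absurd h1 (not_lt.2 h2.le))
      (fun _ v => (v : Fin n)) (fun _ _ _ => rfl) (fun _ => Subtype.val_injective)
      (fun _ q hq => (Finset.mem_filter.1 hq).2.2)
    simp only [Fintype.card_unique, Nat.cast_one, Fintype.card_coe] at this
    have h2 := Real.log_nonneg this
    rw [Real.log_mul (by positivity) (by positivity), Real.log_pow, Real.log_pow] at h2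
    rw [div_mul_eq_mul_div, le_div_iff₀ hlam]
    linarith
  have : ((∑ v ∈ U, (U.filter fun a => H.Adj v a).card : ℕ) : ℝ) ≤ 2 * I.card := by
    exact_mod_cast hcount
  linarith

lemma codeg_le {H : SimpleGraph (Fin n)} {α : ℝ} (hα0 : 0 < α) (hα1 : α ≤ 1) (hS : Spread H α)
    (hn : 1 ≤ n) (S B : Finset (Fin n)) (hSne : S.Nonempty) (hadj : ∀ b ∈ B, ∀ a ∈ S, H.Adj b a) :
    (B.card : ℝ) ≤ 9 * α ^ S.card * n ∨ (B.card : ℝ) ≤ S.card * Real.log n := by
  classical
  have hn' : (1 : ℝ) ≤ n := by exact_mod_cast hn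
  rcases B.eq_empty_or_nonempty with rfl | hB
  · left; simp only [Finset.card_empty, Nat.cast_zero]; positivity
  by_cases hc : (B.card : ℝ) ≤ S.card * Real.log n
  · exact Or.inr hc
  left
  push Not at hc
  let I : Finset ((S ⊕ B) × (S ⊕ B)) :=
    Finset.univ.image fun q : S × B => (Sum.inl q.1, Sum.inr q.2)
  have hIc : I.card = S.card * B.card := by
    rw [Finset.card_image_of_injective]
    · simp
    · rintro ⟨a, b⟩ ⟨a', b'⟩ h
      simpa using h
  have := pattern hα0.le hα1 hS (Ξ := Equiv.Perm B) I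
    ⟨_, Finset.mem_image.2 ⟨(⟨_, hSne.choose_spec⟩, ⟨_, hB.choose_spec⟩), Finset.mem_univ _, rfl⟩⟩
    (by
      intro q hq q' hq' e
      obtain ⟨⟨a, b⟩, -, rfl⟩ := Finset.mem_image.1 hq
      obtain ⟨⟨a', b'⟩, -, rfl⟩ := Finset.mem_image.1 hq'
      simpa using e)
    (fun π => Sum.elim (fun a => (a : Fin n)) (fun b => (π b : Fin n)))
    (fun π π' h => Equiv.ext fun b => Subtype.ext (congrFun h (Sum.inr b)))
    (fun π => by
      rintro (a | b) (a' | b') h
      · exact congrArg _ (Subtype.ext h)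
      · exact absurd (show (π b' : Fin n) = a from h.symm) (hadj _ (π b').2 _ a.2).ne
      · exact absurd (show (π b : Fin n) = a' from h) (hadj _ (π b).2 _ a'.2).ne
      · exact congrArg _ (π.injective (Subtype.ext h)))
    (fun π q hq => by
      obtain ⟨⟨a, b⟩, -, rfl⟩ := Finset.mem_image.1 hq
      exact (hadj _ (π b).2 _ a.2).symm)
  rw [Fintype.card_perm, hIc, Fintype.card_sum, Fintype.card_coe, Fintype.card_coe] at this
  have h1 := pow_self_le B.card
  have h2 : (n : ℝ) ^ S.card ≤ 3 ^ B.card := by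
    calc (n : ℝ) ^ S.card = Real.exp (S.card * Real.log n) := by
          rw [Real.exp_nat_mul, Real.exp_log (by linarith)]
      _ ≤ Real.exp B.card := Real.exp_le_exp.2 hc.le
      _ ≤ _ := by
          rw [← Real.exp_one_pow]
          exact pow_le_pow_left₀ (Real.exp_pos 1).le (Real.exp_one_lt_d9.le.trans (by norm_num)) _
  have h3 : (B.card : ℝ) ^ B.card ≤ (9 * α ^ S.card * n) ^ B.card := by
    calc _ ≤ 3 ^ B.card * (α ^ (S.card * B.card) * (n ^ S.card * n ^ B.card)) := by
          rw [← pow_add]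
          exact h1.trans (mul_le_mul_of_nonneg_left this (by positivity))
      _ ≤ 3 ^ B.card * (α ^ (S.card * B.card) * (3 ^ B.card * n ^ B.card)) := by gcongr
      _ = _ := by
          rw [mul_pow, mul_pow, pow_mul, show (9 : ℝ) = 3 * 3 by norm_num, mul_pow]; ring
  exact le_of_pow_le_pow_left₀ (Finset.card_ne_zero.2 hB) (by positivity) h3

lemma star_count {H : SimpleGraph (Fin n)} {α : ℝ} (hα0 : 0 ≤ α) (hα1 : α ≤ 1) (hS : Spread H α)
    (N : Fin n → Finset (Fin n)) (hadj : ∀ b, ∀ a ∈ N b, H.Adj b a) (d : ℕ) (hd : 1 ≤ d) :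
    ((Finset.univ.filter fun a => (lf N a).card = d).card : ℝ) * d.factorial ≤
      α ^ d * n ^ (d + 1) := by
  classical
  let I : Finset (Option (Fin d) × Option (Fin d)) := Finset.univ.image fun i => (none, some i)
  have hIc : I.card = d := by
    rw [Finset.card_image_of_injective]
    · simp
    · intro i j h; simpa using h
  have := pattern hα0 hα1 hS
    (Ξ := Σ a : (Finset.univ.filter fun a => (lf N a).card = d), (Fin d ↪ lf N a)) I
    (Finset.card_pos.1 (by omega))
    (by
      intro q hq q' hq' e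
      obtain ⟨i, -, rfl⟩ := Finset.mem_image.1 hq
      obtain ⟨j, -, rfl⟩ := Finset.mem_image.1 hq'
      simpa using e)
    (fun ξ o => o.elim (ξ.1 : Fin n) (fun i => (ξ.2 i : Fin n)))
    (by
      rintro ⟨a, e⟩ ⟨a', e'⟩ h
      have h1 : a = a' := Subtype.ext (congrFun h none)
      subst h1
      have h2 : e = e' := Function.Embedding.ext fun i => Subtype.ext (congrFun h (some i))
      rw [h2])
    (by
      rintro ⟨a, e⟩ (_ | i) (_ | j) h
      · rfl
      · exact absurd (show (e j : Fin n) = a from h.symm) (hadj _ _ (mem_lf.1 (e j).2)).ne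
      · exact absurd (show (e i : Fin n) = a from h) (hadj _ _ (mem_lf.1 (e i).2)).ne
      · exact congrArg _ (e.injective (Subtype.ext h)))
    (by
      rintro ⟨a, e⟩ q hq
      obtain ⟨i, -, rfl⟩ := Finset.mem_image.1 hq
      exact (hadj _ _ (mem_lf.1 (e i).2)).symm)
  rw [hIc, Fintype.card_sigma] at this
  have e : ∑ a : (Finset.univ.filter fun a => (lf N a).card = d), Fintype.card (Fin d ↪ lf N a) =
      (Finset.univ.filter fun a => (lf N a).card = d).card * d.factorial := by
    rw [Finset.sum_congr rfl (g := fun _ => d.factorial)]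
    · simp
    · intro a _
      rw [Fintype.card_embedding_eq, Fintype.card_coe, Fintype.card_fin,
        (Finset.mem_filter.1 a.2).2, Nat.descFactorial_self]
  rw [e] at this
  simpa using this

lemma peel_step {H : SimpleGraph (Fin n)} [DecidableRel H.Adj] {b : ℕ} (U : Finset (Fin n))
    (hU : 2 * ∑ v ∈ U, (U.filter fun a => H.Adj v a).card ≤ (b + 1) * U.card) :
    ∃ X ⊆ U, (∀ u ∈ X, ∀ v ∈ X, ¬ H.Adj u v) ∧
      (∀ v ∈ X, (U.filter fun a => H.Adj v a).card ≤ b) ∧ U.card ≤ 2 * (b + 1) * X.card := by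
  classical
  set Low := U.filter fun v => (U.filter fun a => H.Adj v a).card ≤ b with hLow
  have h1 : U.card ≤ 2 * Low.card := by
    have e := Finset.card_filter_add_card_filter_not (s := U)
      (fun v => (U.filter fun a => H.Adj v a).card ≤ b)
    have h2 : (U.filter fun v => ¬ (U.filter fun a => H.Adj v a).card ≤ b).card * (b + 1) ≤
        ∑ v ∈ U, (U.filter fun a => H.Adj v a).card := by
      refine le_trans ?_ (Finset.sum_le_sum_of_subset (Finset.filter_subset
        (fun v => ¬ (U.filter fun a => H.Adj v a).card ≤ b) U))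
      rw [← smul_eq_mul]
      exact Finset.card_nsmul_le_sum _ _ _ fun v hv => by
        have := (Finset.mem_filter.1 hv).2; omega
    have h3 : (b + 1) * (2 * (U.filter fun v => ¬ (U.filter fun a => H.Adj v a).card ≤ b).card) ≤
        (b + 1) * U.card := by nlinarith
    have := Nat.le_of_mul_le_mul_left h3 (by omega)
    rw [← hLow] at e
    omega
  obtain ⟨X, hX, hmax⟩ := Finset.exists_max_image
    (Low.powerset.filter fun X => ∀ u ∈ X, ∀ v ∈ X, ¬ H.Adj u v) Finset.card ⟨∅, by simp⟩
  obtain ⟨hX1, hX2⟩ := Finset.mem_filter.1 hX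
  have hXL := Finset.mem_powerset.1 hX1
  refine ⟨X, hXL.trans (Finset.filter_subset _ _), hX2,
    fun v hv => (Finset.mem_filter.1 (hXL hv)).2, ?_⟩
  have h4 : Low ⊆ X.biUnion fun x => insert x (U.filter fun a => H.Adj x a) := by
    intro v hv
    by_contra hc
    simp only [Finset.mem_biUnion, Finset.mem_insert, Finset.mem_filter, not_exists, not_and,
      not_or] at hc
    have hvU := (Finset.mem_filter.1 hv).1
    have hvX : v ∉ X := fun h => (hc v h).1 rfl
    have := hmax (insert v X) (Finset.mem_filter.2 ⟨Finset.mem_powerset.2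
      (Finset.insert_subset hv hXL), by
        intro u hu w hw
        rcases Finset.mem_insert.1 hu with rfl | hu' <;> rcases Finset.mem_insert.1 hw with rfl | hw'
        · exact H.irrefl
        · exact fun h => (hc w hw').2 hvU h.symm
        · exact (hc u hu').2 hvU
        · exact hX2 u hu' w hw'⟩)
    rw [Finset.card_insert_of_notMem hvX] at this
    omega
  have h5 : Low.card ≤ X.card * (b + 1) :=
    (Finset.card_le_card h4).trans (Finset.card_biUnion_le_card_mul _ _ _ fun x hx =>
      (Finset.card_insert_le _ _).trans (Nat.succ_le_succ (Finset.mem_filter.1 (hXL hx)).2))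
  nlinarith

lemma peel_aux {H : SimpleGraph (Fin n)} [DecidableRel H.Adj] {b : ℕ}
    (hU : ∀ U : Finset (Fin n),
      2 * ∑ v ∈ U, (U.filter fun a => H.Adj v a).card ≤ (b + 1) * U.card) (T : ℕ) :
    ∀ U : Finset (Fin n), (U.card : ℝ) * (1 - 1 / (2 * (b + 1))) ^ T < 1 →
      ∃ cls : Fin n → ℕ, (∀ v ∈ U, cls v < T) ∧ (∀ u ∈ U, ∀ v ∈ U, H.Adj u v → cls u ≠ cls v) ∧
        ∀ v ∈ U, (U.filter fun a => H.Adj v a ∧ cls a < cls v).card ≤ b := by
  classical
  induction T with
  | zero =>
    intro U h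
    have : U = ∅ := by
      simp only [pow_zero, mul_one, Nat.cast_lt_one, Finset.card_eq_zero] at h; exact h
    subst this
    exact ⟨fun _ => 0, by simp, by simp, by simp⟩
  | succ T ih =>
    intro U h
    obtain ⟨X, hXU, hX1, hX2, hX3⟩ := peel_step U (hU U)
    have hb : (0 : ℝ) < 2 * (b + 1) := by positivity
    have hθ : 0 ≤ (1 : ℝ) - 1 / (2 * (b + 1)) := by
      rw [sub_nonneg, div_le_one hb]; linarith [show (0 : ℝ) ≤ b by positivity]
    obtain ⟨cls, h1, h2, h3⟩ := ih (U \ X) (by
      refine lt_of_le_of_lt ?_ h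
      rw [pow_succ, mul_comm (_ ^ T), ← mul_assoc]
      refine mul_le_mul_of_nonneg_right ?_ (pow_nonneg hθ _)
      rw [Finset.card_sdiff_of_subset hXU, Nat.cast_sub (Finset.card_le_card hXU)]
      have : (U.card : ℝ) ≤ 2 * (b + 1) * X.card := by exact_mod_cast hX3
      have : (U.card : ℝ) / (2 * (b + 1)) ≤ X.card := by rw [div_le_iff₀ hb]; linarith
      rw [mul_sub, mul_one, mul_one_div]; linarith)
    have hlt : ∀ v ∈ U, v ∉ X → cls v < T := fun v hv hvX => h1 v (Finset.mem_sdiff.2 ⟨hv, hvX⟩)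
    refine ⟨fun v => if v ∈ X then T else cls v, ?_, ?_, ?_⟩
    · intro v hv
      beta_reduce
      split_ifs with hvX
      · omega
      · have := hlt v hv hvX; omega
    · intro u hu v hv huv
      beta_reduce
      split_ifs with huX hvX hvX
      · exact absurd huv (hX1 u huX v hvX)
      · have := hlt v hv hvX; omega
      · have := hlt u hu huX; omega
      · exact h2 u (Finset.mem_sdiff.2 ⟨hu, huX⟩) v (Finset.mem_sdiff.2 ⟨hv, hvX⟩) huv
    · intro v hv
      by_cases hvX : v ∈ X
      · refine le_trans (Finset.card_le_card fun a ha => ?_) (hX2 v hvX)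
        exact Finset.mem_filter.2 ⟨(Finset.mem_filter.1 ha).1, (Finset.mem_filter.1 ha).2.1⟩
      · refine le_trans (Finset.card_le_card fun a ha => ?_) (h3 v (Finset.mem_sdiff.2 ⟨hv, hvX⟩))
        obtain ⟨a1, a2, a3⟩ := Finset.mem_filter.1 ha
        simp only [if_neg hvX] at a3
        have haX : a ∉ X := by
          intro haX
          simp only [if_pos haX] at a3
          have := hlt v hv hvX; omega
        simp only [if_neg haX] at a3
        exact Finset.mem_filter.2 ⟨Finset.mem_sdiff.2 ⟨a1, haX⟩, a2, a3⟩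

lemma peel {H : SimpleGraph (Fin n)} [DecidableRel H.Adj] {b : ℕ}
    (hU : ∀ U : Finset (Fin n),
      2 * ∑ v ∈ U, (U.filter fun a => H.Adj v a).card ≤ (b + 1) * U.card) (hn : 1 ≤ n) (T : ℕ)
    (hT : 2 * (b + 1) * (Real.log n + 1) ≤ T) :
    ∃ (cls : Fin n → ℕ) (N : Fin n → Finset (Fin n)), (∀ v, cls v < T) ∧
      (∀ u v, H.Adj u v → u ∈ N v ∨ v ∈ N u) ∧ (∀ v, (N v).card ≤ b) ∧
      ∀ v, ∀ a ∈ N v, H.Adj v a ∧ cls a < cls v := by
  have hb : (0 : ℝ) < 2 * (b + 1) := by positivity
  have hn' : (0 : ℝ) < n := by exact_mod_cast hn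
  obtain ⟨cls, h1, h2, h3⟩ := peel_aux hU T Finset.univ (by
    simp only [Finset.card_univ, Fintype.card_fin]
    have hθ : 0 ≤ (1 : ℝ) - 1 / (2 * (b + 1)) := by
      rw [sub_nonneg, div_le_one hb]; linarith [show (0 : ℝ) ≤ b by positivity]
    have e1 : (1 - 1 / (2 * (b + 1)) : ℝ) ^ T ≤ Real.exp (-(Real.log n + 1)) := by
      calc _ ≤ Real.exp (-(1 / (2 * (b + 1)))) ^ T := pow_le_pow_left₀ hθ
            (by linarith [Real.add_one_le_exp (-(1 / (2 * ((b : ℝ) + 1))))]) _
        _ = Real.exp (-(T / (2 * (b + 1)))) := by rw [← Real.exp_nat_mul]; congr 1; ring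
        _ ≤ _ := by
            refine Real.exp_le_exp.2 (neg_le_neg ?_)
            rw [le_div_iff₀ hb]; linarith
    refine lt_of_le_of_lt (mul_le_mul_of_nonneg_left e1 hn'.le) ?_
    rw [neg_add, Real.exp_add, Real.exp_neg, Real.exp_log hn', ← mul_assoc,
      mul_inv_cancel₀ hn'.ne', one_mul]
    exact Real.exp_lt_one_iff.2 (by norm_num))
  refine ⟨cls, fun v => Finset.univ.filter fun a => H.Adj v a ∧ cls a < cls v,
    fun v => h1 v (Finset.mem_univ _), ?_, fun v => h3 v (Finset.mem_univ _),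
    fun v a ha => (Finset.mem_filter.1 ha).2⟩
  intro u v huv
  rcases lt_or_gt_of_ne (h2 u (Finset.mem_univ _) v (Finset.mem_univ _) huv) with h | h
  · exact Or.inl (Finset.mem_filter.2 ⟨Finset.mem_univ _, huv.symm, h⟩)
  · exact Or.inr (Finset.mem_filter.2 ⟨Finset.mem_univ _, huv, h⟩)

end Crest.Agent.R52G
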