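import Mathlib
import Crest.Prelude.Def_FinProb

set_option autoImplicit false

open Finset Crest.FinProb

namespace Crest.Agent.R52G

/-- expectation under independent coins -/
noncomputable def Ex {ι : Type*} [Fintype ι] [DecidableEq ι] (p : ℝ) (f : (ι → Bool) → ℝ) : ℝ :=
  ∑ ω : ι → Bool, bernoulliWeight p ω * f ω

/-- indicator of a proposition -/
noncomputable def ind (P : Prop) : ℝ := by classical exact if P then 1 else 0

lemma ind_true {P : Prop} (h : P) : ind P = 1 := by simp [ind, h]
lemma ind_false {P : Prop} (h : ¬ P) : ind P = 0 := by simp [ind, h]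
lemma ind_nonneg (P : Prop) : 0 ≤ ind P := by unfold ind; split_ifs <;> norm_num
lemma ind_le_one (P : Prop) : ind P ≤ 1 := by unfold ind; split_ifs <;> norm_num
lemma ind_mono {P Q : Prop} (h : P → Q) : ind P ≤ ind Q := by
  by_cases hp : P
  · rw [ind_true hp, ind_true (h hp)]
  · rw [ind_false hp]; exact ind_nonneg _
lemma ind_not (P : Prop) : ind (¬ P) = 1 - ind P := by
  by_cases hp : P
  · rw [ind_true hp, ind_false (not_not.2 hp)]; ring
  · rw [ind_false hp, ind_true hp]; ring
lemma ind_and (P Q : Prop) : ind (P ∧ Q) = ind P * ind Q := by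
  by_cases hp : P <;> by_cases hq : Q <;> simp [ind, hp, hq]
lemma ind_congr {P Q : Prop} (h : P ↔ Q) : ind P = ind Q := by rw [propext h]
lemma ind_mul_self (P : Prop) : ind P * ind P = ind P := by
  by_cases hp : P <;> simp [ind, hp]

section basic
variable {ι : Type*} [Fintype ι] [DecidableEq ι] {p : ℝ}

omit [DecidableEq ι] in
lemma weight_nonneg (h0 : 0 ≤ p) (h1 : p ≤ 1) (ω : ι → Bool) : 0 ≤ bernoulliWeight p ω := by
  unfold bernoulliWeight
  refine Finset.prod_nonneg fun i _ => ?_
  split_ifs <;> linarith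

lemma Ex_prod (p : ℝ) (f : ι → Bool → ℝ) :
    Ex p (fun ω : ι → Bool => ∏ i, f i (ω i)) = ∏ i, (p * f i true + (1 - p) * f i false) := by
  unfold Ex bernoulliWeight
  have h := Finset.prod_univ_sum (fun _ : ι => (Finset.univ : Finset Bool))
    (fun i b => (if b then p else 1 - p) * f i b)
  simp only [Fintype.univ_bool, Finset.mem_singleton, Bool.true_eq_false,
    not_false_eq_true, Finset.sum_insert, if_true, Finset.sum_singleton, Bool.false_eq_true,
    if_false] at h
  rw [h]
  refine Finset.sum_congr rfl fun ω _ => ?_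
  rw [Finset.prod_mul_distrib]

lemma Ex_const (p c : ℝ) : Ex p (fun _ : ι → Bool => c) = c := by
  have h := Ex_prod (ι := ι) p (fun _ _ => 1)
  simp only [Finset.prod_const_one, mul_one, add_sub_cancel] at h
  unfold Ex at h ⊢
  rw [← Finset.sum_mul]
  simp only [mul_one] at h
  rw [h, one_mul]

lemma Ex_add (p : ℝ) (f g : (ι → Bool) → ℝ) :
    Ex p (fun ω => f ω + g ω) = Ex p f + Ex p g := by
  unfold Ex; rw [← Finset.sum_add_distrib]; exact Finset.sum_congr rfl fun _ _ => by ring

lemma Ex_sub (p : ℝ) (f g : (ι → Bool) → ℝ) :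
    Ex p (fun ω => f ω - g ω) = Ex p f - Ex p g := by
  unfold Ex; rw [← Finset.sum_sub_distrib]; exact Finset.sum_congr rfl fun _ _ => by ring

lemma Ex_const_mul (p c : ℝ) (f : (ι → Bool) → ℝ) :
    Ex p (fun ω => c * f ω) = c * Ex p f := by
  unfold Ex; rw [Finset.mul_sum]; exact Finset.sum_congr rfl fun _ _ => by ring

lemma Ex_mul_const (p c : ℝ) (f : (ι → Bool) → ℝ) :
    Ex p (fun ω => f ω * c) = Ex p f * c := by
  unfold Ex; rw [Finset.sum_mul]; exact Finset.sum_congr rfl fun _ _ => by ring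

lemma Ex_sum {κ : Type*} (p : ℝ) (s : Finset κ) (f : κ → (ι → Bool) → ℝ) :
    Ex p (fun ω => ∑ k ∈ s, f k ω) = ∑ k ∈ s, Ex p (f k) := by
  unfold Ex
  rw [Finset.sum_comm]
  exact Finset.sum_congr rfl fun _ _ => by rw [Finset.mul_sum]

lemma Ex_mono (h0 : 0 ≤ p) (h1 : p ≤ 1) {f g : (ι → Bool) → ℝ} (h : ∀ ω, f ω ≤ g ω) :
    Ex p f ≤ Ex p g :=
  Finset.sum_le_sum fun ω _ => mul_le_mul_of_nonneg_left (h ω) (weight_nonneg h0 h1 ω)

lemma Ex_nonneg (h0 : 0 ≤ p) (h1 : p ≤ 1) {f : (ι → Bool) → ℝ} (h : ∀ ω, 0 ≤ f ω) :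
    0 ≤ Ex p f := by
  have := Ex_mono h0 h1 (f := fun _ => 0) h
  rwa [Ex_const] at this

lemma Ex_le_const (h0 : 0 ≤ p) (h1 : p ≤ 1) {f : (ι → Bool) → ℝ} {c : ℝ} (h : ∀ ω, f ω ≤ c) :
    Ex p f ≤ c := by
  have := Ex_mono h0 h1 (g := fun _ => c) h
  rwa [Ex_const] at this

lemma Ex_ind_not (p : ℝ) (P : (ι → Bool) → Prop) :
    Ex p (fun ω => ind (¬ P ω)) = 1 - Ex p (fun ω => ind (P ω)) := by
  simp only [ind_not]
  rw [Ex_sub, Ex_const]

lemma bernoulliProb_eq (p : ℝ) (E : Set (ι → Bool)) :
    bernoulliProb p E = Ex p (fun ω => ind (ω ∈ E)) := by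
  classical
  unfold bernoulliProb Ex
  rw [Finset.sum_filter]
  refine Finset.sum_congr rfl fun ω _ => ?_
  by_cases h : ω ∈ E
  · simp [h, ind]
  · simp [h, ind]

/-- product over a subset of the coordinates -/
lemma Ex_prod_finset (p : ℝ) (s : Finset ι) (f : ι → Bool → ℝ) :
    Ex p (fun ω : ι → Bool => ∏ i ∈ s, f i (ω i)) =
      ∏ i ∈ s, (p * f i true + (1 - p) * f i false) := by
  have h := Ex_prod p (fun i b => if i ∈ s then f i b else 1)
  simp only [Finset.prod_ite_mem, Finset.univ_inter] at h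
  rw [h]
  rw [← Finset.prod_subset (Finset.subset_univ s)]
  · exact Finset.prod_congr rfl fun i hi => by simp [hi]
  · intro i _ hi; simp [hi]

/-- conditioning: resample the coordinates satisfying `J`. -/
lemma Ex_merge (p : ℝ) (J : ι → Prop) [DecidablePred J] (f : (ι → Bool) → ℝ) :
    Ex p f = Ex p (fun ω₁ => Ex p (fun ω₂ => f (fun i => if J i then ω₂ i else ω₁ i))) := by
  -- the swap involution on pairs
  let sw : (ι → Bool) × (ι → Bool) → (ι → Bool) × (ι → Bool) := fun q =>
    (fun i => if J i then q.2 i else q.1 i, fun i => if J i then q.1 i else q.2 i)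
  have hsw : Function.Involutive sw := by
    rintro ⟨a, b⟩
    ext i <;> by_cases h : J i <;> simp [sw, h]
  have hw : ∀ q, bernoulliWeight p (sw q).1 * bernoulliWeight p (sw q).2 =
      bernoulliWeight p q.1 * bernoulliWeight p q.2 := by
    intro q
    unfold bernoulliWeight
    rw [← Finset.prod_mul_distrib, ← Finset.prod_mul_distrib]
    refine Finset.prod_congr rfl fun i _ => ?_
    by_cases h : J i <;> simp [sw, h, mul_comm]
  have e1 : Ex p f = ∑ q : (ι → Bool) × (ι → Bool),
      bernoulliWeight p q.1 * bernoulliWeight p q.2 * f q.1 := by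
    rw [Fintype.sum_prod_type]
    unfold Ex
    refine Finset.sum_congr rfl fun a _ => ?_
    have := Ex_const (ι := ι) p (bernoulliWeight p a * f a)
    unfold Ex at this
    rw [← this]
    exact Finset.sum_congr rfl fun b _ => by ring
  have e2 : Ex p (fun ω₁ => Ex p (fun ω₂ => f (fun i => if J i then ω₂ i else ω₁ i))) =
      ∑ q : (ι → Bool) × (ι → Bool),
        bernoulliWeight p q.1 * bernoulliWeight p q.2 * f (sw q).1 := by
    rw [Fintype.sum_prod_type]
    unfold Ex
    refine Finset.sum_congr rfl fun a _ => ?_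
    rw [Finset.mul_sum]
    exact Finset.sum_congr rfl fun b _ => by simp only [sw]; ring
  rw [e1, e2]
  rw [← Equiv.sum_comp hsw.toPerm]
  refine Finset.sum_congr rfl fun q _ => ?_
  simp only [Function.Involutive.coe_toPerm]
  rw [hw]

end basic

/-- pulling back along an injection of the index types -/
lemma Ex_comp_inj {ι κ : Type*} [Fintype ι] [DecidableEq ι] [Fintype κ] [DecidableEq κ] (p : ℝ)
    (e : κ → ι) (he : Function.Injective e) (f : (κ → Bool) → ℝ) :
    Ex p (fun ω : ι → Bool => f (fun k => ω (e k))) = Ex p f := by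
  have key : ∀ η : κ → Bool,
      Ex p (fun ω : ι → Bool => ∏ k, ind (ω (e k) = η k)) = bernoulliWeight p η := by
    intro η
    classical
    have h := Ex_prod_finset p (Finset.univ.image e)
      (fun i b => if h : ∃ k, e k = i then ind (b = η h.choose) else 1)
    have hch : ∀ k, (⟨k, rfl⟩ : ∃ k', e k' = e k).choose = k := fun k =>
      he (Exists.choose_spec (⟨k, rfl⟩ : ∃ k', e k' = e k))
    have hinj : Set.InjOn e (Finset.univ : Finset κ) := he.injOn
    simp only [Finset.prod_image hinj] at h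
    have h2 : ∀ k (b : Bool), (if h : ∃ k', e k' = e k then ind (b = η h.choose) else 1) =
        ind (b = η k) := by
      intro k b
      rw [dif_pos ⟨k, rfl⟩, hch]
    simp only [h2] at h
    rw [h]
    unfold bernoulliWeight
    refine Finset.prod_congr rfl fun k _ => ?_
    cases η k <;> simp [ind]
  have hf : ∀ ω : ι → Bool, f (fun k => ω (e k)) =
      ∑ η : κ → Bool, f η * ∏ k, ind (ω (e k) = η k) := by
    intro ω
    rw [Finset.sum_eq_single (fun k => ω (e k))]
    · simp [ind]
    · intro η _ hη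
      have : ∃ k, ω (e k) ≠ η k := by
        by_contra hc
        push Not at hc
        exact hη (funext fun k => (hc k).symm)
      obtain ⟨k, hk⟩ := this
      rw [Finset.prod_eq_zero (Finset.mem_univ k) (ind_false hk), mul_zero]
    · simp
  simp only [hf]
  rw [Ex_sum]
  unfold Ex
  refine Finset.sum_congr rfl fun η _ => ?_
  have := Ex_const_mul p (f η) (fun ω : ι → Bool => ∏ k, ind (ω (e k) = η k))
  rw [key] at this
  unfold Ex at this
  rw [this, mul_comm]

/-- independent rows -/
lemma Ex_prod_rows {R A : Type*} [Fintype R] [DecidableEq R] [Fintype A] [DecidableEq A] (p : ℝ)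
    (F : R → (A → Bool) → ℝ) :
    Ex p (fun ω : R × A → Bool => ∏ u, F u (fun a => ω (u, a))) = ∏ u, Ex p (F u) := by
  unfold Ex
  have h := Finset.prod_univ_sum (fun _ : R => (Finset.univ : Finset (A → Bool)))
    (fun u y => bernoulliWeight p y * F u y)
  rw [h, Fintype.piFinset_univ]
  rw [← Equiv.sum_comp (Equiv.curry R A Bool)]
  refine Finset.sum_congr rfl fun ω _ => ?_
  rw [Finset.prod_mul_distrib]
  congr 1
  unfold bernoulliWeight
  rw [Fintype.prod_prod_type]
  rfl

end Crest.Agent.R52G
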