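import Crest.Agent.R52G.Pat

set_option autoImplicit false

open Finset Crest.FinProb Crest.CombinatoricsR.RandomGraph

namespace Crest.Agent.R52G

variable {n : ℕ}

lemma exists_cover_card_le {α : Type*} [DecidableEq α] (k d : ℕ) (s : Finset α)
    (h : s.card ≤ k * d) :
    ∃ X : Fin k → Finset α, (∀ i, X i ⊆ s ∧ (X i).card ≤ d) ∧ ∀ a ∈ s, ∃ i, a ∈ X i := by
  induction k generalizing s with
  | zero =>
    have : s = ∅ := by simpa using h
    subst this
    exact ⟨fun _ => ∅, by simp, by simp⟩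
  | succ k ih =>
    obtain ⟨Y, hY, hYc⟩ := Finset.exists_subset_card_eq (s := s) (n := min d s.card)
      (min_le_right _ _)
    obtain ⟨X, hX1, hX2⟩ := ih (s \ Y) (by
      rw [Finset.card_sdiff_of_subset hY, hYc]
      rw [Nat.succ_mul] at h
      rcases min_cases d s.card with ⟨e, -⟩ | ⟨e, -⟩ <;> rw [e] <;> omega)
    refine ⟨Fin.cons Y X, ?_, ?_⟩
    · intro i
      refine Fin.cases ?_ (fun j => ?_) i
      · simp only [Fin.cons_zero]; exact ⟨hY, hYc ▸ min_le_left _ _⟩
      · simp only [Fin.cons_succ]; exact ⟨(hX1 j).1.trans Finset.sdiff_subset, (hX1 j).2⟩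
    · intro a ha
      by_cases haY : a ∈ Y
      · exact ⟨0, by simpa using haY⟩
      · obtain ⟨j, hj⟩ := hX2 a (Finset.mem_sdiff.2 ⟨ha, haY⟩)
        exact ⟨j.succ, by simpa using hj⟩

lemma exists_parts (n r : ℕ) (hr : 0 < r) : ∃ P : Fin r → Finset (Fin n),
    (∀ i, (P i).card ≤ n / r + 1) ∧ ∀ a, ∃ i, a ∈ P i := by
  obtain ⟨P, h1, h2⟩ := exists_cover_card_le r (n / r + 1) (Finset.univ : Finset (Fin n)) (by
    simp only [Finset.card_univ, Fintype.card_fin]
    have := Nat.div_add_mod n r
    have := Nat.mod_lt n hr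
    nlinarith)
  exact ⟨P, fun i => (h1 i).2, fun a => h2 a (Finset.mem_univ _)⟩

lemma exists_colour (N : Fin n → Finset (Fin n)) (hN1 : ∀ b, (N b).card ≤ 1) (cls : Fin n → ℕ)
    (hcls : ∀ b, ∀ a ∈ N b, cls a < cls b) (t : ℕ) :
    ∃ χ : Fin n → Bool, ∀ b, cls b < t → ∀ a ∈ N b, χ a ≠ χ b := by
  classical
  induction t with
  | zero => exact ⟨fun _ => true, by simp⟩
  | succ t ih =>
    obtain ⟨χ, hχ⟩ := ih
    refine ⟨fun b => if h : cls b = t ∧ (N b).Nonempty then !χ h.2.choose else χ b, ?_⟩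
    intro b hb a ha
    have hab := hcls b a ha
    have h1 : ¬ (cls a = t ∧ (N a).Nonempty) := fun h => by omega
    simp only [dif_neg h1]
    by_cases hbt : cls b = t
    · have h2 : cls b = t ∧ (N b).Nonempty := ⟨hbt, a, ha⟩
      simp only [dif_pos h2]
      rw [Finset.card_le_one.1 (hN1 b) _ h2.2.choose_spec a ha]
      cases χ a <;> simp
    · have h2 : ¬ (cls b = t ∧ (N b).Nonempty) := fun h => hbt h.1
      simp only [dif_neg h2]
      exact hχ b (by omega) a ha

lemma regimeB {H : SimpleGraph (Fin n)} {α p : ℝ} (hα0 : 0 ≤ α) (hα1 : α ≤ 1) (hS : Spread H α)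
    (hn : 200 ≤ n) (h0 : 0 < p) (h1 : p ≤ 1 / 2) (hΛ : 70400 * α ≤ p)
    (N : Fin n → Finset (Fin n)) (hN1 : ∀ b, (N b).card ≤ 1) (cls : Fin n → ℕ) (T : ℕ)
    (hT : ∀ v, cls v < T) (hN : ∀ b, ∀ a ∈ N b, H.Adj b a ∧ cls a < cls b) : Cov p 400 N := by
  classical
  obtain ⟨χ, hχ⟩ := exists_colour N hN1 cls (fun b a ha => (hN b a ha).2) T
  obtain ⟨P, hP1, hP2⟩ := exists_parts n 200 (by norm_num)
  have := Cov.of_family (p := p) (k := 1) (ι := Bool × Fin 200) (N := N)
    (fun i b => if χ b = i.1 ∧ b ∈ P i.2 then N b else ∅) (fun i => ?_) (fun b a ha => ?_)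
  · simpa using this
  · have hsub : ∀ b, ∀ a ∈ (if χ b = i.1 ∧ b ∈ P i.2 then N b else ∅),
        a ∈ N b ∧ χ b = i.1 := by
      intro b a ha
      split_ifs at ha with h
      · exact ⟨ha, h.1⟩
      · simp at ha
    refine (star_good (by omega) hα0 h0 h1 hΛ _ (fun b => ?_) (fun b a ha => ?_) ?_
      (fun d hd => star_count hα0 hα1 hS _ (fun b a ha => (hN b a (hsub b a ha).1).1) d hd)).cov
    · split_ifs
      · exact hN1 b
      · simp
    · rw [if_neg]
      rintro ⟨h, -⟩
      exact hχ b (hT b) a (hsub b a ha).1 (h.trans (hsub b a ha).2.symm)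
    · have : ∑ b, (if χ b = i.1 ∧ b ∈ P i.2 then N b else ∅).card ≤ (P i.2).card := by
        calc _ ≤ ∑ b, if b ∈ P i.2 then 1 else 0 := by
              refine Finset.sum_le_sum fun b _ => ?_
              by_cases h : χ b = i.1 ∧ b ∈ P i.2
              · rw [if_pos h, if_pos h.2]; exact hN1 b
              · rw [if_neg h]; simp
          _ = _ := by simp
      have := hP1 i.2
      omega
  · obtain ⟨j, hj⟩ := hP2 b
    exact ⟨(χ b, j), by simpa [hj] using ha⟩

lemma sum_ind_le_card {ι : Type*} (s t : Finset ι) (P : ι → Prop) (h : ∀ b ∈ s, P b → b ∈ t) :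
    ∑ b ∈ s, ind (P b) ≤ t.card := by
  classical
  calc _ = ((s.filter P).card : ℝ) := by
        rw [Finset.card_filter]; push_cast
        refine Finset.sum_congr rfl fun b _ => ?_
        by_cases hb : P b <;> simp [ind, hb]
    _ ≤ _ := by
        exact_mod_cast Finset.card_le_card fun b hb =>
          h b (Finset.mem_filter.1 hb).1 (Finset.mem_filter.1 hb).2

lemma regimeA {H : SimpleGraph (Fin n)} {α p x : ℝ} (hα0 : 0 < α) (hS : Spread H α)
    (hx : 10 ≤ x) (hxn : x ^ 100 = n) (hlog : Real.log n ≤ 100 * x) (h1 : p < 1)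
    (hΛ : 180000 * α ≤ p) (d : ℕ) (hd : 1 ≤ α ^ d * x ^ 2) (hdx : (d : ℝ) ≤ x ^ 10)
    (N : Fin n → Finset (Fin n)) (hNd : ∀ b, (N b).card ≤ d) (cls : Fin n → ℕ) (T : ℕ)
    (hTx : (T : ℝ) ≤ x ^ 20) (hT : ∀ v, cls v < T)
    (hN : ∀ b, ∀ a ∈ N b, H.Adj b a ∧ cls a < cls b) : Cov p (2 * (20000 * 20000 * 2)) N := by
  classical
  have h0 : 0 < p := by linarith
  have hαp : α ≤ p := by linarith
  have hx0 : 0 < x := by linarith
  have hx1 : 1 ≤ x := by linarith
  have hxpow : ∀ k : ℕ, (10 : ℝ) ^ k ≤ x ^ k := fun k => pow_le_pow_left₀ (by norm_num) hx k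
  have hxmono : ∀ k l : ℕ, k ≤ l → x ^ k ≤ x ^ l := fun k l h => pow_le_pow_right₀ hx1 h
  have hnbig : (20000 : ℝ) ≤ n := by
    rw [← hxn]; exact le_trans (by norm_num) (hxpow 100)
  have hn : 20000 ≤ n := by exact_mod_cast hnbig
  have hpS : ∀ S : Finset (Fin n), S.card ≤ d → 1 ≤ p ^ S.card * x ^ 2 := by
    intro S hSd
    refine hd.trans (mul_le_mul_of_nonneg_right ?_ (by positivity))
    exact (pow_le_pow_left₀ hα0.le hαp d).trans (pow_le_pow_of_le_one h0.le h1.le hSd)
  have hexp : Real.exp (-(x ^ 70 * ((p ^ 2) ^ d / (8 * 2 ^ d)) / 16)) ≤ 1 / (2 * n) := by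
    have e1 : 1 ≤ p ^ d * x ^ 2 :=
      hd.trans (mul_le_mul_of_nonneg_right (pow_le_pow_left₀ hα0.le hαp d) (by positivity))
    have e2 : (2 : ℝ) ^ d ≤ x ^ 2 := by
      have : (2 * α) ^ d ≤ 1 := pow_le_one₀ (by positivity) (by linarith)
      rw [mul_pow] at this
      have h3 := mul_le_mul_of_nonneg_left hd (by positivity : (0 : ℝ) ≤ 2 ^ d)
      have h4 := mul_le_mul_of_nonneg_right this (by positivity : (0 : ℝ) ≤ x ^ 2)
      nlinarith
    have e3 : x ^ 64 / 128 ≤ x ^ 70 * ((p ^ 2) ^ d / (8 * 2 ^ d)) / 16 := by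
      have e4 : (p ^ 2) ^ d = (p ^ d) ^ 2 := by rw [← pow_mul, ← pow_mul, mul_comm]
      have e5 : 1 ≤ (p ^ d * x ^ 2) ^ 2 := one_le_pow₀ e1
      have e6 : 1 / (8 * x ^ 6) ≤ (p ^ 2) ^ d / (8 * 2 ^ d) := by
        rw [e4, div_le_div_iff₀ (by positivity) (by positivity)]
        have := mul_le_mul_of_nonneg_left e5 (by positivity : 0 ≤ x ^ 2)
        nlinarith
      calc x ^ 64 / 128 = x ^ 70 * (1 / (8 * x ^ 6)) / 16 := by field_simp; norm_num
        _ ≤ _ := by gcongr
    refine (Real.exp_le_exp.2 (neg_le_neg e3)).trans ?_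
    rw [Real.exp_neg, one_div]
    refine inv_anti₀ (by positivity) ?_
    have e7 := Real.pow_div_factorial_le_exp (x ^ 64 / 128) (by positivity) 2
    refine le_trans ?_ e7
    rw [← hxn]
    have e8 : (65536 : ℝ) ≤ x ^ 28 := le_trans (by norm_num) (hxpow 28)
    have e9 : (x ^ 64 / 128) ^ 2 / (Nat.factorial 2 : ℕ) = x ^ 100 * x ^ 28 / 32768 := by
      norm_num [Nat.factorial]; ring
    rw [e9, le_div_iff₀ (by norm_num)]
    have := mul_le_mul_of_nonneg_left e8 (by positivity : 0 ≤ x ^ 100)
    linarith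
  set Hv := Finset.univ.filter fun a => x ^ 50 ≤ ((lf N a).card : ℝ) with hHv
  have hHvc : (Hv.card : ℝ) ≤ x ^ 60 := by
    have e1 : (Hv.card : ℝ) * x ^ 50 ≤ ∑ a, ((lf N a).card : ℝ) := by
      rw [← nsmul_eq_mul]
      exact (Finset.card_nsmul_le_sum _ _ _ fun a ha => (Finset.mem_filter.1 ha).2).trans
        (Finset.sum_le_sum_of_subset_of_nonneg (Finset.subset_univ _) fun _ _ _ => by positivity)
    have e2 : ∑ a, ((lf N a).card : ℝ) ≤ n * d := by
      have : ∑ a, (lf N a).card ≤ n * d := by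
        rw [sum_lf]
        exact (Finset.sum_le_card_nsmul _ _ _ fun b _ => hNd b).trans (by simp)
      exact_mod_cast this
    have e3 : (n : ℝ) * d ≤ x ^ 60 * x ^ 50 := by
      rw [← hxn]
      calc x ^ 100 * d ≤ x ^ 100 * x ^ 10 := by gcongr
        _ = _ := by ring
    exact le_of_mul_le_mul_right (e1.trans (e2.trans e3)) (by positivity)
  obtain ⟨P, hP1, hP2⟩ := exists_parts n 20000 (by norm_num)
  set s := n / 20000 + 1 with hs
  have hs1 : (n : ℝ) ≤ 20000 * s := by
    have : n ≤ 20000 * s := by omega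
    exact_mod_cast this
  have hs2 : 2 * (4352 * s) ≤ n := by
    have h3 : (n / 20000 : ℕ) * 20000 ≤ n := Nat.div_mul_le_self n 20000
    rw [hs]
    generalize n / 20000 = q at h3 ⊢
    linarith
  clear_value s
  have hx70 : x ^ 70 ≤ s := by
    have e8 : (20000 : ℝ) ≤ x ^ 30 := le_trans (by norm_num) (hxpow 30)
    have := mul_le_mul_of_nonneg_left e8 (by positivity : 0 ≤ x ^ 70)
    have e : x ^ 70 * x ^ 30 = n := by rw [← hxn]; ring
    linarith
  -- type I
  have hI : Cov p (20000 * 20000 * 2) (fun b => (N b).filter fun a => a ∉ Hv ∨ b ∈ Hv) := by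
    have := Cov.of_family (p := p) (k := 2) (ι := Fin 20000 × Fin 20000)
      (N := fun b => (N b).filter fun a => a ∉ Hv ∨ b ∈ Hv)
      (fun i b => (N b).filter fun a => (a ∉ Hv ∨ b ∈ Hv) ∧ b ∈ P i.1 ∧ a ∈ P i.2)
      (fun i => ?_) (fun b a ha => ?_)
    · simpa only [Fintype.card_prod, Fintype.card_fin] using this
    · set V := P i.1 ∪ P i.2 with hV
      refine layered h0 h1 _ V cls T d
        (fun t => (V.filter (fun v => cls v = t)).card + x ^ 70)
        (fun t => 2176 * (V.filter (fun v => cls v = t)).card + ⌈2176 * x ^ 70⌉₊)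
        (fun b a ha => ?_) (fun b _ => hT b)
        (fun b => (Finset.card_filter_le _ _).trans (hNd b))
        (fun t _ => le_add_of_nonneg_right (by positivity)) (fun t _ S hSne => ?_) ?_
        (fun t _ => ?_) (ρ := x ^ 70) (by positivity) (fun t _ => ?_) (by omega) hexp
      · obtain ⟨a1, -, a2, a3⟩ := Finset.mem_filter.1 ha
        exact ⟨Finset.mem_union_left _ a2, Finset.mem_union_right _ a3, (hN b a a1).2⟩
      · by_cases hSd : S.card ≤ d
        · obtain ⟨a, ha⟩ := hSne
          have e1 : ∑ b ∈ V.filter (fun v => cls v = t),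
              ind (S ⊆ (N b).filter fun a => (a ∉ Hv ∨ b ∈ Hv) ∧ b ∈ P i.1 ∧ a ∈ P i.2) ≤
                x ^ 60 := by
            by_cases haH : a ∈ Hv
            · refine (sum_ind_le_card _ Hv _ fun b _ hb => ?_).trans hHvc
              exact (Finset.mem_filter.1 (hb ha)).2.1.resolve_left (not_not.2 haH)
            · refine (sum_ind_le_card _ (lf N a) _ fun b _ hb =>
                mem_lf.2 (Finset.mem_filter.1 (hb ha)).1).trans ?_
              simp only [hHv, Finset.mem_filter, Finset.mem_univ, true_and, not_le] at haH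
              exact haH.le.trans (hxmono _ _ (by norm_num))
          refine e1.trans ?_
          have e2 := mul_le_mul_of_nonneg_right (hpS S hSd) (by positivity : 0 ≤ x ^ 68)
          have e3 := hxmono 60 68 (by norm_num)
          have e4 : p ^ S.card * x ^ 70 ≤
              p ^ S.card * ((V.filter (fun v => cls v = t)).card + x ^ 70) :=
            mul_le_mul_of_nonneg_left (le_add_of_nonneg_left (by positivity)) (by positivity)
          have e5 : p ^ S.card * x ^ 2 * x ^ 68 = p ^ S.card * x ^ 70 := by ring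
          linarith
        · refine (sum_ind_le_card _ ∅ _ fun b _ hb => ?_).trans (by
            simp only [Finset.card_empty, Nat.cast_zero]; positivity)
          exact absurd ((Finset.card_le_card hb).trans
            ((Finset.card_filter_le _ _).trans (hNd b))) hSd
      · rw [Finset.sum_add_distrib, ← Finset.mul_sum, ← Finset.card_eq_sum_card_fiberwise
          (s := V) (t := Finset.range T) (f := cls) (fun b _ => by simpa using hT b)]
        have e1 : V.card ≤ 2 * s := by
          have : V.card ≤ _ := Finset.card_union_le (P i.1) (P i.2)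
          have := hP1 i.1
          have := hP1 i.2
          omega
        have e2 : 2 * (T * ⌈2176 * x ^ 70⌉₊) ≤ n := by
          have e3 : (⌈2176 * x ^ 70⌉₊ : ℝ) ≤ 2177 * x ^ 70 := by
            have := Nat.ceil_lt_add_one (by positivity : 0 ≤ 2176 * x ^ 70)
            have := one_le_pow₀ (n := 70) hx1
            linarith
          have e4 : (T : ℝ) * ⌈2176 * x ^ 70⌉₊ ≤ x ^ 20 * (2177 * x ^ 70) := by gcongr
          have e8 : (4354 : ℝ) ≤ x ^ 10 := le_trans (by norm_num) (hxpow 10)
          have e9 := mul_le_mul_of_nonneg_left e8 (by positivity : 0 ≤ x ^ 90)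
          have e10 : x ^ 90 * x ^ 10 = n := by rw [← hxn]; ring
          have : ((2 * (T * ⌈2176 * x ^ 70⌉₊) : ℕ) : ℝ) ≤ n := by push_cast; nlinarith
          exact_mod_cast this
        simp only [Finset.sum_const, Finset.card_range, smul_eq_mul]
        omega
      · push_cast
        have := Nat.le_ceil (2176 * x ^ 70)
        linarith
      · push_cast
        have := Nat.le_ceil (2176 * x ^ 70)
        have : 0 ≤ x ^ 70 := by positivity
        have : (0 : ℝ) ≤ (V.filter (fun v => cls v = t)).card := Nat.cast_nonneg _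
        linarith
    · obtain ⟨j, hj⟩ := hP2 b
      obtain ⟨j', hj'⟩ := hP2 a
      obtain ⟨a1, a2⟩ := Finset.mem_filter.1 ha
      exact ⟨(j, j'), Finset.mem_filter.2 ⟨a1, a2, hj, hj'⟩⟩
  -- type II
  have hII : Cov p (20000 * 2) (fun b => (N b).filter fun a => a ∈ Hv ∧ b ∉ Hv) := by
    have := Cov.of_family (p := p) (k := 2) (ι := Fin 20000)
      (N := fun b => (N b).filter fun a => a ∈ Hv ∧ b ∉ Hv)
      (fun i b => (N b).filter fun a => (a ∈ Hv ∧ b ∉ Hv) ∧ b ∈ P i)
      (fun i => ?_) (fun b a ha => ?_)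
    · simpa only [Fintype.card_fin] using this
    · refine layered h0 h1 _ (Hv ∪ P i) (fun v => if v ∈ Hv then 0 else 1) 2 d
        (fun _ => s) (fun _ => 2176 * s) (fun b a ha => ?_) (fun b _ => ?_)
        (fun b => (Finset.card_filter_le _ _).trans (hNd b))
        (fun t _ => ?_) (fun t _ S hSne => ?_) ?_
        (fun t _ => by push_cast; rfl) (ρ := x ^ 70) (by positivity) (fun t _ => ?_) (by omega) hexp
      · obtain ⟨-, ⟨a1, a2⟩, a3⟩ := Finset.mem_filter.1 ha
        exact ⟨Finset.mem_union_right _ a3, Finset.mem_union_left _ a1, by simp [a1, a2]⟩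
      · split_ifs <;> norm_num
      · by_cases ht : t = 0
        · refine le_trans ?_ (hHvc.trans ((hxmono 60 70 (by norm_num)).trans hx70))
          refine Nat.cast_le.2 (Finset.card_le_card fun v hv => ?_)
          have := (Finset.mem_filter.1 hv).2
          by_contra hc
          rw [if_neg hc] at this; omega
        · refine Nat.cast_le.2 (le_trans (Finset.card_le_card fun v hv => ?_) (hP1 i))
          obtain ⟨a1, a2⟩ := Finset.mem_filter.1 hv
          refine (Finset.mem_union.1 a1).resolve_left fun hc => ?_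
          rw [if_pos hc] at a2; omega
      · by_cases hSd : S.card ≤ d
        · refine (sum_ind_le_card _ (Finset.univ.filter fun b => S ⊆ N b) _ fun b _ hb =>
            Finset.mem_filter.2 ⟨Finset.mem_univ _, hb.trans (Finset.filter_subset _ _)⟩).trans ?_
          rcases codeg_le hα0 (by linarith) hS (by omega) S (Finset.univ.filter fun b => S ⊆ N b)
            hSne (fun b hb a ha => (hN b a ((Finset.mem_filter.1 hb).2 ha)).1) with h | h
          · refine h.trans ?_
            have e1 : (180000 * α) ^ S.card ≤ p ^ S.card := pow_le_pow_left₀ (by positivity) hΛ _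
            have e2 : (180000 : ℝ) ≤ 180000 ^ S.card :=
              le_self_pow₀ (by norm_num) (Finset.card_ne_zero.2 hSne)
            rw [mul_pow] at e1
            have e3 := mul_le_mul_of_nonneg_right e2 (by positivity : 0 ≤ α ^ S.card)
            calc 9 * α ^ S.card * n ≤ 9 * α ^ S.card * (20000 * s) := by gcongr
              _ = (180000 * α ^ S.card) * s := by ring
              _ ≤ _ := mul_le_mul_of_nonneg_right (e3.trans e1) (Nat.cast_nonneg _)
          · refine h.trans ?_
            have e1 : (S.card : ℝ) ≤ x ^ 10 := le_trans (by exact_mod_cast hSd) hdx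
            have e2 : (S.card : ℝ) * Real.log n ≤ x ^ 10 * (100 * x) :=
              mul_le_mul e1 hlog (Real.log_nonneg (by linarith)) (by positivity)
            have e3 : (100 : ℝ) ≤ x ^ 2 := le_trans (by norm_num) (hxpow 2)
            have e4 : x ^ 10 * (100 * x) ≤ x ^ 68 := by
              calc x ^ 10 * (100 * x) ≤ x ^ 10 * (x ^ 2 * x) := by gcongr
                _ = x ^ 13 := by ring
                _ ≤ _ := hxmono _ _ (by norm_num)
            have e5 := mul_le_mul_of_nonneg_right (hpS S hSd) (by positivity : 0 ≤ x ^ 68)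
            have e6 : p ^ S.card * x ^ 70 ≤ p ^ S.card * s :=
              mul_le_mul_of_nonneg_left hx70 (by positivity)
            have e7 : p ^ S.card * x ^ 2 * x ^ 68 = p ^ S.card * x ^ 70 := by ring
            linarith
        · refine (sum_ind_le_card _ ∅ _ fun b _ hb => ?_).trans (by
            simp only [Finset.card_empty, Nat.cast_zero]; positivity)
          exact absurd ((Finset.card_le_card hb).trans
            ((Finset.card_filter_le _ _).trans (hNd b))) hSd
      · simp only [Finset.sum_const, Finset.card_range, smul_eq_mul]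
        linarith
      · push_cast
        have : (0 : ℝ) ≤ s := Nat.cast_nonneg _
        linarith
    · obtain ⟨j, hj⟩ := hP2 b
      obtain ⟨a1, a2⟩ := Finset.mem_filter.1 ha
      exact ⟨j, Finset.mem_filter.2 ⟨a1, a2, hj⟩⟩
  have := Cov.of_family (p := p) (k := 20000 * 20000 * 2) (ι := Bool) (N := N)
    (fun i => if i then (fun b => (N b).filter fun a => a ∉ Hv ∨ b ∈ Hv)
      else (fun b => (N b).filter fun a => a ∈ Hv ∧ b ∉ Hv)) (fun i => ?_) (fun b a ha => ?_)
  · simpa only [Fintype.card_bool] using this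
  · cases i
    · exact hII.mono (by norm_num)
    · exact hI
  · by_cases h : a ∉ Hv ∨ b ∈ Hv
    · exact ⟨true, Finset.mem_filter.2 ⟨ha, h⟩⟩
    · push Not at h
      exact ⟨false, Finset.mem_filter.2 ⟨ha, h⟩⟩

end Crest.Agent.R52G
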