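import Crest.Agent.R52G.Li
import Crest.Agent.R52G.Match

set_option autoImplicit false

open Finset Crest.FinProb

namespace Crest.Agent.R52G

lemma dyadic_sum_le (t : ℝ) (ht : 0 ≤ t) (J : ℕ) :
    ∑ j ∈ Finset.range J, (2 : ℝ) ^ j * ind (¬ t ≤ 2 ^ j) ≤ 2 * t := by
  induction J with
  | zero => simp; exact ht
  | succ J ih =>
    by_cases h : t ≤ 2 ^ J
    · rw [Finset.sum_range_succ, ind_false (not_not.2 h)]; linarith
    · push Not at h
      calc _ ≤ ∑ j ∈ Finset.range (J + 1), (2 : ℝ) ^ j :=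
            Finset.sum_le_sum fun j _ => mul_le_of_le_one_right (by positivity) (ind_le_one _)
        _ = 2 ^ (J + 1) - 1 := by rw [geom_sum_eq (by norm_num)]; norm_num
        _ ≤ _ := by rw [pow_succ]; linarith

section
variable {A : Type*} [Fintype A] [DecidableEq A]

/-- normalised indicator -/
noncomputable def nind (p : ℝ) (E : (A → Bool) → Prop) (y : A → Bool) : ℝ :=
  ind (E y) / Ex p (fun y => ind (E y))

lemma nind_nonneg {p : ℝ} (h0 : 0 ≤ p) (h1 : p ≤ 1) (E : (A → Bool) → Prop) (y : A → Bool) :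
    0 ≤ nind p E y :=
  div_nonneg (ind_nonneg _) (Ex_nonneg h0 h1 fun _ => ind_nonneg _)

lemma nind_le {p τ : ℝ} (hτ : 0 < τ) {E : (A → Bool) → Prop}
    (hE : τ ≤ Ex p (fun y => ind (E y))) (y : A → Bool) : nind p E y ≤ 1 / τ :=
  div_le_div₀ (by norm_num) (ind_le_one _) hτ hE

lemma Ex_nind {p τ : ℝ} (hτ : 0 < τ) {E : (A → Bool) → Prop}
    (hE : τ ≤ Ex p (fun y => ind (E y))) : Ex p (nind p E) = 1 := by
  have : nind p E = fun y => ind (E y) * (Ex p (fun y => ind (E y)))⁻¹ := by
    funext y; simp [nind, div_eq_mul_inv]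
  rw [this, Ex_mul_const, mul_inv_cancel₀ (by linarith)]

lemma nind_ne_zero {p : ℝ} {E : (A → Bool) → Prop} {y : A → Bool} (h : nind p E y ≠ 0) : E y := by
  by_contra hc
  exact h (by simp [nind, ind_false hc])

lemma Ex_mul_nind_le {p τ : ℝ} (h0 : 0 ≤ p) (h1 : p ≤ 1) (hτ : 0 < τ) {E : (A → Bool) → Prop}
    (hE : τ ≤ Ex p (fun y => ind (E y))) (f : (A → Bool) → ℝ) {t : ℝ} (ht : ∀ y, E y → f y ≤ t) :
    Ex p (fun y => f y * nind p E y) ≤ t := by
  calc _ ≤ Ex p (fun y => t * nind p E y) := by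
        refine Ex_mono h0 h1 fun y => ?_
        by_cases h : E y
        · exact mul_le_mul_of_nonneg_right (ht y h) (nind_nonneg h0 h1 E y)
        · simp [nind, ind_false h]
    _ = t := by rw [Ex_const_mul, Ex_nind hτ hE, mul_one]

/-- an atom: a split together with a set of outcomes -/
def Valid (p τ : ℝ) (N : Finset A) (q : Finset A × ((A → Bool) → Prop)) : Prop :=
  q.1 ⊆ N ∧ τ ≤ Ex p (fun y => ind (q.2 y ∧ ∀ a ∈ q.1, y a = true)) ∧
    τ ≤ Ex p (fun y => ind (q.2 y ∧ ∀ a ∈ N \ q.1, y a = true))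

noncomputable def v1 (p : ℝ) (q : Finset A × ((A → Bool) → Prop)) : (A → Bool) → ℝ :=
  nind p (fun y => q.2 y ∧ ∀ a ∈ q.1, y a = true)

noncomputable def v2 (p : ℝ) (N : Finset A) (q : Finset A × ((A → Bool) → Prop)) :
    (A → Bool) → ℝ :=
  nind p (fun y => q.2 y ∧ ∀ a ∈ N \ q.1, y a = true)

lemma cheap_assignment {B : Type*} [Fintype B] [DecidableEq B] {p : ℝ} (h0 : 0 < p) (h1 : p < 1)
    (N : B → Finset A) {d : ℕ} (hd : ∀ b, (N b).card ≤ d) {m : ℝ} (hm : (Fintype.card B : ℝ) ≤ m)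
    (hco : ∀ S : Finset A, S.Nonempty → ∑ b, ind (S ⊆ N b) ≤ p ^ S.card * m)
    (f : (A → Bool) → ℝ) (hf : ∀ y, 1 ≤ f y) :
    ∃ a : B → Finset A × ((A → Bool) → Prop),
      (∀ b, Valid p ((p ^ 2) ^ d / (8 * 2 ^ d)) (N b) (a b)) ∧
      ∑ b, Ex p (fun y => f y * (v1 p (a b) y + v2 p (N b) (a b) y)) ≤ 34 * m * Ex p f := by
  classical
  set τ := (p ^ 2) ^ d / (8 * 2 ^ d) with hτdef
  have hτ : 0 < τ := by positivity
  set s := Ex p f with hs
  have hs1 : 1 ≤ s := by
    have := Ex_mono h0.le h1.le (f := fun _ => 1) hf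
    rwa [Ex_const] at this
  have hs0 : 0 < s := by linarith
  have hm0 : 0 ≤ m := le_trans (Nat.cast_nonneg _) hm
  let D : ℕ → (A → Bool) → Prop := fun j y => f y / s ≤ 2 ^ j
  obtain ⟨J, hJ⟩ : ∃ J : ℕ, ∀ y, D J y := by
    obtain ⟨J, hJ⟩ := pow_unbounded_of_one_lt (∑ y, f y / s) (by norm_num : (1 : ℝ) < 2)
    refine ⟨J, fun y => le_trans ?_ hJ.le⟩
    exact Finset.single_le_sum (f := fun y => f y / s)
      (fun y _ => div_nonneg (by linarith [hf y]) hs0.le) (Finset.mem_univ y)
  have hJat : ∀ b, HasAtom p τ (N b) (D J) := by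
    intro b
    have h := li_count h0 h1 N hd hm hco (D J)
    have e : Ex p (fun y => ind (D J y)) = 1 := by
      simp only [ind_true (hJ _)]; exact Ex_const _ _
    rw [e, sub_self, mul_zero] at h
    by_contra hc
    have := Finset.single_le_sum (f := fun b => ind (¬ HasAtom p τ (N b) (D J)))
      (fun _ _ => ind_nonneg _) (Finset.mem_univ b)
    simp only [ind_true hc] at this
    linarith
  have hex : ∀ b, ∃ j, HasAtom p τ (N b) (D j) := fun b => ⟨J, hJat b⟩
  let jb : B → ℕ := fun b => Nat.find (hex b)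
  have hspec : ∀ b, HasAtom p τ (N b) (D (jb b)) := fun b => Nat.find_spec (hex b)
  choose σ hσ using hspec
  refine ⟨fun b => (σ b, D (jb b)), fun b => hσ b, ?_⟩
  have hb : ∀ b, Ex p (fun y => f y * (v1 p (σ b, D (jb b)) y + v2 p (N b) (σ b, D (jb b)) y)) ≤
      2 * s * (1 + ∑ j ∈ Finset.range J, 2 ^ j * ind (¬ HasAtom p τ (N b) (D j))) := by
    intro b
    simp only [mul_add]
    rw [Ex_add]
    have hD : ∀ y, D (jb b) y → f y ≤ 2 ^ jb b * s := fun y hy => (div_le_iff₀ hs0).1 hy
    have e1 := Ex_mul_nind_le h0.le h1.le hτ (hσ b).2.1 f (t := 2 ^ jb b * s)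
      fun y hy => hD y hy.1
    have e2 := Ex_mul_nind_le h0.le h1.le hτ (hσ b).2.2 f (t := 2 ^ jb b * s)
      fun y hy => hD y hy.1
    have hjJ : jb b ≤ J := Nat.find_min' (hex b) (hJat b)
    have e3 : (2 : ℝ) ^ jb b ≤ 1 + ∑ j ∈ Finset.range J, 2 ^ j * ind (¬ HasAtom p τ (N b) (D j)) := by
      have g1 : (2 : ℝ) ^ jb b = 1 + ∑ j ∈ Finset.range (jb b), 2 ^ j := by
        rw [geom_sum_eq (by norm_num)]; norm_num
      rw [g1]
      refine add_le_add le_rfl ?_
      calc ∑ j ∈ Finset.range (jb b), (2 : ℝ) ^ j =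
            ∑ j ∈ Finset.range (jb b), 2 ^ j * ind (¬ HasAtom p τ (N b) (D j)) := by
            refine Finset.sum_congr rfl fun j hj => ?_
            rw [ind_true (Nat.find_min (hex b) (Finset.mem_range.1 hj)), mul_one]
        _ ≤ _ := Finset.sum_le_sum_of_subset_of_nonneg (Finset.range_mono hjJ)
            fun j _ _ => mul_nonneg (by positivity) (ind_nonneg _)
    have e4 := mul_le_mul_of_nonneg_left e3 (by positivity : 0 ≤ 2 * s)
    unfold v1 v2
    simp only at e1 e2 ⊢
    nlinarith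
  calc _ ≤ ∑ b, 2 * s * (1 + ∑ j ∈ Finset.range J, 2 ^ j * ind (¬ HasAtom p τ (N b) (D j))) :=
        Finset.sum_le_sum fun b _ => hb b
    _ = 2 * s * (Fintype.card B + ∑ j ∈ Finset.range J,
          2 ^ j * ∑ b, ind (¬ HasAtom p τ (N b) (D j))) := by
        rw [← Finset.mul_sum, Finset.sum_add_distrib, Finset.sum_comm]
        simp [Finset.mul_sum]
    _ ≤ 2 * s * (m + ∑ j ∈ Finset.range J,
          2 ^ j * (8 * m * Ex p (fun y => ind (¬ D j y)))) := by
        refine mul_le_mul_of_nonneg_left (add_le_add hm (Finset.sum_le_sum fun j _ => ?_))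
          (by positivity)
        rw [Ex_ind_not]
        exact mul_le_mul_of_nonneg_left (li_count h0 h1 N hd hm hco (D j)) (by positivity)
    _ = 2 * s * (m + 8 * m * Ex p (fun y => ∑ j ∈ Finset.range J, 2 ^ j * ind (¬ D j y))) := by
        rw [Ex_sum, Finset.mul_sum]
        congr 2
        refine Finset.sum_congr rfl fun j _ => ?_
        rw [Ex_const_mul]; ring
    _ ≤ 2 * s * (m + 8 * m * 2) := by
        refine mul_le_mul_of_nonneg_left (add_le_add le_rfl
          (mul_le_mul_of_nonneg_left ?_ (by positivity))) (by positivity)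
        calc _ ≤ Ex p (fun y => f y * (2 / s)) := by
              refine Ex_mono h0.le h1.le fun y => ?_
              refine (dyadic_sum_le (f y / s) (div_nonneg (by linarith [hf y]) hs0.le) J).trans
                (le_of_eq ?_)
              ring
          _ = 2 := by rw [Ex_mul_const, ← hs]; field_simp
    _ = _ := by ring

/-- failure probability of the matching step -/
noncomputable def Fail (p : ℝ) (R : Type*) [Fintype R] [DecidableEq R] {B : Type*}
    (N : B → Finset A) : ℝ :=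
  Ex p (fun ω : R × A → Bool =>
    ind (¬ ∃ m : B → R, Function.Injective m ∧ ∀ b, ∀ a ∈ N b, ω (m b, a) = true))

lemma split {B : Type*} [Fintype B] [DecidableEq B] (R : Type*) [Fintype R] [DecidableEq R]
    {p : ℝ} (h0 : 0 < p) (h1 : p < 1)
    (N : B → Finset A) {d : ℕ} (hd : ∀ b, (N b).card ≤ d) {m : ℝ} (hm : (Fintype.card B : ℝ) ≤ m)
    (hco : ∀ S : Finset A, S.Nonempty → ∑ b, ind (S ⊆ N b) ≤ p ^ S.card * m)
    (hR0 : 0 < Fintype.card R) (hR : 2176 * m ≤ Fintype.card R)
    (hexp : Real.exp (-(Fintype.card R * ((p ^ 2) ^ d / (8 * 2 ^ d)) / 16)) ≤ 2 / Fintype.card R) :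
    ∃ σ : B → Finset A, (∀ b, σ b ⊆ N b) ∧
      Fail p R σ ≤ Fintype.card B * Real.exp (-(Fintype.card R * ((p ^ 2) ^ d / (8 * 2 ^ d)) / 8)) ∧
      Fail p R (fun b => N b \ σ b) ≤
        Fintype.card B * Real.exp (-(Fintype.card R * ((p ^ 2) ^ d / (8 * 2 ^ d)) / 8)) := by
  classical
  set τ := (p ^ 2) ^ d / (8 * 2 ^ d) with hτdef
  have hτ : 0 < τ := by positivity
  set ρ : ℝ := (Fintype.card R : ℝ) with hρ
  have hρ0 : 0 < ρ := by rw [hρ]; exact_mod_cast hR0
  have hm0 : 0 ≤ m := le_trans (Nat.cast_nonneg _) hm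
  -- load, scaled by `τ / 2`
  let w : B → Finset A × ((A → Bool) → Prop) → (A → Bool) → ℝ :=
    fun b q y => v1 p q y + v2 p (N b) q y
  have hw0 : ∀ b q y, 0 ≤ w b q y := fun b q y =>
    add_nonneg (nind_nonneg h0.le h1.le _ _) (nind_nonneg h0.le h1.le _ _)
  have hw1 : ∀ b q y, Valid p τ (N b) q → τ / 2 * w b q y ≤ 1 := by
    intro b q y hq
    have e1 := nind_le hτ hq.2.1 y
    have e2 := nind_le hτ hq.2.2 y
    have : w b q y ≤ 2 / τ := by
      have : 2 / τ = 1 / τ + 1 / τ := by ring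
      rw [this]; exact add_le_add e1 e2
    calc τ / 2 * w b q y ≤ τ / 2 * (2 / τ) := mul_le_mul_of_nonneg_left this (by positivity)
      _ = 1 := by field_simp
  let L : (B → Finset A × ((A → Bool) → Prop)) → (A → Bool) → ℝ := fun a y => ∑ b, w b (a b) y
  have hL0 : ∀ a y, 0 ≤ L a y := fun a y => Finset.sum_nonneg fun b _ => hw0 _ _ _
  let Φ : (B → Finset A × ((A → Bool) → Prop)) → ℝ :=
    fun a => Ex p (fun y => Real.exp (τ / 2 * L a y))
  obtain ⟨a₀, ha₀, -⟩ := cheap_assignment h0 h1 N hd hm hco (fun _ => 1) (fun _ => le_rfl)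
  obtain ⟨a, ha, hmin⟩ := Set.exists_min_image
    {a : B → Finset A × ((A → Bool) → Prop) | ∀ b, Valid p τ (N b) (a b)} Φ
    (Set.toFinite _) ⟨a₀, ha₀⟩
  set f : (A → Bool) → ℝ := fun y => Real.exp (τ / 2 * L a y) with hf
  have hf1 : ∀ y, 1 ≤ f y := fun y => Real.one_le_exp (mul_nonneg (by positivity) (hL0 a y))
  obtain ⟨a', ha', hcheap⟩ := cheap_assignment h0 h1 N hd hm hco f hf1
  have hloc : ∀ b, Ex p (fun y => f y * w b (a b) y) ≤ 4 * Ex p (fun y => f y * w b (a' b) y) := by
    intro b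
    have hval : ∀ b', Valid p τ (N b') (Function.update a b (a' b) b') := by
      intro b'
      by_cases hb : b' = b
      · subst hb; simpa using ha' b'
      · rw [Function.update_of_ne hb]; exact ha b'
    have hle := hmin _ hval
    have hL : ∀ y, L (Function.update a b (a' b)) y = L a y + w b (a' b) y - w b (a b) y := by
      intro y
      simp only [L]
      rw [← Finset.add_sum_erase _ _ (Finset.mem_univ b),
        ← Finset.add_sum_erase _ (fun b => w b (a b) y) (Finset.mem_univ b)]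
      have : ∑ x ∈ Finset.univ.erase b, w x (Function.update a b (a' b) x) y =
          ∑ x ∈ Finset.univ.erase b, w x (a x) y :=
        Finset.sum_congr rfl fun x hx => by rw [Function.update_of_ne (Finset.ne_of_mem_erase hx)]
      rw [this]; simp; ring
    have hup : Φ (Function.update a b (a' b)) ≤
        Ex p (fun y => f y + τ * (f y * w b (a' b) y) - τ / 4 * (f y * w b (a b) y)) := by
      refine Ex_mono h0.le h1.le fun y => ?_
      rw [hL]
      have u0 : 0 ≤ τ / 2 * w b (a' b) y := mul_nonneg (by positivity) (hw0 _ _ _)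
      have u1 := hw1 b (a' b) y (ha' b)
      have t0 : 0 ≤ τ / 2 * w b (a b) y := mul_nonneg (by positivity) (hw0 _ _ _)
      have t1 := hw1 b (a b) y (ha b)
      have e1 : Real.exp (τ / 2 * w b (a' b) y) ≤ 1 + 2 * (τ / 2 * w b (a' b) y) := by
        have := Real.abs_exp_sub_one_le (x := τ / 2 * w b (a' b) y) (by rw [abs_of_nonneg u0]; exact u1)
        rw [abs_of_nonneg u0] at this
        linarith [le_abs_self (Real.exp (τ / 2 * w b (a' b) y) - 1)]
      have e2 := exp_neg_le_half t0 t1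
      have e3 : Real.exp (τ / 2 * (L a y + w b (a' b) y - w b (a b) y)) =
          f y * (Real.exp (τ / 2 * w b (a' b) y) * Real.exp (-(τ / 2 * w b (a b) y))) := by
        simp only [hf]
        rw [← Real.exp_add, ← Real.exp_add]; congr 1; ring
      rw [e3]
      have e4 : Real.exp (τ / 2 * w b (a' b) y) * Real.exp (-(τ / 2 * w b (a b) y)) ≤
          1 + τ * w b (a' b) y - τ / 4 * w b (a b) y := by
        calc _ ≤ (1 + 2 * (τ / 2 * w b (a' b) y)) * (1 - τ / 2 * w b (a b) y / 2) :=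
              mul_le_mul e1 e2 (Real.exp_pos _).le (by linarith)
          _ ≤ _ := by nlinarith
      have := mul_le_mul_of_nonneg_left e4 (le_trans zero_le_one (hf1 y))
      linarith
    rw [Ex_sub, Ex_add, Ex_const_mul, Ex_const_mul] at hup
    have hΦ : Φ a = Ex p f := rfl
    have : τ / 4 * Ex p (fun y => f y * w b (a b) y) ≤
        τ / 4 * (4 * Ex p (fun y => f y * w b (a' b) y)) := by linarith
    exact le_of_mul_le_mul_left this (by positivity)
  have hfL : Ex p (fun y => f y * L a y) ≤ 136 * m * Ex p f := by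
    calc _ = ∑ b, Ex p (fun y => f y * w b (a b) y) := by
          rw [← Ex_sum]; simp only [L, Finset.mul_sum]
      _ ≤ ∑ b, 4 * Ex p (fun y => f y * w b (a' b) y) := Finset.sum_le_sum fun b _ => hloc b
      _ = 4 * ∑ b, Ex p (fun y => f y * w b (a' b) y) := by rw [Finset.mul_sum]
      _ ≤ _ := by linarith
  -- tail of the load above `ρ / 4`
  have htail : Ex p (fun y => L a y * ind (¬ L a y ≤ ρ / 4)) ≤ 1 / 4 := by
    have hθ : 136 * m ≤ ρ / 16 := by linarith
    have hpt : ∀ y, 3 / 4 * Real.exp (τ * ρ / 8) * (L a y * ind (¬ L a y ≤ ρ / 4)) ≤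
        f y * L a y - ρ / 16 * f y + ρ / 16 * Real.exp (τ * ρ / 32) := by
      intro y
      have hE := Real.exp_pos (τ * ρ / 32)
      by_cases hy : L a y ≤ ρ / 4
      · rw [ind_false (not_not.2 hy), mul_zero, mul_zero]
        by_cases hy2 : L a y ≤ ρ / 16
        · have : f y ≤ Real.exp (τ * ρ / 32) := Real.exp_le_exp.2 (by nlinarith)
          have h3 := mul_nonneg (le_trans zero_le_one (hf1 y)) (hL0 a y)
          nlinarith
        · push Not at hy2
          have := hf1 y
          nlinarith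
      · rw [ind_true hy, mul_one]
        push Not at hy
        have : Real.exp (τ * ρ / 8) ≤ f y := Real.exp_le_exp.2 (by nlinarith)
        have h3 : 3 / 4 * L a y ≤ L a y - ρ / 16 := by linarith
        have h4 := mul_le_mul this h3 (by nlinarith) (le_trans zero_le_one (hf1 y))
        nlinarith
    have h5 := Ex_mono h0.le h1.le hpt
    rw [Ex_const_mul, Ex_add, Ex_sub, Ex_const_mul, Ex_const] at h5
    have hEf : 0 ≤ Ex p f := Ex_nonneg h0.le h1.le fun y => le_trans zero_le_one (hf1 y)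
    have h6 : 3 / 4 * Real.exp (τ * ρ / 8) * Ex p (fun y => L a y * ind (¬ L a y ≤ ρ / 4)) ≤
        ρ / 16 * Real.exp (τ * ρ / 32) := by nlinarith
    have h7 : Real.exp (τ * ρ / 32) ≤ Real.exp (τ * ρ / 8) * Real.exp (-(ρ * τ / 16)) := by
      rw [← Real.exp_add]; exact Real.exp_le_exp.2 (by nlinarith)
    have h8 : Real.exp (τ * ρ / 32) ≤ Real.exp (τ * ρ / 8) * (2 / ρ) :=
      h7.trans (mul_le_mul_of_nonneg_left hexp (Real.exp_pos _).le)
    have h9 : ρ / 16 * Real.exp (τ * ρ / 32) ≤ 3 / 4 * Real.exp (τ * ρ / 8) * (1 / 4) := by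
      calc _ ≤ ρ / 16 * (Real.exp (τ * ρ / 8) * (2 / ρ)) :=
            mul_le_mul_of_nonneg_left h8 (by positivity)
        _ = Real.exp (τ * ρ / 8) / 8 := by field_simp; ring
        _ ≤ _ := by have := Real.exp_pos (τ * ρ / 8); linarith
    exact le_of_mul_le_mul_left (h6.trans h9) (by positivity)
  -- common conclusion
  have hfin : ∀ (M : B → Finset A) (v : B → (A → Bool) → ℝ), (∀ b y, 0 ≤ v b y) →
      (∀ b y, v b y ≤ 1 / τ) → (∀ b y, v b y ≤ w b (a b) y) → (∀ b, Ex p (v b) = 1) →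
      (∀ b y, v b y ≠ 0 → ∀ x ∈ M b, y x = true) →
      Fail p R M ≤ Fintype.card B * Real.exp (-(ρ * τ / 8)) := by
    intro M v hv0 hv1 hvw hvE hvs
    have := matching (R := R) h0.le h1.le M (fun b y => 4 / ρ * (v b y * ind (L a y ≤ ρ / 4)))
      (η := 4 / (ρ * τ)) (by positivity)
      (fun b y => mul_nonneg (by positivity) (mul_nonneg (hv0 b y) (ind_nonneg _)))
      (fun b y => by
        have : v b y * ind (L a y ≤ ρ / 4) ≤ 1 / τ :=
          (mul_le_of_le_one_right (hv0 b y) (ind_le_one _)).trans (hv1 b y)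
        calc _ ≤ 4 / ρ * (1 / τ) := mul_le_mul_of_nonneg_left this (by positivity)
          _ = _ := by field_simp)
      (fun b y h => hvs b y (fun hc => h (by simp [hc])))
      (fun y => by
        by_cases hy : L a y ≤ ρ / 4
        · simp only [ind_true hy, mul_one]
          rw [← Finset.mul_sum]
          have : ∑ b, v b y ≤ ρ / 4 := (Finset.sum_le_sum fun b _ => hvw b y).trans hy
          calc _ ≤ 4 / ρ * (ρ / 4) := mul_le_mul_of_nonneg_left this (by positivity)
            _ = 1 := by field_simp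
        · simp [ind_false hy])
      (fun b => by
        rw [Ex_const_mul, ← hρ]
        have e1 : Ex p (fun y => v b y * ind (L a y ≤ ρ / 4)) =
            1 - Ex p (fun y => v b y * ind (¬ L a y ≤ ρ / 4)) := by
          rw [← hvE b, ← Ex_sub]
          congr 1; funext y; rw [ind_not]; ring
        have e2 : Ex p (fun y => v b y * ind (¬ L a y ≤ ρ / 4)) ≤ 1 / 4 := by
          refine le_trans (Ex_mono h0.le h1.le fun y => ?_) htail
          refine mul_le_mul_of_nonneg_right ((hvw b y).trans ?_) (ind_nonneg _)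
          exact Finset.single_le_sum (f := fun b => w b (a b) y) (fun _ _ => hw0 _ _ _)
            (Finset.mem_univ b)
        rw [e1]
        have : ρ * (4 / ρ * (1 - Ex p (fun y => v b y * ind (¬ L a y ≤ ρ / 4)))) =
            4 * (1 - Ex p (fun y => v b y * ind (¬ L a y ≤ ρ / 4))) := by field_simp
        rw [this]; linarith)
    refine this.trans (le_of_eq ?_)
    congr 2
    field_simp
    ring
  refine ⟨fun b => (a b).1, fun b => (ha b).1, ?_, ?_⟩
  · exact hfin _ (fun b => v1 p (a b)) (fun b y => nind_nonneg h0.le h1.le _ _)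
      (fun b y => nind_le hτ (ha b).2.1 y)
      (fun b y => le_add_of_nonneg_right (nind_nonneg h0.le h1.le _ _))
      (fun b => Ex_nind hτ (ha b).2.1) (fun b y h => (nind_ne_zero h).2)
  · exact hfin _ (fun b => v2 p (N b) (a b)) (fun b y => nind_nonneg h0.le h1.le _ _)
      (fun b y => nind_le hτ (ha b).2.2 y)
      (fun b y => le_add_of_nonneg_left (nind_nonneg h0.le h1.le _ _))
      (fun b => Ex_nind hτ (ha b).2.2) (fun b y h => (nind_ne_zero h).2)

end

end Crest.Agent.R52G
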