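import Crest.Agent.R52G.Layer

set_option autoImplicit false

open Finset Crest.FinProb Crest.CombinatoricsR.RandomGraph

namespace Crest.Agent.R52G

variable {n : ℕ}

/-- the statement of the fractional versus integral cover theorem with constant `K` -/
def FracInt (K : ℝ) : Prop :=
  ∀ (α : Type) [Fintype α] [DecidableEq α] [Nonempty α] (F : Finset (Finset α)) (_ : F.Nonempty)
    (_ : ∅ ∉ F) (_ : ∀ A ∈ F, ∀ B : Finset α, A ⊆ B → B ∈ F) (r : ℝ) (_ : 0 ≤ r) (_ : r ≤ 1)
    (g : Finset α → ℝ) (_ : ∀ S : Finset α, 0 ≤ g S ∧ g S ≤ 1)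
    (_ : ∀ H ∈ F, 1 ≤ ∑ S ∈ H.powerset, g S)
    (_ : ∑ S : Finset α, g S * r ^ S.card ≤ 1 / 2),
    ∃ G : Finset (Finset α), (∀ H ∈ F, ∃ S ∈ G, S ⊆ H) ∧ ∑ S ∈ G, (r / K) ^ S.card ≤ 1 / 2

def act (σ : Equiv.Perm (Fin n)) (z : EdgeSlot n) : EdgeSlot n :=
  ⟨z.1.map σ, fun h => z.2 ((Sym2.isDiag_map σ.injective).1 h)⟩

lemma act_mul (σ τ : Equiv.Perm (Fin n)) (z : EdgeSlot n) : act (σ * τ) z = act σ (act τ z) := by
  apply Subtype.ext
  simp [act, Sym2.map_map, Equiv.Perm.coe_mul]

lemma act_injective (σ : Equiv.Perm (Fin n)) : Function.Injective (act σ) := fun _ _ h =>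
  Subtype.ext (Sym2.map.injective σ.injective (congrArg Subtype.val h))

open Classical in
/-- number of permutations carrying `S` into `H` -/
noncomputable def cnt (H : SimpleGraph (Fin n)) (S : Finset (EdgeSlot n)) : ℕ :=
  (Finset.univ.filter fun σ : Equiv.Perm (Fin n) => ∀ z ∈ S, (act σ z).1 ∈ H.edgeSet).card

def Spread (H : SimpleGraph (Fin n)) (α : ℝ) : Prop :=
  ∀ S : Finset (EdgeSlot n), S.Nonempty → (cnt H S : ℝ) ≤ α ^ S.card * n.factorial

lemma sum_min_ge {ι : Type*} (s : Finset ι) (x : ι → ℝ) (hx : ∀ i, 0 ≤ x i)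
    (h : 1 ≤ ∑ i ∈ s, x i) : 1 ≤ ∑ i ∈ s, min 1 (x i) := by
  by_cases hc : ∃ i ∈ s, 1 ≤ x i
  · obtain ⟨i, hi, h1⟩ := hc
    refine le_trans (le_of_eq (min_eq_left h1).symm) (Finset.single_le_sum
      (f := fun i => min 1 (x i)) (fun j _ => le_min (by norm_num) (hx j)) hi)
  · push Not at hc
    rwa [Finset.sum_congr rfl fun i hi => min_eq_right (hc i hi).le]

lemma exists_spread {K : ℝ} (hK : FracInt K) (H : SimpleGraph (Fin n)) (hH : H ≠ ⊥) :
    ∃ α : ℝ, 0 < α ∧ α ≤ 1 ∧ Spread H α ∧ ∃ C : Finset (Finset (EdgeSlot n)),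
      (∀ A : Finset (EdgeSlot n), (∃ σ : Equiv.Perm (Fin n),
        ∀ z : EdgeSlot n, z.1 ∈ H.edgeSet → act σ z ∈ A) → ∃ S ∈ C, S ⊆ A) ∧
      ∑ S ∈ C, (α / 2 / K) ^ S.card ≤ 1 / 2 := by
  classical
  obtain ⟨u, v, huv⟩ : ∃ u v, H.Adj u v := by
    by_contra hc
    push Not at hc
    exact hH (by ext a b; simp [hc a b])
  set z₀ : EdgeSlot n := slot u v huv.ne with hz₀
  have hz₀H : z₀.1 ∈ H.edgeSet := huv
  have hf : (0 : ℝ) < n.factorial := by exact_mod_cast n.factorial_pos
  let val : Finset (EdgeSlot n) → ℝ := fun S => ((cnt H S : ℝ) / n.factorial) ^ ((S.card : ℝ)⁻¹)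
  obtain ⟨S₀, hS₀, hmax⟩ := Finset.exists_max_image
    (Finset.univ.filter fun S : Finset (EdgeSlot n) => S.Nonempty) val ⟨{z₀}, by simp⟩
  have hS₀ne : S₀.Nonempty := (Finset.mem_filter.1 hS₀).2
  have hpow : ∀ S : Finset (EdgeSlot n), S.Nonempty →
      val S ^ S.card = (cnt H S : ℝ) / n.factorial := fun S hS =>
    Real.rpow_inv_natCast_pow (by positivity) (Finset.card_ne_zero.2 hS)
  have hval0 : ∀ S, 0 ≤ val S := fun S => Real.rpow_nonneg (by positivity) _
  have hcnt_le : ∀ S, (cnt H S : ℝ) ≤ n.factorial := by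
    intro S
    have : cnt H S ≤ n.factorial := by
      unfold cnt
      refine (Finset.card_filter_le _ _).trans ?_
      simp [Fintype.card_perm]
    exact_mod_cast this
  have hα0 : 0 < val S₀ := by
    refine lt_of_lt_of_le ?_ (hmax {z₀} (by simp))
    refine Real.rpow_pos_of_pos (div_pos ?_ hf) _
    have : 0 < cnt H {z₀} := Finset.card_pos.2 ⟨1, by
      simp only [Finset.mem_filter, Finset.mem_univ, true_and, Finset.mem_singleton, forall_eq]
      simpa [act] using hz₀H⟩
    exact_mod_cast this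
  have hα1 : val S₀ ≤ 1 :=
    Real.rpow_le_one (by positivity) ((div_le_one hf).2 (hcnt_le _)) (by positivity)
  set α := val S₀ with hα
  have hc0 : (cnt H S₀ : ℝ) = α ^ S₀.card * n.factorial := by
    rw [hα, hpow S₀ hS₀ne]; field_simp
  have hcpos : (0 : ℝ) < cnt H S₀ := by rw [hc0]; positivity
  refine ⟨α, hα0, hα1, fun S hS => ?_, ?_⟩
  · rw [← div_le_iff₀ hf, ← hpow S hS]
    exact pow_le_pow_left₀ (hval0 S) (hmax S (by simpa using hS)) _
  have : Nonempty (EdgeSlot n) := ⟨z₀⟩
  let g' : Finset (EdgeSlot n) → ℝ := fun S =>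
    ((Finset.univ.filter fun τ : Equiv.Perm (Fin n) => S₀.image (act τ) = S).card : ℝ) / cnt H S₀
  have hg'0 : ∀ S, 0 ≤ g' S := fun S => div_nonneg (Nat.cast_nonneg _) (Nat.cast_nonneg _)
  obtain ⟨C, hC1, hC2⟩ := hK (EdgeSlot n)
    (Finset.univ.filter fun A : Finset (EdgeSlot n) => ∃ σ : Equiv.Perm (Fin n),
        ∀ z : EdgeSlot n, z.1 ∈ H.edgeSet → act σ z ∈ A)
    ⟨Finset.univ, by simp⟩
    (by
      simp only [Finset.mem_filter, Finset.mem_univ, true_and, not_exists]
      intro σ h; simpa using h z₀ hz₀H)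
    (by
      intro A hA B hAB
      simp only [Finset.mem_filter, Finset.mem_univ, true_and] at hA ⊢
      obtain ⟨σ, hσ⟩ := hA
      exact ⟨σ, fun z hz => hAB (hσ z hz)⟩)
    (α / 2) (by positivity) (by linarith) (fun S => min 1 (g' S))
    (fun S => ⟨le_min (by norm_num) (hg'0 S), min_le_left _ _⟩)
    (by
      intro A hA
      obtain ⟨σ, hσ⟩ := (Finset.mem_filter.1 hA).2
      refine sum_min_ge _ _ hg'0 ?_
      simp only [g']
      rw [← Finset.sum_div, le_div_iff₀ hcpos, one_mul]
      have h1 : (Finset.univ.filter fun τ : Equiv.Perm (Fin n) => S₀.image (act τ) ⊆ A).card =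
          ∑ S ∈ A.powerset,
            (Finset.univ.filter fun τ : Equiv.Perm (Fin n) => S₀.image (act τ) = S).card := by
        rw [Finset.card_eq_sum_card_fiberwise (f := fun τ => S₀.image (act τ)) (t := A.powerset)
          (fun τ hτ => Finset.mem_coe.2 (Finset.mem_powerset.2 (Finset.mem_filter.1 hτ).2))]
        refine Finset.sum_congr rfl fun S hS => ?_
        rw [Finset.filter_filter]
        congr 1
        refine Finset.filter_congr fun τ _ => ⟨fun h => h.2, fun h => ⟨?_, h⟩⟩
        exact h.trans_subset (Finset.mem_powerset.1 hS)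
      have h2 : cnt H S₀ ≤
          (Finset.univ.filter fun τ : Equiv.Perm (Fin n) => S₀.image (act τ) ⊆ A).card := by
        unfold cnt
        refine Finset.card_le_card_of_injOn (fun ρ => σ * ρ) ?_ (fun a _ b _ h => mul_left_cancel h)
        intro ρ hρ
        simp only [Finset.coe_filter, Finset.mem_univ, true_and, Set.mem_setOf_eq] at hρ ⊢
        intro z hz
        obtain ⟨w, hw, rfl⟩ := Finset.mem_image.1 hz
        rw [act_mul]
        exact hσ _ (hρ w hw)
      rw [h1] at h2
      exact_mod_cast h2)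
    (by
      calc ∑ S : Finset (EdgeSlot n), min 1 (g' S) * (α / 2) ^ S.card
          ≤ ∑ S : Finset (EdgeSlot n), g' S * (α / 2) ^ S₀.card := by
            refine Finset.sum_le_sum fun S _ => ?_
            by_cases hS : S.card = S₀.card
            · rw [hS]; exact mul_le_mul_of_nonneg_right (min_le_right _ _) (by positivity)
            · have : g' S = 0 := by
                simp only [g']
                rw [Finset.filter_eq_empty_iff.2]
                · simp
                · intro τ _ h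
                  exact hS (by rw [← h, Finset.card_image_of_injective _ (act_injective τ)])
              rw [this]; simp
        _ = n.factorial / cnt H S₀ * (α / 2) ^ S₀.card := by
            rw [← Finset.sum_mul]
            congr 1
            simp only [g']
            rw [← Finset.sum_div]
            congr 1
            have := Finset.card_eq_sum_card_fiberwise (s := (Finset.univ : Finset (Equiv.Perm (Fin n))))
              (f := fun τ => S₀.image (act τ)) (t := Finset.univ) (fun _ _ => by simp)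
            rw [Finset.card_univ, Fintype.card_perm, Fintype.card_fin] at this
            rw [this]; push_cast; rfl
        _ = (1 / 2) ^ S₀.card := by
            rw [hc0, div_pow, div_pow, one_pow]
            have := pow_pos hα0 S₀.card
            field_simp
        _ ≤ 1 / 2 := pow_le_of_le_one (by norm_num) (by norm_num) (Finset.card_ne_zero.2 hS₀ne))
  exact ⟨C, fun A hA => hC1 A (Finset.mem_filter.2 ⟨Finset.mem_univ _, hA⟩), hC2⟩

lemma pattern {H : SimpleGraph (Fin n)} {α : ℝ} (hα0 : 0 ≤ α) (hα1 : α ≤ 1) (hS : Spread H α)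
    {V Ξ : Type*} [Fintype V] [DecidableEq V] [Fintype Ξ] (I : Finset (V × V)) (hI : I.Nonempty)
    (hinj : Set.InjOn (fun q : V × V => s(q.1, q.2)) I) (F : Ξ → V → Fin n)
    (hF : Function.Injective F) (hF1 : ∀ ξ, Function.Injective (F ξ))
    (hF2 : ∀ ξ, ∀ q ∈ I, H.Adj (F ξ q.1) (F ξ q.2)) :
    (Fintype.card Ξ : ℝ) ≤ α ^ I.card * n ^ Fintype.card V := by
  classical
  rcases isEmpty_or_nonempty Ξ with hΞ | ⟨⟨ξ₀⟩⟩
  · simp only [Fintype.card_eq_zero, Nat.cast_zero]; positivity
  set f₀ := F ξ₀ with hf₀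
  let S : Finset (EdgeSlot n) := Finset.univ.filter fun z => ∃ q ∈ I, z.1 = s(f₀ q.1, f₀ q.2)
  have hmemS : ∀ q (hq : q ∈ I), slot (f₀ q.1) (f₀ q.2) (hF2 ξ₀ q hq).ne ∈ S := fun q hq =>
    Finset.mem_filter.2 ⟨Finset.mem_univ _, q, hq, rfl⟩
  have hScard : I.card ≤ S.card := by
    have h1 : (I.image fun q => s(f₀ q.1, f₀ q.2)).card = I.card := by
      refine Finset.card_image_of_injOn fun q hq q' hq' h => hinj hq hq' ?_
      exact Sym2.map.injective (hF1 ξ₀) (by simpa using h)
    rw [← h1]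
    refine le_trans (Finset.card_le_card ?_) (Finset.card_image_le (f := Subtype.val) (s := S))
    intro x hx
    obtain ⟨q, hq, rfl⟩ := Finset.mem_image.1 hx
    exact Finset.mem_image.2 ⟨_, hmemS q hq, rfl⟩
  have hSne : S.Nonempty := ⟨_, hmemS _ hI.choose_spec⟩
  set St := Finset.univ.filter fun ρ : Equiv.Perm (Fin n) => ∀ v, ρ (f₀ v) = f₀ v with hSt
  have h1 : n.factorial ≤ St.card * n ^ Fintype.card V := by
    have := Finset.card_le_mul_card_image (f := fun (σ : Equiv.Perm (Fin n)) (v : V) => σ (f₀ v))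
      Finset.univ St.card (by
        intro e he
        obtain ⟨σ₀, -, rfl⟩ := Finset.mem_image.1 he
        refine Finset.card_le_card_of_injOn (fun σ => σ₀⁻¹ * σ) ?_
          (fun a _ b _ h => mul_left_cancel h)
        intro σ hσ
        simp only [Finset.coe_filter, Finset.mem_univ, true_and, Set.mem_setOf_eq, hSt] at hσ ⊢
        intro v
        have := congrFun hσ v
        simp [this])
    rw [Finset.card_univ, Fintype.card_perm, Fintype.card_fin] at this
    refine this.trans (Nat.mul_le_mul_left _ ?_)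
    refine (Finset.card_le_univ _).trans ?_
    simp
  have hτ : ∀ ξ, ∃ τ : Equiv.Perm (Fin n), ∀ v, τ (f₀ v) = F ξ v := fun ξ =>
    Equiv.Perm.exists_extending_pair f₀ (F ξ) (hF1 ξ₀) (hF1 ξ)
  choose τ hτ using hτ
  have h2 : Fintype.card Ξ * St.card ≤ cnt H S := by
    rw [← Finset.card_univ, ← Finset.card_product]
    unfold cnt
    refine Finset.card_le_card_of_injOn (fun q => τ q.1 * q.2) ?_ ?_
    · rintro ⟨ξ, ρ⟩ hq
      simp only [Finset.coe_product, Finset.coe_univ, Set.mem_prod, Set.mem_univ, true_and,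
        Finset.coe_filter, Finset.mem_univ, Set.mem_setOf_eq, hSt] at hq ⊢
      intro z hz
      obtain ⟨q, hqI, hz'⟩ := (Finset.mem_filter.1 hz).2
      simp only [act, hz', Sym2.map_mk, Equiv.Perm.coe_mul, Function.comp, hq, hτ]
      exact hF2 ξ q hqI
    · rintro ⟨ξ, ρ⟩ hq ⟨ξ', ρ'⟩ hq' h
      simp only [Finset.coe_product, Finset.coe_univ, Set.mem_prod, Set.mem_univ, true_and,
        Finset.coe_filter, Finset.mem_univ, Set.mem_setOf_eq, hSt] at hq hq' h
      have e : ξ = ξ' := by
        refine hF (funext fun v => ?_)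
        have := congrArg (fun σ : Equiv.Perm (Fin n) => σ (f₀ v)) h
        simpa [hq, hq', hτ] using this
      subst e
      rw [mul_left_cancel h]
  have hf : (0 : ℝ) < n.factorial := by exact_mod_cast n.factorial_pos
  have h3 := (hS S hSne).trans (mul_le_mul_of_nonneg_right
    (pow_le_pow_of_le_one hα0 hα1 hScard) hf.le)
  have h1' : (n.factorial : ℝ) ≤ St.card * n ^ Fintype.card V := by exact_mod_cast h1
  have h2' : (Fintype.card Ξ : ℝ) * St.card ≤ cnt H S := by exact_mod_cast h2
  refine le_of_mul_le_mul_right ?_ hf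
  calc (Fintype.card Ξ : ℝ) * n.factorial ≤ Fintype.card Ξ * (St.card * n ^ Fintype.card V) :=
        mul_le_mul_of_nonneg_left h1' (by positivity)
    _ = (Fintype.card Ξ * St.card) * n ^ Fintype.card V := by ring
    _ ≤ (α ^ I.card * n.factorial) * n ^ Fintype.card V :=
        mul_le_mul_of_nonneg_right (h2'.trans h3) (by positivity)
    _ = _ := by ring

end Crest.Agent.R52G
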