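import Crest.Agent.R52G.Layer

set_option autoImplicit false

open Finset Crest.FinProb Crest.CombinatoricsR.RandomGraph

namespace Crest.Agent.R52G

section binom
variable {A : Type*} [Fintype A] [DecidableEq A]

lemma binom_lower_tail {p : ℝ} (h0 : 0 ≤ p) (h1 : p ≤ 1) (d : ℕ) :
    Ex p (fun y : A → Bool => ind (¬ d ≤ (Finset.univ.filter fun a => y a = true).card)) ≤
      2 ^ d / 2 * (1 - p / 2) ^ Fintype.card A := by
  have h := Ex_prod (ι := A) p (fun _ b => if b then (1 / 2 : ℝ) else 1)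
  simp only [if_true, Bool.false_eq_true, if_false, Finset.prod_const, Finset.card_univ] at h
  have e : p * (1 / 2) + (1 - p) * 1 = 1 - p / 2 := by ring
  rw [e] at h
  rw [← h, ← Ex_const_mul]
  refine Ex_mono h0 h1 fun y => ?_
  have e2 : ∏ a, (if y a = true then (1 / 2 : ℝ) else 1) =
      (1 / 2) ^ (Finset.univ.filter fun a => y a = true).card := by
    rw [Finset.prod_ite]; simp
  rw [e2]
  by_cases hy : d ≤ (Finset.univ.filter fun a => y a = true).card
  · rw [ind_false (not_not.2 hy)]; positivity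
  · rw [ind_true hy]
    push Not at hy
    obtain ⟨k, hk⟩ := Nat.exists_eq_add_of_lt hy
    rw [hk, pow_succ, pow_add, one_div_pow]
    have : (1 : ℝ) ≤ 2 ^ k := one_le_pow₀ (by norm_num)
    field_simp
    exact this

lemma binom_point {p : ℝ} (h0 : 0 ≤ p) (h1 : p ≤ 1) (d : ℕ) (S : Finset A) :
    (S.card.choose d : ℝ) * (p ^ d * (1 - p) ^ S.card) ≤
      Ex p (fun y : A → Bool => ind (d ≤ (Finset.univ.filter fun a => y a = true).card)) := by
  have hL : ∀ L ∈ S.powersetCard d, p ^ d * (1 - p) ^ S.card ≤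
      Ex p (fun y : A → Bool => ∏ a ∈ S, ind (y a = true ↔ a ∈ L)) := by
    intro L hL
    obtain ⟨hLS, hLd⟩ := Finset.mem_powersetCard.1 hL
    rw [Ex_prod_finset p S (fun a b => ind (b = true ↔ a ∈ L))]
    have e : ∏ a ∈ S, (p * ind (true = true ↔ a ∈ L) + (1 - p) * ind (false = true ↔ a ∈ L)) =
        ∏ a ∈ S, (if a ∈ L then p else 1 - p) := by
      refine Finset.prod_congr rfl fun a _ => ?_
      by_cases h : a ∈ L <;> simp [ind, h]
    rw [e, Finset.prod_ite, Finset.prod_const, Finset.prod_const, Finset.filter_mem_eq_inter,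
      Finset.inter_eq_right.2 hLS, hLd]
    refine mul_le_mul_of_nonneg_left ?_ (by positivity)
    exact pow_le_pow_of_le_one (by linarith) (by linarith) (Finset.card_filter_le _ _)
  calc _ = ∑ _L ∈ S.powersetCard d, p ^ d * (1 - p) ^ S.card := by
        rw [Finset.sum_const, Finset.card_powersetCard, nsmul_eq_mul]
    _ ≤ ∑ L ∈ S.powersetCard d, Ex p (fun y : A → Bool => ∏ a ∈ S, ind (y a = true ↔ a ∈ L)) :=
        Finset.sum_le_sum hL
    _ = Ex p (fun y : A → Bool => ∑ L ∈ S.powersetCard d, ∏ a ∈ S, ind (y a = true ↔ a ∈ L)) :=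
        (Ex_sum _ _ _).symm
    _ ≤ _ := by
        refine Ex_mono h0 h1 fun y => ?_
        have hz : ∀ L ∈ S.powersetCard d, L ≠ S.filter (fun a => y a = true) →
            ∏ a ∈ S, ind (y a = true ↔ a ∈ L) = 0 := by
          intro L hL hne
          by_contra hc
          refine hne (Finset.ext fun a => ?_)
          by_cases ha : a ∈ S
          · have := Finset.prod_ne_zero_iff.1 hc a ha
            have h2 : y a = true ↔ a ∈ L := by
              by_contra h3; exact this (ind_false h3)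
            simp [ha, h2]
          · have : a ∉ L := fun h => ha ((Finset.mem_powersetCard.1 hL).1 h)
            simp [ha, this]
        by_cases hm : S.filter (fun a => y a = true) ∈ S.powersetCard d
        · rw [Finset.sum_eq_single_of_mem _ hm hz, ind_true]
          · exact Finset.prod_le_one (fun _ _ => ind_nonneg _) fun _ _ => ind_le_one _
          · rw [← (Finset.mem_powersetCard.1 hm).2]
            exact Finset.card_le_card (Finset.filter_subset_filter _ (Finset.subset_univ S))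
        · rw [Finset.sum_eq_zero fun L hL => hz L hL (fun e => hm (e ▸ hL))]
          exact ind_nonneg _

end binom

variable {n : ℕ}

open Classical in
/-- neighbours of `u` inside `S` -/
noncomputable def nbr (ω : EdgeSlot n → Bool) (u : Fin n) (S : Finset (Fin n)) : Finset (Fin n) :=
  S.filter fun v => (graphOf ω).Adj u v

lemma mem_nbr {ω : EdgeSlot n → Bool} {u v : Fin n} {S : Finset (Fin n)} :
    v ∈ nbr ω u S ↔ v ∈ S ∧ (graphOf ω).Adj u v := by
  simp [nbr]

lemma Ex_nbr (p : ℝ) (u : Fin n) (S : Finset (Fin n)) (hu : u ∉ S) (F : ℕ → ℝ) :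
    Ex p (fun ω => F (nbr ω u S).card) =
      Ex p (fun y : S → Bool => F (Finset.univ.filter fun a => y a = true).card) := by
  have hne : ∀ v : S, u ≠ v := fun v h => hu (h ▸ v.2)
  let e : S → EdgeSlot n := fun v => slot u v (hne v)
  have he : Function.Injective e := by
    intro v w h
    have h' : s(u, (v : Fin n)) = s(u, (w : Fin n)) := congrArg Subtype.val h
    exact Subtype.ext (Sym2.congr_right.1 h')
  rw [← Ex_comp_inj p e he]
  congr 1
  funext ω
  congr 1
  symm
  refine Finset.card_bij (fun v _ => (v : Fin n)) ?_ ?_ ?_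
  · intro v hv
    exact mem_nbr.2 ⟨v.2, (adj_iff _ _ _).2 ⟨hne v, (Finset.mem_filter.1 hv).2⟩⟩
  · intro v _ w _ h; exact Subtype.ext h
  · intro v hv
    obtain ⟨h1, h2⟩ := mem_nbr.1 hv
    obtain ⟨_, h3⟩ := (adj_iff _ _ _).1 h2
    exact ⟨⟨v, h1⟩, Finset.mem_filter.2 ⟨Finset.mem_univ _, h3⟩, rfl⟩

def Succ (dg : Fin n → ℕ) (T C U : Finset (Fin n)) (ω : EdgeSlot n → Bool) : Prop :=
  ∃ ψ : Fin n → Fin n, ∃ L : Fin n → Finset (Fin n), Set.InjOn ψ C ∧
    (∀ a ∈ C, ψ a ∈ T ∧ L a ⊆ U ∧ (L a).card = dg a ∧ ∀ v ∈ L a, (graphOf ω).Adj (ψ a) v) ∧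
    ∀ a ∈ C, ∀ a' ∈ C, a ≠ a' → Disjoint (L a) (L a')

lemma adj_merge_of_ne {u a b : Fin n} (ω₁ ω₂ : EdgeSlot n → Bool) (ha : a ≠ u) (hb : b ≠ u)
    (h : (graphOf ω₂).Adj a b) :
    (graphOf (fun z : EdgeSlot n => if u ∉ z.1 then ω₂ z else ω₁ z)).Adj a b := by
  obtain ⟨hne, hω⟩ := (adj_iff _ _ _).1 h
  refine (adj_iff _ _ _).2 ⟨hne, ?_⟩
  have : u ∉ (slot a b hne).1 := by
    simp only [slot, Sym2.mem_iff, not_or]; exact ⟨ha.symm, hb.symm⟩
  simp only [if_pos this]; exact hω

lemma adj_merge_self {u b : Fin n} (ω₁ ω₂ : EdgeSlot n → Bool) (h : (graphOf ω₁).Adj u b) :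
    (graphOf (fun z : EdgeSlot n => if u ∉ z.1 then ω₂ z else ω₁ z)).Adj u b := by
  obtain ⟨hne, hω⟩ := (adj_iff _ _ _).1 h
  refine (adj_iff _ _ _).2 ⟨hne, ?_⟩
  have : ¬ u ∉ (slot u b hne).1 := by simp [slot]
  simp only [if_neg this]; exact hω

noncomputable def term (cl cc : Fin n → ℕ) (ρ : ℕ → ℝ) (T C : Finset (Fin n)) (c : ℕ) : ℝ :=
  (2 ^ (C.filter fun a => cl a = c).card - 1) * (1 - ρ c / 2) ^ (T.filter fun u => cc u = c).card

lemma term_nonneg (cl cc : Fin n → ℕ) {ρ : ℕ → ℝ} (hρ : ∀ c, ρ c ≤ 1) (T C : Finset (Fin n))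
    (c : ℕ) : 0 ≤ term cl cc ρ T C c :=
  mul_nonneg (sub_nonneg.2 (one_le_pow₀ (by norm_num))) (pow_nonneg (by linarith [hρ c]) _)

lemma sequential {p : ℝ} (h0 : 0 ≤ p) (h1 : p ≤ 1) (dg cl cc : Fin n → ℕ) (ρ : ℕ → ℝ)
    (hρ0 : ∀ c, 0 ≤ ρ c) (hρ1 : ∀ c, ρ c ≤ 1) (I : Finset ℕ) (N₀ : ℕ) (C₀ : Finset (Fin n))
    (hI : ∀ a ∈ C₀, cl a ∈ I)
    (hρ : ∀ a ∈ C₀, ∀ u S, u ∉ S → N₀ ≤ S.card →
      ρ (cl a) ≤ Ex p (fun ω : EdgeSlot n → Bool => ind (dg a ≤ (nbr ω u S).card)))
    (T : Finset (Fin n)) : ∀ C ⊆ C₀, ∀ U, Disjoint T U → N₀ + ∑ a ∈ C, dg a ≤ U.card →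
      Ex p (fun ω => ind (¬ Succ dg T C U ω)) ≤ ∑ c ∈ I, term cl cc ρ T C c := by
  classical
  induction T using Finset.induction_on with
  | empty =>
    intro C hC U _ _
    refine Ex_le_const h0 h1 fun ω => ?_
    rcases C.eq_empty_or_nonempty with rfl | ⟨a, ha⟩
    · rw [ind_false]
      · exact Finset.sum_nonneg fun c _ => term_nonneg _ _ hρ1 _ _ _
      · rw [not_not]; exact ⟨id, fun _ => ∅, by simp, by simp, by simp⟩
    · refine (ind_le_one _).trans (le_trans ?_ (Finset.single_le_sum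
        (fun c _ => term_nonneg _ _ hρ1 _ _ c) (hI a (hC ha))))
      simp only [term, Finset.filter_empty, Finset.card_empty, pow_zero, mul_one]
      have : 1 ≤ (C.filter fun x => cl x = cl a).card :=
        Finset.card_pos.2 ⟨a, Finset.mem_filter.2 ⟨ha, rfl⟩⟩
      have := pow_le_pow_right₀ (by norm_num : (1 : ℝ) ≤ 2) this
      linarith
  | insert u T hu ih =>
    intro C hC U hTU hU
    have huU : u ∉ U := Finset.disjoint_left.1 hTU (Finset.mem_insert_self u T)
    have hTU' : Disjoint T U := Finset.disjoint_of_subset_left (Finset.subset_insert u T) hTU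
    have hoth : ∀ C' c, c ≠ cc u → term cl cc ρ (insert u T) C' c = term cl cc ρ T C' c := by
      intro C' c hc
      simp only [term]
      rw [Finset.filter_insert, if_neg (Ne.symm hc)]
    have hself : ∀ C', term cl cc ρ (insert u T) C' (cc u) =
        term cl cc ρ T C' (cc u) * (1 - ρ (cc u) / 2) := by
      intro C'
      simp only [term]
      rw [Finset.filter_insert, if_pos rfl, Finset.card_insert_of_notMem (by simp [hu]), pow_succ]
      ring
    by_cases hex : ∃ a ∈ C, cl a = cc u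
    swap
    · have e : ∑ c ∈ I, term cl cc ρ (insert u T) C c = ∑ c ∈ I, term cl cc ρ T C c := by
        refine Finset.sum_congr rfl fun c _ => ?_
        by_cases hc : c = cc u
        · subst hc
          have : C.filter (fun a => cl a = cc u) = ∅ :=
            Finset.filter_eq_empty_iff.2 fun a ha h => hex ⟨a, ha, h⟩
          simp [term, this]
        · exact hoth C c hc
      rw [e]
      refine le_trans ?_ (ih C hC U hTU' hU)
      refine Ex_mono h0 h1 fun ω => ind_mono fun hn hs => hn ?_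
      obtain ⟨ψ, L, a1, a2, a3⟩ := hs
      exact ⟨ψ, L, a1, fun a ha => ⟨Finset.mem_insert_of_mem (a2 a ha).1, (a2 a ha).2⟩, a3⟩
    obtain ⟨a, ha, hcl⟩ := hex
    set Φ₁ := ∑ c ∈ I, term cl cc ρ T (C.erase a) c with hΦ₁
    set Φ₂ := ∑ c ∈ I, term cl cc ρ T C c with hΦ₂
    have hne : ∀ x ∈ T, x ≠ u := fun x hx e => hu (e ▸ hx)
    have hne' : ∀ x ∈ U, x ≠ u := fun x hx e => huU (e ▸ hx)
    rw [Ex_merge p (fun z : EdgeSlot n => u ∉ z.1)]
    have hstep : ∀ ω₁ : EdgeSlot n → Bool, Ex p (fun ω₂ => ind (¬ Succ dg (insert u T) C U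
        (fun z : EdgeSlot n => if u ∉ z.1 then ω₂ z else ω₁ z))) ≤
        Φ₂ - ind (dg a ≤ (nbr ω₁ u U).card) * (Φ₂ - Φ₁) := by
      intro ω₁
      by_cases hg : dg a ≤ (nbr ω₁ u U).card
      · rw [ind_true hg]
        obtain ⟨L₀, hL₀, hL₀c⟩ := Finset.exists_subset_card_eq hg
        have hL₀U : L₀ ⊆ U := fun v hv => (mem_nbr.1 (hL₀ hv)).1
        have := ih (C.erase a) ((Finset.erase_subset a C).trans hC) (U \ L₀)
          (Finset.disjoint_of_subset_right Finset.sdiff_subset hTU') (by
            rw [Finset.card_sdiff_of_subset hL₀U, hL₀c]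
            rw [← Finset.add_sum_erase _ _ ha] at hU
            omega)
        have e0 : Φ₂ - 1 * (Φ₂ - Φ₁) = Φ₁ := by ring
        rw [e0]
        refine le_trans ?_ this
        refine Ex_mono h0 h1 fun ω₂ => ind_mono fun hn hs => hn ?_
        obtain ⟨ψ, L, a1, a2, a3⟩ := hs
        have hmem : ∀ x ∈ C, x ≠ a → x ∈ C.erase a := fun x hx hxa => Finset.mem_erase.2 ⟨hxa, hx⟩
        refine ⟨Function.update ψ a u, Function.update L a L₀, ?_, ?_, ?_⟩
        · intro x hx x' hx' h
          by_cases e : x = a <;> by_cases e' : x' = a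
          · rw [e, e']
          · subst e
            rw [Function.update_self, Function.update_of_ne e'] at h
            exact absurd h.symm (hne _ (a2 x' (hmem x' hx' e')).1)
          · subst e'
            rw [Function.update_self, Function.update_of_ne e] at h
            exact absurd h (hne _ (a2 x (hmem x hx e)).1)
          · rw [Function.update_of_ne e, Function.update_of_ne e'] at h
            exact a1 (hmem x hx e) (hmem x' hx' e') h
        · intro x hx
          by_cases e : x = a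
          · subst e
            simp only [Function.update_self]
            exact ⟨Finset.mem_insert_self _ _, hL₀U, hL₀c,
              fun v hv => adj_merge_self ω₁ ω₂ (mem_nbr.1 (hL₀ hv)).2⟩
          · simp only [Function.update_of_ne e]
            obtain ⟨b1, b2, b3, b4⟩ := a2 x (hmem x hx e)
            exact ⟨Finset.mem_insert_of_mem b1, b2.trans Finset.sdiff_subset, b3, fun v hv =>
              adj_merge_of_ne ω₁ ω₂ (hne _ b1) (hne' _ (Finset.sdiff_subset (b2 hv))) (b4 v hv)⟩
        · intro x hx x' hx' h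
          by_cases e : x = a <;> by_cases e' : x' = a
          · exact absurd (e.trans e'.symm) h
          · subst e
            rw [Function.update_self, Function.update_of_ne e']
            exact Finset.disjoint_of_subset_right (a2 x' (hmem x' hx' e')).2.1 Finset.disjoint_sdiff
          · subst e'
            rw [Function.update_self, Function.update_of_ne e]
            exact Finset.disjoint_of_subset_left (a2 x (hmem x hx e)).2.1 Finset.sdiff_disjoint
          · rw [Function.update_of_ne e, Function.update_of_ne e']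
            exact a3 x (hmem x hx e) x' (hmem x' hx' e') h
      · rw [ind_false hg, zero_mul, sub_zero]
        refine le_trans ?_ (ih C hC U hTU' hU)
        refine Ex_mono h0 h1 fun ω₂ => ind_mono fun hn hs => hn ?_
        obtain ⟨ψ, L, a1, a2, a3⟩ := hs
        refine ⟨ψ, L, a1, fun x hx => ?_, a3⟩
        obtain ⟨b1, b2, b3, b4⟩ := a2 x hx
        exact ⟨Finset.mem_insert_of_mem b1, b2, b3, fun v hv =>
          adj_merge_of_ne ω₁ ω₂ (hne _ b1) (hne' _ (b2 hv)) (b4 v hv)⟩
    refine (Ex_mono h0 h1 hstep).trans ?_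
    rw [Ex_sub, Ex_const, Ex_mul_const]
    have hg := hρ a (hC ha) u U huU (by omega)
    rw [hcl] at hg
    have hcI : cc u ∈ I := hcl ▸ hI a (hC ha)
    have hoth2 : ∀ c, c ≠ cc u → term cl cc ρ T (C.erase a) c = term cl cc ρ T C c := by
      intro c hc
      simp only [term]
      rw [Finset.filter_erase, Finset.erase_eq_of_notMem]
      simp only [Finset.mem_filter, not_and]
      intro _ h; exact hc (h.symm.trans hcl)
    have e1 : Φ₂ - Φ₁ = term cl cc ρ T C (cc u) - term cl cc ρ T (C.erase a) (cc u) := by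
      rw [hΦ₁, hΦ₂, ← Finset.add_sum_erase _ _ hcI, ← Finset.add_sum_erase _ _ hcI,
        Finset.sum_congr rfl fun c hc => hoth2 c (Finset.ne_of_mem_erase hc)]
      ring
    have e2 : ∑ c ∈ I, term cl cc ρ (insert u T) C c =
        Φ₂ - term cl cc ρ T C (cc u) * (ρ (cc u) / 2) := by
      rw [hΦ₂, ← Finset.add_sum_erase _ _ hcI, ← Finset.add_sum_erase _ _ hcI,
        Finset.sum_congr rfl fun c hc => hoth C c (Finset.ne_of_mem_erase hc), hself]
      ring
    have e3 : term cl cc ρ T C (cc u) / 2 ≤ Φ₂ - Φ₁ := by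
      rw [e1]
      simp only [term]
      have hmem : a ∈ C.filter (fun x => cl x = cc u) := Finset.mem_filter.2 ⟨ha, hcl⟩
      rw [Finset.filter_erase, Finset.card_erase_of_mem hmem]
      obtain ⟨k, hk⟩ := Nat.exists_eq_succ_of_ne_zero (Finset.card_ne_zero.2 ⟨a, hmem⟩)
      rw [hk, Nat.succ_sub_one, pow_succ]
      have : 0 ≤ (1 - ρ (cc u) / 2) ^ (T.filter fun v => cc v = cc u).card :=
        pow_nonneg (by linarith [hρ1 (cc u)]) _
      nlinarith
    rw [e2]
    have t0 := term_nonneg cl cc hρ1 T C (cc u)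
    have := mul_le_mul hg e3 (by linarith) (le_trans (hρ0 _) hg)
    linarith

end Crest.Agent.R52G
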